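import Vale.Agent.P242.H358.Dens3

/-!
P242 (helper358), package A-GH: almost splitting maps are almost isometries with almost dense image.
-/

set_option linter.all false

open MeasureTheory Filter Topology Set Metric
open scoped ENNReal NNReal

universe u

namespace Vale.Agent.P242.H358

open Vale.Agent.P233 Vale.Agent.P233.H866

section metric

variable {M : Type u} [MetricSpace M] [MeasurableSpace M] [BorelSpace M]
  [SecondCountableTopology M] {m : Measure M} {C : Calc m} {n : ℕ} {x : M} {R : ℝ}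
  {U : Fin n → M → ℝ} {L : Fin n → M →ₘ[m] ℝ}

theorem le_sum_sq {a : Fin n → ℝ} {A : ℝ} (hA : 0 ≤ A) (h : ∑ i, a i ^ 2 ≤ A ^ 2) (i : Fin n) :
    |a i| ≤ A := by
  refine abs_le_of_sq_le_sq ?_ hA
  exact (Finset.single_le_sum (f := fun i => a i ^ 2) (fun i _ => sq_nonneg _)
    (Finset.mem_univ i)).trans h

/-- the combined integral from the Gram matrix and the Laplacians -/
theorem Sf_bound (hD : IsDir C) (hfin : ∀ (x : M) (r : ℝ), m (ball x r) < ∞) (hR : 0 < R)
    (hUc : ∀ i, Continuous (U i)) (hUA : ∀ i, cl m (U i) ∈ C.A)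
    (hL : ∀ i, C.IsLap (cl m (U i)) (L i))
    (hU2 : ∀ z ∈ ball x R, ∑ i, (U i z - U i x) ^ 2 ≤ (2 * R) ^ 2) {δ : ℝ}
    (hG : ∀ i, ∫ z in ball x R, |C.Γ (cl m (U i)) (cl m (U i)) z - 1| ∂m ≤ δ)
    (hLi : ∀ i, R * ∫ z in ball x R, |L i z| ∂m ≤ δ) :
    ∫ z in ball x R, |Sf C U L x z - n| ∂m ≤ 3 * n * δ := by
  haveI : IsFiniteMeasure (m.restrict (ball x R)) := ⟨by
    rw [Measure.restrict_apply_univ]; exact hfin x R⟩
  have i1 : ∀ i, IntegrableOn (fun z => |C.Γ (cl m (U i)) (cl m (U i)) z - 1|) (ball x R) m := by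
    intro i
    have h1 : IntegrableOn (C.Γ (cl m (U i)) (cl m (U i))) (ball x R) m :=
      (int_of_mem (hD.mem1 _ (hUA i).1)).integrableOn
    exact (h1.sub (integrable_const 1)).abs
  have i2 : ∀ i, IntegrableOn (fun z => |L i z|) (ball x R) m := by
    intro i
    have h1 : IntegrableOn (L i) (ball x R) m := ((hL i).2.1.restrict _).integrable (by norm_num)
    exact h1.abs
  have i3 : ∀ i, IntegrableOn (fun z => |C.Γ (cl m (U i)) (cl m (U i)) z - 1|
      + 2 * R * |L i z|) (ball x R) m := fun i => (i1 i).add ((i2 i).const_mul _)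
  have h1 : ∫ z in ball x R, |Sf C U L x z - n| ∂m
      ≤ ∫ z in ball x R, ∑ i, (|C.Γ (cl m (U i)) (cl m (U i)) z - 1| + 2 * R * |L i z|) ∂m := by
    refine setIntegral_mono_on ?_ (integrable_finsetSum _ fun i _ => i3 i) measurableSet_ball ?_
    · exact ((Sf_int hD hfin hUc hUA hL x R).sub (integrable_const _)).abs
    · intro z hz
      have e : Sf C U L x z - n = ∑ i, ((C.Γ (cl m (U i)) (cl m (U i)) z - 1)
          + (U i z - U i x) * L i z) := by
        unfold Sf
        have e1 : (n : ℝ) = ∑ i : Fin n, (1 : ℝ) := by simp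
        rw [e1, ← Finset.sum_sub_distrib]
        exact Finset.sum_congr rfl fun i _ => by ring
      rw [e]
      refine (Finset.abs_sum_le_sum_abs _ _).trans (Finset.sum_le_sum fun i _ => ?_)
      refine (abs_add_le _ _).trans (add_le_add le_rfl ?_)
      rw [abs_mul]
      exact mul_le_mul_of_nonneg_right (le_sum_sq (by positivity) (hU2 z hz) i) (abs_nonneg _)
  refine h1.trans ?_
  rw [integral_finsetSum _ fun i _ => i3 i]
  have h2 : ∀ i, ∫ z in ball x R, (|C.Γ (cl m (U i)) (cl m (U i)) z - 1| + 2 * R * |L i z|) ∂m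
      ≤ 3 * δ := by
    intro i
    rw [integral_add (i1 i) ((i2 i).const_mul _), integral_const_mul]
    have := hG i
    have := hLi i
    linarith
  refine (Finset.sum_le_sum fun i _ => h2 i).trans ?_
  rw [Finset.sum_const, Finset.card_univ, Fintype.card_fin, nsmul_eq_mul]
  linarith

/-- the bump at the centre -/
theorem bump_center (hD : IsDir C) (hfin : ∀ (x : M) (r : ℝ), m (ball x r) < ∞) (hR : 0 < R)
    (hUc : ∀ i, Continuous (U i)) {θ : ℝ → ℝ} (hθ : Continuous θ)
    (h01 : ∀ t, 0 ≤ θ t ∧ θ t ≤ 1) (hθ1 : ∀ t, |t| ≤ 1 / 2 → θ t = 1)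
    (hU : ∀ z ∈ ball x R, ∑ i, (U i z - U i x) ^ 2 ≤ (2 * dist x z) ^ 2) (v : Fin n → ℝ)
    {ρ : ℝ} (hρ : 0 < ρ) (hρR : ρ ≤ R) :
    m.real (ball x (ρ / 4)) ≤ ∫ z, cut (yf x R z) * ∏ k, zt θ U x v ρ 0 k (U k z) ∂m := by
  have hc : Continuous fun z => cut (yf x R z) * ∏ k, zt θ U x v ρ 0 k (U k z) := by
    refine (continuous_cut.comp (continuous_yf x R)).mul (continuous_finsetProd _ fun k _ => ?_)
    unfold zt
    exact hθ.comp ((((hUc k).sub continuous_const).sub continuous_const).div_const _)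
  have hint : Integrable (fun z => cut (yf x R z) * ∏ k, zt θ U x v ρ 0 k (U k z)) m := by
    have h1 : IntegrableOn (fun z => cut (yf x R z) * ∏ k, zt θ U x v ρ 0 k (U k z))
        (ball x R) m := by
      refine Measure.integrableOn_of_bounded (M := 1) (hfin x R).ne hc.aestronglyMeasurable ?_
      refine ae_of_all _ fun z => ?_
      rw [Real.norm_eq_abs, abs_mul, Finset.abs_prod]
      refine mul_le_one₀ ?_ (Finset.prod_nonneg fun _ _ => abs_nonneg _)
        (Finset.prod_le_one (fun _ _ => abs_nonneg _) fun k _ => ?_)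
      · rw [abs_of_nonneg (cut_mem _).1]; exact (cut_mem _).2
      · unfold zt
        rw [abs_of_nonneg (h01 _).1]; exact (h01 _).2
    refine h1.integrable_of_forall_notMem_eq_zero fun z hz => ?_
    by_cases h2 : cut (yf x R z) = 0
    · rw [h2, zero_mul]
    · have := cut_supp hR h2
      rw [mem_ball, dist_comm, not_lt] at hz
      linarith
  obtain ⟨j1, j2⟩ := int_ind hfin x (ρ / 4) 1
  rw [one_mul] at j2
  rw [← j2]
  refine integral_mono_ae j1 hint (ae_of_all _ fun z => ?_)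
  dsimp only
  by_cases hz : z ∈ ball x (ρ / 4)
  · rw [indicator_of_mem hz]
    rw [mem_ball, dist_comm] at hz
    have hzR : dist x z < R := by linarith
    have h1 : cut (yf x R z) = 1 := by
      refine cut_one ?_
      rw [yf_of_lt hR hzR, div_le_iff₀ (by positivity)]
      have : 0 ≤ dist x z := dist_nonneg
      nlinarith
    have h2 : ∏ k, zt θ U x v ρ 0 k (U k z) = 1 := by
      refine Finset.prod_eq_one fun k _ => ?_
      unfold zt
      rw [if_neg (Nat.not_lt_zero _), sub_zero]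
      refine hθ1 _ ?_
      rw [abs_div, abs_of_pos hρ, div_le_iff₀ hρ]
      have h3 := le_sum_sq (by positivity) (hU z (by rw [mem_ball, dist_comm]; exact hzR)) k
      linarith
    rw [h1, h2, one_mul]
  · rw [indicator_of_notMem hz]
    refine mul_nonneg (cut_mem _).1 (Finset.prod_nonneg fun k _ => ?_)
    unfold zt
    exact (h01 _).1

end metric

/-- **Package A-GH.** Almost splitting maps are almost isometries with almost dense image. -/
theorem near_iso (n : ℕ) (hn : 1 ≤ n) {c Cv ψ : ℝ} (hc : 0 < c) (hCv : 0 ≤ Cv) (hψ : 0 < ψ) :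
    ∃ δ > 0, ∀ {M : Type u} [MetricSpace M] [CompleteSpace M] [SecondCountableTopology M]
      [MeasurableSpace M] [BorelSpace M] {m : Measure M} {K : ℝ} (hS : Std m K n) (x : M) (R : ℝ),
      0 < R → |K| * R ^ 2 ≤ δ →
      (∀ y ∈ ball x R, ∀ r, 0 < r → r ≤ R → c * r ^ n ≤ m.real (ball y r)) →
      (∀ r, 0 < r → r ≤ R → m.real (ball x r) ≤ Cv * r ^ n) →
      ∀ (U : Fin n → M → ℝ) (L : Fin n → M →ₘ[m] ℝ), (∀ i, Continuous (U i)) →
      (∀ i, cl m (U i) ∈ (sob m).A) → (∀ i, (sob m).IsLap (cl m (U i)) (L i)) →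
      (∀ z ∈ ball x R, ∑ i, (U i z - U i x) ^ 2 ≤ (1 + δ) * dist x z ^ 2) →
      (∀ y ∈ ball x R, ∀ z ∈ ball x R, ∑ i, (U i y - U i z) ^ 2 ≤ 4 * dist y z ^ 2) →
      (∀ i j, ∫ z in ball x R, |(sob m).Γ (cl m (U j)) (cl m (U i)) z - if j = i then 1 else 0| ∂m
        ≤ δ * R ^ n) →
      (∀ i, R * ∫ z in ball x R, |L i z| ∂m ≤ δ * R ^ n) →
      (∀ z ∈ ball x (R / 2), |∑ i, (U i z - U i x) ^ 2 - dist x z ^ 2| ≤ ψ * R ^ 2) ∧
      ∀ v : Fin n → ℝ, ∑ i, v i ^ 2 ≤ 16 / 100 * R ^ 2 →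
        ∃ z ∈ ball x (R / 2), ∑ i, (U i z - U i x - v i) ^ 2 ≤ (ψ * R) ^ 2 := by
  have hn' : (1 : ℝ) ≤ n := by exact_mod_cast hn
  have hψ1 : 0 < min ψ (1 / 100) := lt_min hψ (by norm_num)
  obtain ⟨δ₁, hδ₁, hmain⟩ := gh_main.{u} n hn hc hCv hψ1
  obtain ⟨θ, θ', hθ', hθd, h01, hθ0, hθ1, B, hB0, hB⟩ := exists_bump
  have hθ : Continuous θ := continuous_iff_continuousAt.2 fun t => (hθd t).continuousAt
  set κ : ℝ := min (1 / (25 * n)) (ψ / n) with hκ
  have hκ0 : 0 < κ := lt_min (by positivity) (by positivity)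
  have hκ1 : κ ≤ 1 / (25 * n) := min_le_left _ _
  have hκ2 : κ ≤ ψ / n := min_le_right _ _
  have hκn : n * κ ≤ 1 / 25 := by
    calc n * κ ≤ n * (1 / (25 * n)) := by gcongr
      _ = 1 / 25 := by field_simp
  have hκψ : n * κ ≤ ψ := by
    calc n * κ ≤ n * (ψ / n) := by gcongr
      _ = ψ := by field_simp
  have hκle : κ ≤ 1 := by nlinarith
  have hκ6 : 6 * n * κ ^ 2 ≤ 1 / 100 := by nlinarith
  have hκψ' : κ ≤ ψ := by nlinarith
  have hκs : n * κ ^ 2 ≤ ψ ^ 2 := by
    calc n * κ ^ 2 = (n * κ) * κ := by ring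
      _ ≤ ψ * ψ := by gcongr
      _ = ψ ^ 2 := by ring
  set e : ℝ := n * ((n + 1) * (2 * B + 2)) with he
  have he0 : 0 < e := by positivity
  set δ : ℝ := min 1 (min (δ₁ / (3 * n)) (c * (κ / 4) ^ n / (2 * e))) with hδ
  have hδ0 : 0 < δ := lt_min one_pos (lt_min (by positivity) (by positivity))
  have hδ1 : δ ≤ 1 := min_le_left _ _
  have hδ2 : 3 * n * δ ≤ δ₁ := by
    have : δ ≤ δ₁ / (3 * n) := (min_le_right _ _).trans (min_le_left _ _)
    calc 3 * n * δ ≤ 3 * n * (δ₁ / (3 * n)) := by gcongr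
      _ = δ₁ := by field_simp
  have hδ3 : e * δ < c * (κ / 4) ^ n := by
    have h1 : δ ≤ c * (κ / 4) ^ n / (2 * e) := (min_le_right _ _).trans (min_le_right _ _)
    have h2 : 0 < c * (κ / 4) ^ n := by positivity
    calc e * δ ≤ e * (c * (κ / 4) ^ n / (2 * e)) := by gcongr
      _ = c * (κ / 4) ^ n / 2 := by field_simp
      _ < c * (κ / 4) ^ n := by linarith
  have hδ4 : δ ≤ δ₁ := by nlinarith
  refine ⟨δ, hδ0, ?_⟩
  intro M _ _ _ _ _ m K hS x R hR hK hcc hCC U L hUc hUA hL hU hU2 hG hLi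
  have hD := (std_gamma hS).toIsDir
  have hRn : 0 < R ^ n := by positivity
  have hUd : ∀ z ∈ ball x R, ∑ i, (U i z - U i x) ^ 2 ≤ (2 * dist x z) ^ 2 := by
    intro z hz
    refine (hU z hz).trans ?_
    have : 0 ≤ dist x z ^ 2 := sq_nonneg _
    nlinarith
  have hUR : ∀ z ∈ ball x R, ∑ i, (U i z - U i x) ^ 2 ≤ (2 * R) ^ 2 := by
    intro z hz
    refine (hUd z hz).trans ?_
    rw [mem_ball, dist_comm] at hz
    have : 0 ≤ dist x z := dist_nonneg
    gcongr
  have hiso := hmain hS x R hR (hK.trans hδ4) hcc hCC U L hUc hUA hL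
    (fun z hz => (hU z hz).trans (by gcongr)) hU2 (by
      refine (Sf_bound hD hS.hfin hR hUc hUA hL hUR (fun i => ?_) hLi).trans ?_
      · have := hG i i
        simpa using this
      · calc 3 * n * (δ * R ^ n) = 3 * n * δ * R ^ n := by ring
          _ ≤ δ₁ * R ^ n := by gcongr)
  refine ⟨fun z hz => (hiso z hz).trans ?_, fun v hv => ?_⟩
  · have : min ψ (1 / 100) ≤ ψ := min_le_left _ _
    gcongr
  · have hiso' : ∀ z ∈ ball x (R / 2), |∑ i, (U i z - U i x) ^ 2 - dist x z ^ 2|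
        ≤ 1 / 100 * R ^ 2 := by
      intro z hz
      refine (hiso z hz).trans ?_
      have : min ψ (1 / 100) ≤ 1 / 100 := min_le_right _ _
      gcongr
    have hρ : 0 < κ * R := by positivity
    have hρR : κ * R ≤ R := mul_le_of_le_one_left hR.le hκle
    have hρ4 : 0 < κ * R / 4 := by positivity
    have hρ4R : κ * R / 4 ≤ R := by linarith
    have h1 := dens_aux (v := v) (ρ := κ * R) (δ := (2 * B + 2) * δ * R ^ n) hD hS.hfin hR
      (cmp_std hS x hR).memA hUc hUA hL hiso' hθ' hθd h01 hθ0 hB0 hB hv hρ (by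
        calc 6 * n * (κ * R) ^ 2 = 6 * n * κ ^ 2 * R ^ 2 := by ring
          _ ≤ 1 / 100 * R ^ 2 := by gcongr) (fun i => by
        have h2 : 0 ≤ ∫ z in ball x R, |L i z| ∂m := integral_nonneg fun _ => abs_nonneg _
        have h3 := hLi i
        calc 2 * (κ * R) * ∫ z in ball x R, |L i z| ∂m
            = 2 * κ * (R * ∫ z in ball x R, |L i z| ∂m) := by ring
          _ ≤ 2 * 1 * (δ * R ^ n) := by gcongr
          _ ≤ (2 * B + 2) * δ * R ^ n := by
            have : 0 ≤ B * (δ * R ^ n) := by positivity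
            nlinarith) (fun i j => by
        have h3 := hG i j
        calc (2 * B + 1) * ∫ z in ball x R, |(sob m).Γ (cl m (U j)) (cl m (U i)) z
              - if j = i then 1 else 0| ∂m
            ≤ (2 * B + 1) * (δ * R ^ n) := by gcongr
          _ ≤ (2 * B + 2) * δ * R ^ n := by
            have : 0 ≤ δ * R ^ n := by positivity
            nlinarith) n le_rfl
    have h2 := bump_center (v := v) hD hS.hfin hR hUc hθ h01 hθ1 hUd hρ hρR
    have h3 := hcc x (mem_ball_self hR) (κ * R / 4) hρ4 hρ4R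
    have h4 : e * δ * R ^ n < c * (κ / 4) ^ n * R ^ n := by gcongr
    have h5 : c * (κ * R / 4) ^ n = c * (κ / 4) ^ n * R ^ n := by
      have : κ * R / 4 = κ / 4 * R := by ring
      rw [this, mul_pow]; ring
    have h6 : (n : ℝ) * ((n + 1) * ((2 * B + 2) * δ * R ^ n)) = e * δ * R ^ n := by
      rw [he]; ring
    rw [h6] at h1
    rw [h5] at h3
    have h7 := (abs_le.1 h1).1
    have h8 : 0 < ∫ z, cut (yf x R z) * ∏ k, zt θ U x v (κ * R) n k (U k z) ∂m := by linarith
    -- a point of the support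
    obtain ⟨z, hz⟩ : ∃ z, cut (yf x R z) * ∏ k, zt θ U x v (κ * R) n k (U k z) ≠ 0 := by
      by_contra hneg
      push Not at hneg
      simp only [hneg, integral_zero] at h8
      exact lt_irrefl _ h8
    have hz1 := cut_supp hR (left_ne_zero_of_mul hz)
    refine ⟨z, by rw [mem_ball, dist_comm]; linarith, ?_⟩
    have hz2 : ∀ k, |U k z - U k x - v k| ≤ κ * R := by
      intro k
      have h9 : zt θ U x v (κ * R) n k (U k z) ≠ 0 := by
        intro h10
        exact (right_ne_zero_of_mul hz) (Finset.prod_eq_zero (Finset.mem_univ k) h10)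
      unfold zt at h9
      rw [if_pos k.isLt] at h9
      have h11 : |(U k z - U k x - v k) / (κ * R)| < 1 := by
        by_contra hneg
        push Not at hneg
        exact h9 (hθ0 _ hneg)
      rw [abs_div, abs_of_pos hρ, div_lt_one hρ] at h11
      exact h11.le
    calc ∑ i, (U i z - U i x - v i) ^ 2 ≤ ∑ i : Fin n, (κ * R) ^ 2 := by
          refine Finset.sum_le_sum fun i _ => ?_
          rw [← sq_abs]
          have := hz2 i
          gcongr
      _ = n * κ ^ 2 * R ^ 2 := by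
          rw [Finset.sum_const, Finset.card_univ, Fintype.card_fin, nsmul_eq_mul]; ring
      _ ≤ ψ ^ 2 * R ^ 2 := by gcongr
      _ = (ψ * R) ^ 2 := by ring

end Vale.Agent.P242.H358
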