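import Vale.Agent.P242.H751.BlkF
import Vale.Agent.P242.H751.Uc
import Vale.Agent.P242.H924.Uc

/-!
P242 (helper358): local Lipschitz bounds from a.e. gradient bounds (wrapper of `local_stl`).
-/

set_option linter.all false

open MeasureTheory Filter Topology Set Metric
open scoped ENNReal NNReal InnerProductSpace

universe u

namespace Vale.Agent.P242.H358

open Vale.Agent.P233 Vale.Agent.P242.H71

section

variable {M : Type u} [MetricSpace M] [CompleteSpace M] [SecondCountableTopology M]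
  [MeasurableSpace M] [BorelSpace M] {m : Measure M} {n : ℕ}
  {K : ℝ} {o : M} {A : ℝ} {p : ℝ → M → M → ℝ}

/-- a continuous representative of a function with bounded gradient is Lipschitz -/
theorem lip_of_grad (h : H71.Env m n K o A p) {f : M →ₘ[m] ℝ} (hf : f ∈ (sob m).W) {F : M → ℝ}
    (hF : Continuous F) (hfF : f =ᵐ[m] F) {B : ℝ} (hB : 0 < B)
    (hfB : ∀ᵐ z ∂m, (sob m).Γ f f z ≤ B ^ 2) : ∀ x y, |F x - F y| ≤ B * dist x y := by
  haveI := h.hyp.full
  obtain ⟨v, hv1, hv2⟩ := exists_lip_rep (H751.env_std h).rcd.sobolev_to_lipschitz hf hB hfB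
  have e : F = v :=
    (Continuous.ae_eq_iff_eq m hF (lipschitz_of_abs_sub_le hB.le hv1).continuous).1
      (hfF.symm.trans hv2)
  rw [e]
  exact hv1

/-- **Local Lipschitz bound**: `|∇f| ≤ L` a.e. on the ball of radius `5 R` implies that `f` is
`L`-Lipschitz on the ball of radius `R`. -/
theorem loc_lip_W (h : H71.Env m n K o A p) {f : M →ₘ[m] ℝ} (hf : f ∈ (sob m).W) {F : M → ℝ}
    (hF : Continuous F) (hfF : f =ᵐ[m] F) {B : ℝ}
    (hfB : ∀ᵐ z ∂m, (sob m).Γ f f z ≤ B ^ 2) {z₀ : M} {R L : ℝ} (hL : 0 ≤ L)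
    (hfL : ∀ᵐ z ∂m, dist z z₀ < 5 * R → (sob m).Γ f f z ≤ L ^ 2) :
    ∀ z ∈ ball z₀ R, ∀ z' ∈ ball z₀ R, |F z - F z'| ≤ L * dist z z' := by
  haveI := h.hyp.full
  have hB' : 0 < |B| + 1 := by positivity
  have hlip := lip_of_grad h hf hF hfF hB' (by
    filter_upwards [hfB] with z hz
    refine hz.trans ?_
    rw [← sq_abs B]
    gcongr
    linarith)
  have hIs : Met.IsLip F := ⟨_, lipschitz_of_abs_sub_le hB'.le hlip⟩
  have key : ∀ z ∈ ball z₀ R, ∀ z' ∈ ball z₀ R, F z' - F z ≤ L * dist z z' := by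
    intro z hz z' hz'
    rw [mem_ball] at hz hz'
    have hd : dist z z' < 2 * R := by
      have := dist_triangle_right z z' z₀
      linarith
    refine local_stl (H751.env_std h).hfin (H751.env_std h).rcd.sobolev_to_lipschitz hf hIs hfF hL
      (R := 4 * R) (by linarith) ?_
    filter_upwards [hfL] with w hw hwz
    refine hw ?_
    have := dist_triangle w z z₀
    linarith
  intro z hz z' hz'
  rw [abs_le]
  constructor
  · have := key z hz z' hz'
    linarith
  · have := key z' hz' z hz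
    rw [dist_comm] at this
    linarith

/-- the same for the almost harmonic maps of a configuration -/
theorem loc_lip (h : H71.Env m n K o A p) {R Q η ρ : ℝ} {u : Fin n → M →ₘ[m] ℝ}
    {uu : M → H71.E n} (hu : Cfg m n K o p R Q η ρ u uu) (c : H71.E n) {z₀ : M} {r L : ℝ}
    (hL : 0 ≤ L)
    (hfL : ∀ᵐ z ∂m, dist z z₀ < 5 * r → (sob m).Γ (uc u c) (uc u c) z ≤ L ^ 2) :
    ∀ z ∈ ball z₀ r, ∀ z' ∈ ball z₀ r, |⟪c, uu z - uu z'⟫_ℝ| ≤ L * dist z z' := by
  have hT := H924.uc_testI h hu c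
  have hW : uc u c ∈ (sob m).W := ((H751.env_gamma h).test_A hT.1).1
  intro z hz z' hz'
  rw [inner_sub_right]
  exact loc_lip_W h hW (continuous_const.inner hu.cont) (H751.uc_ae hu.rep c) (H924.uc_grad h hu c)
    hL hfL z hz z' hz'

end

end Vale.Agent.P242.H358
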