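import Vale.Agent.P242.H358.NearB
import Vale.Agent.P242.H155.Tx
import Vale.Agent.P242.H924.Uc

/-!
P242 (helper358), package A-GH, glue: `Blk_PreX` (output of A4-PRE at one centre, interface) gives
`H155.Blk_NearX`, and `H155.Blk_NearX` gives `H71.Blk_Near`.
-/

set_option linter.all false

open MeasureTheory Filter Topology Set Metric
open scoped ENNReal NNReal InnerProductSpace

universe u

namespace Vale.Agent.P242.H358

open Vale.Agent.P233 Vale.Agent.P233.H866 Vale.Agent.P242.H71 Vale.Agent.P242.H990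
  Vale.Agent.P242.H520 Vale.Agent.P242.H155

section

variable {M : Type u} [MetricSpace M] [MeasurableSpace M]

/-- output of A4-PRE at one centre `x` and one time `t`, up to the radius `L √t` -/
structure PreX (m : Measure M) {n : ℕ} (p : ℝ → M → M → ℝ) (L e ρ : ℝ) (u : Fin n → M →ₘ[m] ℝ)
    (uu : M → H71.E n) (x : M) (t : ℝ) : Prop where
  pd : ∀ c : H71.E n, 1 / 2 * (t / ρ ^ 2) ^ (1 / 8 : ℝ) * ‖c‖ ^ 2 ≤ Gm m p u t x c c
  av : ∀ s, t / L ^ 2 ≤ s → s ≤ L ^ 2 * t → ∀ c c' : H71.E n,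
    PP m p s x |(sob m).Γ (uc u c) (uc u c') - Gm m p u t x c c' • (1 : M →ₘ[m] ℝ)| ≤
      e * (√(Gm m p u t x c c) * √(Gm m p u t x c' c'))
  lip : ∀ c : H71.E n, ∀ z ∈ ball x (L * √t), ∀ z' ∈ ball x (L * √t),
    |⟪c, uu z - uu z'⟫_ℝ| ≤ (1 + e) * √(Gm m p u t x c c) * dist z z'

end

/-- A4-PRE at one centre -/
def Blk_PreX : Prop := ForM.{u} fun M _ _ _ => ∀ (m : Measure M) (n : ℕ) (K : ℝ) (o : M) (A : ℝ)
  (p : ℝ → M → M → ℝ), Env m n K o A p → ∀ L : ℝ, 1 ≤ L →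
  ∃ Q₀, 1 ≤ Q₀ ∧ ∀ Q, Q₀ ≤ Q → ∃ R₀, 1 ≤ R₀ ∧ ∀ R, R₀ ≤ R → ∀ e, 0 < e → ∃ ε₁, 0 < ε₁ ∧
    ∀ ε' η ρ, 0 < ε' → ε' ≤ ε₁ → 0 < η → η ≤ ε₁ → ρ ≤ ε₁ →
      ∀ (u : Fin n → M →ₘ[m] ℝ) (uu : M → H71.E n), Cfg m n K o p R Q η ρ u uu →
        ∀ x ∈ ball o (R / 2 * ρ), ∀ t, 0 < t → t ≤ ρ ^ 2 → TTx m K p Q ε' ρ u x t →
          PreX m p L e ρ u uu x t

section

variable {M : Type u} [MetricSpace M] [CompleteSpace M] [SecondCountableTopology M]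
  [MeasurableSpace M] [BorelSpace M] {m : Measure M} {n : ℕ}
  {K : ℝ} {o : M} {A : ℝ} {p : ℝ → M → M → ℝ}

/-- from `PreX` to `PreAt` -/
theorem preAt_of (hE : H71.Env m n K o A p) {R Q η ρ e L : ℝ} {u : Fin n → M →ₘ[m] ℝ}
    {uu : M → H71.E n} (hcfg : Cfg m n K o p R Q η ρ u uu) (hη : 0 ≤ η) (hηe : 2 * n * η ≤ e)
    (hQ : 1 ≤ Q)
    (hL : 1 ≤ L) {x : M} (hx : x ∈ ball o (R * ρ)) {t : ℝ} (ht : 0 < t) (htρ : t ≤ ρ ^ 2)
    (h : PreX m p L e ρ u uu x t) : PreAt m p L e u uu x t := by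
  have hρ := hcfg.ρ_pos
  have hL2 : 1 ≤ L ^ 2 := one_le_pow₀ hL
  have hn : (1 : ℝ) ≤ n := by
    have := hE.hyp.two_le
    exact_mod_cast (by omega : 1 ≤ n)
  have hst : 0 < √t := Real.sqrt_pos.2 ht
  have hsq : √t ^ 2 = t := Real.sq_sqrt ht.le
  have hq0 : 0 < t / ρ ^ 2 := by positivity
  have hq1 : t / ρ ^ 2 ≤ 1 := by
    rw [div_le_one (by positivity)]; exact htρ
  have hq : t / ρ ^ 2 ≤ (t / ρ ^ 2) ^ (1 / 8 : ℝ) := by
    conv_lhs => rw [← Real.rpow_one (t / ρ ^ 2)]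
    exact Real.rpow_le_rpow_of_exponent_ge hq0 hq1 (by norm_num)
  refine ⟨fun c hc => ?_, fun c c' => ?_, h.lip, fun c => ?_⟩
  · refine lt_of_lt_of_le ?_ (h.pd c)
    have h1 : 0 < (t / ρ ^ 2) ^ (1 / 8 : ℝ) := Real.rpow_pos_of_pos hq0 _
    have h2 : 0 < ‖c‖ := norm_pos_iff.2 hc
    positivity
  · refine h.av t ?_ ?_ c c'
    · exact div_le_self ht.le hL2
    · nlinarith
  · -- the Laplacian
    have hG0 : 0 ≤ Gm m p u t x c c :=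
      le_trans (by positivity) (h.pd c)
    have h1 : ‖c‖ ^ 2 ≤ 2 * (ρ ^ 2 / t) * Gm m p u t x c c := by
      have h2 : 1 / 2 * (t / ρ ^ 2) * ‖c‖ ^ 2 ≤ Gm m p u t x c c := by
        refine le_trans ?_ (h.pd c)
        gcongr
      calc ‖c‖ ^ 2 = 2 * (ρ ^ 2 / t) * (1 / 2 * (t / ρ ^ 2) * ‖c‖ ^ 2) := by
            field_simp
        _ ≤ _ := by gcongr
    have h2 : t ≤ Q * ρ ^ 2 := by nlinarith [sq_nonneg ρ]
    have h3 := H924.uc_lap1 hE hcfg c hx ht h2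
    have hT := uc_testI (H751.env_gamma hE) (H751.env_bei hE) hcfg.test c
    have hae : ∀ᵐ z ∂m, (|(sob m).lap (uc u c)| : M →ₘ[m] ℝ) z
        = |(sob m).lap (uc u c) z| := AEEqFun.coeFn_abs _
    have hae2 : ∀ᵐ z ∂m, ((sob m).lap (uc u c) ^ 2 : M →ₘ[m] ℝ) z
        = |(sob m).lap (uc u c) z| ^ 2 := by
      filter_upwards [sq_ae ((sob m).lap (uc u c))] with z hz
      rw [hz, sq_abs]
    have h4 : MemLp (fun z => |(sob m).lap (uc u c) z|) ∞ m := hT.2.norm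
    have h5 : MemLp (fun z => |(sob m).lap (uc u c) z| ^ 2) ∞ m := by
      have := MemLp.mul (p := ∞) (q := ∞) (r := ∞) h4 h4
      refine (memLp_congr_ae (ae_of_all _ fun z => ?_)).1 this
      simp [sq]
    have h6 := pt_jensen hE.ker ht x h4.1 (pt_int_top hE.ker ht x h5)
    rw [PP_pt hE.ker ht x hae]
    rw [PP_pt hE.ker ht x hae2] at h3
    set V := pt m p t (fun z => |(sob m).lap (uc u c) z|) x with hV
    have h7 : V ^ 2 ≤ (e / √t * √(Gm m p u t x c c)) ^ 2 := by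
      refine (h6.trans h3).trans ?_
      have h8' : (√n * ‖c‖ * (η / ρ)) ^ 2 = n * (η / ρ) ^ 2 * ‖c‖ ^ 2 := by
        rw [mul_pow, mul_pow, Real.sq_sqrt (by positivity)]; ring
      have h8'' : (e / √t * √(Gm m p u t x c c)) ^ 2 = e ^ 2 / t * Gm m p u t x c c := by
        rw [mul_pow, Real.sq_sqrt hG0, div_pow, hsq]
      rw [h8', h8'']
      calc n * (η / ρ) ^ 2 * ‖c‖ ^ 2
          ≤ n * (η / ρ) ^ 2 * (2 * (ρ ^ 2 / t) * Gm m p u t x c c) := by gcongr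
        _ = (2 * n * η ^ 2) / t * Gm m p u t x c c := by field_simp
        _ ≤ e ^ 2 / t * Gm m p u t x c c := by
          gcongr
          have h9 : (2 * n * η) ^ 2 ≤ e ^ 2 := pow_le_pow_left₀ (by positivity) hηe 2
          have h10 : 2 * n * η ^ 2 ≤ (2 * n * η) ^ 2 := by nlinarith [sq_nonneg η]
          linarith
    have he0 : 0 ≤ e := le_trans (by positivity) hηe
    exact le_of_sq_le_sq h7 (by positivity)

/-- the dual norm in a frame (no positivity needed) -/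
theorem dual_of_frame {F : H71.E n → H71.E n → ℝ} (h : SymBil F) {c : Fin n → H71.E n}
    (hc : ∀ a b, F (c a) (c b) = if a = b then 1 else 0) (w b : H71.E n)
    (hb : ∀ d, F b d = ⟪d, w⟫_ℝ) : ⟪b, w⟫_ℝ = ∑ a, ⟪c a, w⟫_ℝ ^ 2 := by
  have hc' : ∀ a b, toForm F (c a) (c b) = if a = b then 1 else 0 := fun a b => by
    rw [h.toForm_apply, hc]
  have hli : LinearIndependent ℝ c := by
    rw [Fintype.linearIndependent_iff]
    intro t ht a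
    have := congrArg (fun x => toForm F x (c a)) ht
    simpa [map_sum, hc'] using this
  have hspan : ⊤ ≤ Submodule.span ℝ (Set.range c) :=
    (hli.span_eq_top_of_card_eq_finrank' (by simp)).ge
  obtain ⟨t, ht⟩ := (Submodule.mem_span_range_iff_exists_fun ℝ).1
    (hspan (Submodule.mem_top (x := b)))
  have h1 : ∀ a, t a = ⟪c a, w⟫_ℝ := by
    intro a
    have h2 := hb (c a)
    rw [← h.toForm_apply, ← ht] at h2
    simpa [map_sum, hc'] using h2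
  rw [← ht, sum_inner]
  refine Finset.sum_congr rfl fun a _ => ?_
  rw [inner_smul_left, h1 a]
  simp [sq]

end

/-- `H155.Blk_NearX` with `ψ` chosen after `Q` and `R` -/
def Blk_NearX' : Prop := ForM.{u} fun M _ _ _ => ∀ (m : Measure M) (n : ℕ) (K : ℝ) (o : M) (A : ℝ)
  (p : ℝ → M → M → ℝ), Env m n K o A p → ∀ L : ℝ, 1 ≤ L →
  ∃ Q₀, 1 ≤ Q₀ ∧ ∀ Q, Q₀ ≤ Q → ∃ R₀, 1 ≤ R₀ ∧ ∀ R, R₀ ≤ R → ∀ ψ : ℝ, 0 < ψ → ∃ ε₁, 0 < ε₁ ∧
    ∀ ε' η ρ, 0 < ε' → ε' ≤ ε₁ → 0 < η → η ≤ ε₁ → ρ ≤ ε₁ →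
      ∀ (u : Fin n → M →ₘ[m] ℝ) (uu : M → H71.E n), Cfg m n K o p R Q η ρ u uu →
        ∀ x ∈ ball o (R / 2 * ρ), ∀ t, 0 < t → t ≤ ρ ^ 2 → TTx m K p Q ε' ρ u x t →
          ∃ c : Fin n → H71.E n, NearX m p u uu L ψ x t c

/-- **A4-PRE at one centre gives the near isometry at one centre.** -/
theorem blk_nearX' (hPre : Blk_PreX.{u}) : Blk_NearX'.{u} := by
  intro M _ _ _ _ _ m n K o A p hE L hL
  obtain ⟨Q₀, hQ₀, HQ⟩ := hPre M m n K o A p hE (8 * L) (by linarith)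
  refine ⟨Q₀, hQ₀, fun Q hQ => ?_⟩
  obtain ⟨R₀, hR₀, HR⟩ := HQ Q hQ
  refine ⟨R₀, hR₀, fun R hR ψ hψ => ?_⟩
  obtain ⟨e, he0, H⟩ := near_at hE hL (show 0 < ψ / 3 by positivity)
  obtain ⟨ε₁, hε₁, Hε⟩ := HR R hR e he0
  have hn : (1 : ℝ) ≤ n := by
    have := hE.hyp.two_le
    exact_mod_cast (by omega : 1 ≤ n)
  refine ⟨min (min ε₁ 1) (e / (2 * n)), lt_min (lt_min hε₁ one_pos) (by positivity), ?_⟩
  intro ε' η ρ hε' hε'1 hη hη1 hρ1 u uu hcfg x hx t ht htρ hTT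
  have hρ := hcfg.ρ_pos
  have hR1 : 1 ≤ R := hR₀.trans hR
  have hQ1 : 1 ≤ Q := hQ₀.trans hQ
  have a1 : min (min ε₁ 1) (e / (2 * n)) ≤ ε₁ := (min_le_left _ _).trans (min_le_left _ _)
  have a2 : min (min ε₁ 1) (e / (2 * n)) ≤ 1 := (min_le_left _ _).trans (min_le_right _ _)
  have a3 : min (min ε₁ 1) (e / (2 * n)) ≤ e / (2 * n) := min_le_right _ _
  have hpre := Hε ε' η ρ hε' (hε'1.trans a1) hη (hη1.trans a1) (hρ1.trans a1) u uu hcfg x hx t ht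
    htρ hTT
  have hηe : 2 * n * η ≤ e := by
    calc 2 * n * η ≤ 2 * n * (e / (2 * n)) := by
          gcongr
          exact hη1.trans a3
      _ = e := by field_simp
  have hxR : x ∈ ball o (R * ρ) := ball_subset_ball (by nlinarith) hx
  have hpre' := preAt_of hE hcfg hη.le hηe hQ1 (by linarith) hxR ht htρ hpre
  have hxo : dist x o ≤ 1 := by
    have := hcfg.Rρ
    rw [mem_ball] at hxR
    linarith
  have hte : t ≤ e := by
    have h1 : ρ ≤ 1 := hρ1.trans a2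
    have h2 : ρ ≤ e / (2 * n) := hρ1.trans a3
    have h3 : e / (2 * n) ≤ e := div_le_self he0.le (by linarith)
    nlinarith
  obtain ⟨c, hc⟩ := H u uu x t hxo ht hte hcfg.test hcfg.cont hcfg.rep hpre'
  have hst : 0 < √t := Real.sqrt_pos.2 ht
  have hsq : √t ^ 2 = t := Real.sq_sqrt ht.le
  refine ⟨c, hc.fr, ?_, ?_, ?_⟩
  · intro q hq z hz
    refine (hc.ni q hq z hz).trans ?_
    nlinarith [mul_pos hψ ht]
  · intro y z hy hz
    have h6 : 3 * L * √t ≤ 6 * L * √t := by nlinarith [mul_pos (by linarith : 0 < L) hst]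
    refine (hc.li y z (hy.trans h6) (hz.trans h6)).trans ?_
    apply mul_le_mul_of_nonneg_right _ (sq_nonneg _)
    linarith
  · intro v hv
    rw [mul_pow, hsq] at hv
    obtain ⟨z, hz1, hz2, hz3⟩ := hc.de x (by rw [dist_self]; positivity) v hv
    refine ⟨z, ?_, hz2.trans (by nlinarith [mul_pos hψ ht])⟩
    have h1 : ∑ i, ⟪c i, uu z - uu x⟫_ℝ ^ 2
        ≤ 2 * ∑ i, v i ^ 2 + 2 * ∑ i, (⟪c i, uu z - uu x⟫_ℝ - v i) ^ 2 := by
      rw [Finset.mul_sum, Finset.mul_sum, ← Finset.sum_add_distrib]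
      refine Finset.sum_le_sum fun i _ => ?_
      nlinarith [sq_nonneg (⟪c i, uu z - uu x⟫_ℝ - 2 * v i)]
    linarith

theorem blk_nearX_of (hX : Blk_NearX'.{u}) : H155.Blk_NearX.{u} := by
  intro M _ _ _ _ _ m n K o A p hE L ψ hL hψ
  obtain ⟨Q₀, hQ₀, HQ⟩ := hX M m n K o A p hE L hL
  refine ⟨Q₀, hQ₀, fun Q hQ => ?_⟩
  obtain ⟨R₀, hR₀, HR⟩ := HQ Q hQ
  exact ⟨R₀, hR₀, fun R hR => HR R hR ψ hψ⟩

/-- **`H155.Blk_NearX` from A4-PRE.** -/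
theorem blk_nearX (hPre : Blk_PreX.{u}) : H155.Blk_NearX.{u} := blk_nearX_of (blk_nearX' hPre)

theorem abs_sqrt_sub_le {S d a : ℝ} (hS : 0 ≤ S) (hd : 0 ≤ d) (ha : 0 ≤ a)
    (h : |S - d ^ 2| ≤ a ^ 2) : |√S - d| ≤ a := by
  have h1 : √S ^ 2 = S := Real.sq_sqrt hS
  have h2 : |√S - d| ^ 2 ≤ a ^ 2 := by
    refine le_trans ?_ h
    have e : S - d ^ 2 = (√S - d) * (√S + d) := by
      have e1 : (√S - d) * (√S + d) = √S ^ 2 - d ^ 2 := by ring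
      rw [e1, h1]
    rw [e, abs_mul, sq]
    apply mul_le_mul_of_nonneg_left _ (abs_nonneg _)
    rw [abs_of_nonneg (add_nonneg (Real.sqrt_nonneg _) hd), abs_le]
    have := Real.sqrt_nonneg S
    constructor <;> linarith
  exact le_of_sq_le_sq h2 ha

/-- **`Blk_Near` from the fixed-centre form.** -/
theorem blk_near_of (hX : Blk_NearX'.{u}) : H71.Blk_Near.{u} := by
  intro M _ _ _ _ _ m n K o A p hE C₀ hC₀
  obtain ⟨Q₀, hQ₀, HQ⟩ := hX M m n K o A p hE (2 * C₀) (by linarith)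
  refine ⟨Q₀, hQ₀, fun Q hQ => ?_⟩
  obtain ⟨R₀, hR₀, HR⟩ := HQ Q hQ
  refine ⟨R₀, hR₀, fun R hR ε hε => ?_⟩
  set ψ : ℝ := min (1 / 16) (ε ^ 2) with hψdef
  have hψ : 0 < ψ := lt_min (by norm_num) (by positivity)
  have hψ1 : ψ ≤ 1 / 16 := min_le_left _ _
  have hψ2 : ψ ≤ ε ^ 2 := min_le_right _ _
  obtain ⟨ε₁, hε₁, Hε⟩ := HR R hR ψ hψ
  refine ⟨ε₁, hε₁, ?_⟩
  intro ε' η ρ hε' hε'1 hη hη1 hρ1 u uu hcfg hTT
  have hρ := hcfg.ρ_pos
  have hR1 : 1 ≤ R := hR₀.trans hR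
  have hsub : ball o (R / 4 * ρ) ⊆ ball o (R / 2 * ρ) := ball_subset_ball (by nlinarith)
  have hC0 : 0 < C₀ := by linarith
  constructor
  · intro x hx t ht htρ y hxy c hc
    have hst : 0 < √t := Real.sqrt_pos.2 ht
    have hsq : √t ^ 2 = t := Real.sq_sqrt ht.le
    obtain ⟨f, hf⟩ := Hε ε' η ρ hε' hε'1 hη hη1 hρ1 u uu hcfg x (hsub hx) t ht htρ
      (TTx_of_TT hTT (hsub hx) ht)
    have hS := Gm_symBil (H751.env_gamma hE) (H751.env_bei hE) hE.ker hcfg.test ht x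
    rw [dual_of_frame hS hf.fr _ c hc]
    have e : ∑ i, ⟪f i, uu x - uu y⟫_ℝ ^ 2 = ∑ i, ⟪f i, uu y - uu x⟫_ℝ ^ 2 := by
      refine Finset.sum_congr rfl fun i _ => ?_
      rw [← neg_sub (uu y) (uu x), inner_neg_right, neg_sq]
    rw [e]
    have hS0 : 0 ≤ ∑ i, ⟪f i, uu y - uu x⟫_ℝ ^ 2 := Finset.sum_nonneg fun i _ => sq_nonneg _
    have h2C : C₀ * √t ≤ 2 * C₀ * √t := by nlinarith [mul_pos hC0 hst]
    have h3C : C₀ * √t ≤ 3 * (2 * C₀) * √t := by nlinarith [mul_pos hC0 hst]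
    constructor
    · refine abs_sqrt_sub_le hS0 dist_nonneg (by positivity) ?_
      refine (hf.ni x (by rw [dist_self]; positivity) y (hxy.trans h2C)).trans ?_
      rw [mul_pow, hsq]
      gcongr
    · have h1 := hf.li y x (hxy.trans h3C) (by rw [dist_self]; positivity)
      rw [Real.sqrt_le_iff]
      refine ⟨by positivity, h1.trans ?_⟩
      rw [dist_comm y x, mul_pow]
      nlinarith [sq_nonneg (dist x y)]
  · intro x hx t ht htρ v c hc hcv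
    have hst : 0 < √t := Real.sqrt_pos.2 ht
    have hsq : √t ^ 2 = t := Real.sq_sqrt ht.le
    obtain ⟨f, hf⟩ := Hε ε' η ρ hε' hε'1 hη hη1 hρ1 u uu hcfg x (hsub hx) t ht htρ
      (TTx_of_TT hTT (hsub hx) ht)
    have hS := Gm_symBil (H751.env_gamma hE) (H751.env_bei hE) hE.ker hcfg.test ht x
    rw [dual_of_frame hS hf.fr _ c hc] at hcv
    obtain ⟨z, hz1, hz2⟩ := hf.de (fun i => ⟪f i, v⟫_ℝ) (by
      rw [mul_pow, mul_pow, hsq]
      nlinarith [mul_pos (pow_pos hC0 2) ht])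
    have hzd : dist x z ≤ 2 * C₀ * √t := by
      refine le_of_sq_le_sq ?_ (by positivity)
      refine hz1.trans ?_
      rw [mul_pow, mul_pow, hsq]
      have g1 : ψ * t ≤ 1 / 16 * t := by gcongr
      have g2 : 1 * t ≤ C₀ ^ 2 * t := by gcongr; exact one_le_pow₀ hC₀
      linarith
    refine ⟨z, ?_, fun c₁ hc₁ => ?_⟩
    · have h1 := (abs_le.1 (hf.ni x (by rw [dist_self]; positivity) z hzd)).1
      have h2 : ∑ i, ⟪f i, uu z - uu x⟫_ℝ ^ 2 ≤ (1 + C₀⁻¹) * ∑ i, ⟪f i, v⟫_ℝ ^ 2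
          + (1 + C₀) * ∑ i, (⟪f i, uu z - uu x⟫_ℝ - ⟪f i, v⟫_ℝ) ^ 2 := by
        rw [Finset.mul_sum, Finset.mul_sum, ← Finset.sum_add_distrib]
        refine Finset.sum_le_sum fun i _ => ?_
        have h3 : 0 ≤ C₀⁻¹ * (⟪f i, v⟫_ℝ - C₀ * (⟪f i, uu z - uu x⟫_ℝ - ⟪f i, v⟫_ℝ)) ^ 2 := by
          positivity
        have h4 : C₀⁻¹ * (⟪f i, v⟫_ℝ - C₀ * (⟪f i, uu z - uu x⟫_ℝ - ⟪f i, v⟫_ℝ)) ^ 2
            = C₀⁻¹ * ⟪f i, v⟫_ℝ ^ 2
              - 2 * ⟪f i, v⟫_ℝ * (⟪f i, uu z - uu x⟫_ℝ - ⟪f i, v⟫_ℝ)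
              + C₀ * (⟪f i, uu z - uu x⟫_ℝ - ⟪f i, v⟫_ℝ) ^ 2 := by
          field_simp
          ring
        rw [h4] at h3
        nlinarith
      refine le_of_sq_le_sq ?_ (by positivity)
      rw [mul_pow, hsq]
      have h5 : (1 + C₀⁻¹) * ∑ i, ⟪f i, v⟫_ℝ ^ 2 ≤ (C₀ ^ 2 + C₀) * t := by
        calc (1 + C₀⁻¹) * ∑ i, ⟪f i, v⟫_ℝ ^ 2 ≤ (1 + C₀⁻¹) * (C₀ ^ 2 * t) := by gcongr
          _ = (C₀ ^ 2 + C₀) * t := by field_simp
      have h6 : (1 + C₀) * ∑ i, (⟪f i, uu z - uu x⟫_ℝ - ⟪f i, v⟫_ℝ) ^ 2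
          ≤ (1 + C₀) * (1 / 16 * t) := by
        gcongr
        exact hz2.trans (by gcongr)
      have h7 : ψ * t ≤ 1 / 16 * t := by gcongr
      nlinarith [mul_pos hC0 ht]
    · rw [dual_of_frame hS hf.fr _ c₁ hc₁]
      have e : ∑ i, ⟪f i, uu z - uu x - v⟫_ℝ ^ 2
          = ∑ i, (⟪f i, uu z - uu x⟫_ℝ - ⟪f i, v⟫_ℝ) ^ 2 :=
        Finset.sum_congr rfl fun i _ => by rw [inner_sub_right]
      rw [e]
      exact hz2.trans (by gcongr)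

/-- **`Blk_Near` from A4-PRE.** -/
theorem blk_near (hPre : Blk_PreX.{u}) : H71.Blk_Near.{u} := blk_near_of (blk_nearX' hPre)

end Vale.Agent.P242.H358
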