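import Vale.Agent.P233.MathlibUsed2

/-!
P242 (helper358), package A-GH: the explicit barrier `p(y) = (1-y)² (y+σ²)^{-(n+1)/2}`, `y = d²/R²`.
-/

set_option linter.all false

open Set MeasureTheory intervalIntegral

namespace Vale.Agent.P242.H358

/-- `√(y + σ²)` -/
noncomputable def rr (σ y : ℝ) : ℝ := √(max y 0 + σ ^ 2)

/-- the barrier -/
noncomputable def pb (n : ℕ) (σ y : ℝ) : ℝ := (1 - y) ^ 2 / rr σ y ^ (n + 1)

/-- its derivative -/
noncomputable def pb1 (n : ℕ) (σ y : ℝ) : ℝ :=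
  -(2 * (1 - y)) / rr σ y ^ (n + 1) - (n + 1) / 2 * (1 - y) ^ 2 / rr σ y ^ (n + 3)

/-- its primitive -/
noncomputable def Phb (n : ℕ) (σ y : ℝ) : ℝ := ∫ t in y..1, pb n σ t

variable {n : ℕ} {σ y : ℝ}

theorem rr_pos (hσ : 0 < σ) (y : ℝ) : 0 < rr σ y := by
  unfold rr
  have : 0 ≤ max y 0 := le_max_right _ _
  positivity

theorem rr_ge (hσ : 0 < σ) (y : ℝ) : σ ≤ rr σ y := by
  unfold rr
  refine Real.le_sqrt_of_sq_le ?_
  have : 0 ≤ max y 0 := le_max_right _ _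
  linarith

theorem rr_sq (hy : 0 ≤ y) : rr σ y ^ 2 = y + σ ^ 2 := by
  unfold rr
  rw [max_eq_left hy, Real.sq_sqrt (by positivity)]

theorem continuous_rr : Continuous (rr σ) := by
  unfold rr; fun_prop

theorem continuous_pb (hσ : 0 < σ) : Continuous (pb n σ) := by
  unfold pb
  exact (by fun_prop : Continuous fun y : ℝ => (1 - y) ^ 2).div (continuous_rr.pow _)
    fun y => (pow_pos (rr_pos hσ y) _).ne'

theorem continuous_pb1 (hσ : 0 < σ) : Continuous (pb1 n σ) := by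
  unfold pb1
  exact ((by fun_prop : Continuous fun y : ℝ => -(2 * (1 - y))).div (continuous_rr.pow _)
    fun y => (pow_pos (rr_pos hσ y) _).ne').sub
    ((by fun_prop : Continuous fun y : ℝ => ((n : ℝ) + 1) / 2 * (1 - y) ^ 2).div
      (continuous_rr.pow _) fun y => (pow_pos (rr_pos hσ y) _).ne')

theorem hasDerivAt_Phb (hσ : 0 < σ) (y : ℝ) : HasDerivAt (Phb n σ) (-pb n σ y) y := by
  have h := (continuous_pb (n := n) hσ).integral_hasStrictDerivAt 1 y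
  have e : Phb n σ = fun y => -∫ t in (1 : ℝ)..y, pb n σ t := by
    ext y; unfold Phb; rw [integral_symm]
  rw [e]
  exact h.hasDerivAt.neg

theorem continuous_Phb (hσ : 0 < σ) : Continuous (Phb n σ) :=
  continuous_iff_continuousAt.2 fun y => (hasDerivAt_Phb hσ y).continuousAt

theorem hasDerivWithinAt_pb (hσ : 0 < σ) (hy : y ∈ Icc (0 : ℝ) 1) :
    HasDerivWithinAt (pb n σ) (pb1 n σ y) (Icc 0 1) y := by
  have hpos : 0 < y + σ ^ 2 := by have := hy.1; positivity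
  have hr : HasDerivAt (fun y : ℝ => √(y + σ ^ 2)) (1 / (2 * √(y + σ ^ 2))) y := by
    have := ((hasDerivAt_id y).add_const (σ ^ 2)).sqrt hpos.ne'
    simpa using this
  have hr0 : 0 < √(y + σ ^ 2) := Real.sqrt_pos.2 hpos
  have h1 : HasDerivAt (fun y : ℝ => (1 - y) ^ 2) (2 * (1 - y) * (-1)) y := by
    have := ((hasDerivAt_id y).const_sub 1).fun_pow 2
    simpa using this
  have h2 := h1.fun_div (hr.fun_pow (n + 1)) (pow_pos hr0 _).ne'
  have h3 : HasDerivAt (fun y : ℝ => (1 - y) ^ 2 / √(y + σ ^ 2) ^ (n + 1)) (pb1 n σ y) y := by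
    refine h2.congr_deriv ?_
    have e : rr σ y = √(y + σ ^ 2) := by unfold rr; rw [max_eq_left hy.1]
    unfold pb1
    rw [e]
    set r := √(y + σ ^ 2) with hr'
    simp only [Nat.add_sub_cancel]
    push_cast
    have hrn : r ≠ 0 := hr0.ne'
    field_simp
    ring
  refine h3.hasDerivWithinAt.congr (fun x hx => ?_) ?_
  · unfold pb rr; rw [max_eq_left hx.1]
  · unfold pb rr; rw [max_eq_left hy.1]

theorem pb_nonneg (hσ : 0 < σ) (y : ℝ) : 0 ≤ pb n σ y := by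
  unfold pb
  have := rr_pos hσ y
  positivity

theorem pb_one (σ : ℝ) : pb n σ 1 = 0 := by unfold pb; simp

theorem pb1_one (σ : ℝ) : pb1 n σ 1 = 0 := by unfold pb1; simp

theorem Phb_one (σ : ℝ) : Phb n σ 1 = 0 := by unfold Phb; simp

theorem inv_rr_le (hσ : 0 < σ) (y : ℝ) (k : ℕ) : 1 / rr σ y ^ k ≤ 1 / σ ^ k :=
  one_div_le_one_div_of_le (pow_pos hσ _) (pow_le_pow_left₀ hσ.le (rr_ge hσ y) k)

theorem pb_le (hσ : 0 < σ) (hy : y ∈ Icc (0 : ℝ) 1) : pb n σ y ≤ 1 / σ ^ (n + 1) := by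
  unfold pb
  have h1 : (1 - y) ^ 2 ≤ 1 := by nlinarith [hy.1, hy.2]
  have h2 := rr_pos hσ y
  calc (1 - y) ^ 2 / rr σ y ^ (n + 1) ≤ 1 / rr σ y ^ (n + 1) := by gcongr
    _ ≤ _ := inv_rr_le hσ y _

theorem Phb_nonneg (hσ : 0 < σ) (hy : y ≤ 1) : 0 ≤ Phb n σ y :=
  integral_nonneg hy fun t _ => pb_nonneg hσ t

theorem Phb_le (hσ : 0 < σ) (hy : y ∈ Icc (0 : ℝ) 1) : Phb n σ y ≤ 1 / σ ^ (n + 1) := by
  unfold Phb
  have hc := continuous_pb (n := n) hσ
  have h1 : ∫ t in y..1, pb n σ t ≤ ∫ t in y..1, (1 / σ ^ (n + 1) : ℝ) := by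
    refine integral_mono_on hy.2 (hc.intervalIntegrable _ _) (by simp) fun t ht => ?_
    exact pb_le hσ ⟨hy.1.trans ht.1, ht.2⟩
  refine h1.trans ?_
  rw [intervalIntegral.integral_const, smul_eq_mul]
  have h2 : 0 ≤ 1 / σ ^ (n + 1) := by positivity
  have h3 : 1 - y ≤ 1 := by linarith [hy.1]
  calc (1 - y) * (1 / σ ^ (n + 1)) ≤ 1 * (1 / σ ^ (n + 1)) := by gcongr
    _ = _ := one_mul _

theorem pb1_nonpos (hσ : 0 < σ) (hy : y ∈ Icc (0 : ℝ) 1) : pb1 n σ y ≤ 0 := by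
  unfold pb1
  have h2 := rr_pos hσ y
  have h3 : 0 ≤ 2 * (1 - y) := by linarith [hy.2]
  have h4 : 0 ≤ 2 * (1 - y) / rr σ y ^ (n + 1) := by positivity
  have h5 : 0 ≤ ((n : ℝ) + 1) / 2 * (1 - y) ^ 2 / rr σ y ^ (n + 3) := by positivity
  rw [neg_div]
  linarith

theorem L_eq (hσ : 0 < σ) (hy : y ∈ Icc (0 : ℝ) 1) :
    -(2 * y * pb1 n σ y) - n * pb n σ y = (1 - y) * (4 * y * (y + σ ^ 2)
      + (1 - y) * (y - n * σ ^ 2)) / ((y + σ ^ 2) * rr σ y ^ (n + 1)) := by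
  have h1 := rr_pos hσ y
  have h2 := rr_sq (σ := σ) hy.1
  have h3 : rr σ y ^ (n + 3) = (y + σ ^ 2) * rr σ y ^ (n + 1) := by
    rw [← h2]; ring
  have h4 : 0 < y + σ ^ 2 := by rw [← h2]; positivity
  have h5 : 0 < rr σ y ^ (n + 1) := by positivity
  unfold pb1 pb
  rw [h3]
  field_simp
  ring

/-- the lower bound of the barrier -/
theorem L_lower (hn : 1 ≤ n) (hσ : 0 < σ) (hσ1 : σ ≤ 1 / 2) (hy : y ∈ Icc (0 : ℝ) 1) :
    (if y ≤ 1 / 2 then (1 / 16 : ℝ) else 0)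
      - (if y < 2 * n * σ ^ 2 then (n + 1) / σ ^ (n + 1) else 0)
      ≤ -(2 * y * pb1 n σ y) - n * pb n σ y := by
  have hn' : (1 : ℝ) ≤ n := by exact_mod_cast hn
  have hσp : σ ^ (n + 1) ≤ 1 := pow_le_one₀ hσ.le (by linarith)
  have hσi : 1 ≤ 1 / σ ^ (n + 1) := by
    rw [le_div_iff₀ (by positivity)]; linarith
  have h1 := rr_pos hσ y
  have h2 := rr_sq (σ := σ) hy.1
  have h4 : 0 < y + σ ^ 2 := by rw [← h2]; positivity
  have h5 : 0 < rr σ y ^ (n + 1) := by positivity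
  split_ifs with ha hb hb
  · -- near the centre
    have h6 := mul_nonneg hy.1 (neg_nonneg.2 (pb1_nonpos (n := n) hσ hy))
    have h7 := pb_le (n := n) hσ hy
    have h8 : (n : ℝ) * pb n σ y ≤ n * (1 / σ ^ (n + 1)) := by gcongr
    have h9 : ((n : ℝ) + 1) / σ ^ (n + 1) = n * (1 / σ ^ (n + 1)) + 1 / σ ^ (n + 1) := by ring
    rw [h9]
    linarith
  · rw [L_eq hσ hy, sub_zero]
    push Not at hb
    have h6 : σ ^ 2 ≤ y := by nlinarith [sq_nonneg σ]
    have h7 : y + σ ^ 2 ≤ 1 := by nlinarith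
    have hr1 : rr σ y ≤ 1 := by nlinarith
    have h8 : rr σ y ^ (n + 1) ≤ 1 := pow_le_one₀ h1.le hr1
    rw [le_div_iff₀ (by positivity)]
    have h9 : (y + σ ^ 2) * rr σ y ^ (n + 1) ≤ 2 * y := by
      calc (y + σ ^ 2) * rr σ y ^ (n + 1) ≤ (y + σ ^ 2) * 1 := by gcongr
        _ ≤ 2 * y := by linarith
    have h10 : y / 2 ≤ y - n * σ ^ 2 := by linarith
    have h11 : y / 4 ≤ 4 * y * (y + σ ^ 2) + (1 - y) * (y - n * σ ^ 2) := by
      have a1 : 0 ≤ 4 * y * (y + σ ^ 2) := by have := hy.1; positivity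
      have a2 : 1 / 2 * (y / 2) ≤ (1 - y) * (y - n * σ ^ 2) := by
        refine mul_le_mul (by linarith) h10 (by linarith [hy.1]) (by linarith)
      linarith
    have h12 : 1 / 2 * (y / 4) ≤ (1 - y) * (4 * y * (y + σ ^ 2)
        + (1 - y) * (y - n * σ ^ 2)) :=
      mul_le_mul (by linarith) h11 (by linarith [hy.1]) (by linarith)
    linarith
  · -- `y` is close to one and to the centre at the same time
    have h6 := mul_nonneg hy.1 (neg_nonneg.2 (pb1_nonpos (n := n) hσ hy))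
    have h7 := pb_le (n := n) hσ hy
    have h8 : (n : ℝ) * pb n σ y ≤ n * (1 / σ ^ (n + 1)) := by gcongr
    have h9 : ((n : ℝ) + 1) / σ ^ (n + 1) = n * (1 / σ ^ (n + 1)) + 1 / σ ^ (n + 1) := by ring
    rw [h9]
    linarith
  · rw [L_eq hσ hy, sub_zero]
    push Not at hb
    have h6 : 0 ≤ y - n * σ ^ 2 := by nlinarith [sq_nonneg σ, hy.1]
    have h7 : 0 ≤ 1 - y := by linarith [hy.2]
    have h8 := hy.1
    positivity

end Vale.Agent.P242.H358
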