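import Vale.Agent.P242.H155.BlkT
import Vale.Agent.P242.H446.Maps
import Vale.Agent.P242.H607.Low
import Vale.Agent.P242.H744.DropE
import Vale.Agent.P242.H744.NuC
import Vale.Agent.P242.H751.BlkF
import Vale.Agent.P242.H597.PreX
import Vale.Agent.P242.H100.H5
import Vale.Agent.P242.H200.H5Top
import Vale.Agent.P242.H254.E1m
import Vale.Agent.P242.H937.SBW
import Vale.Agent.P242.H852.Vx
import Vale.Agent.P242.H703.HfL
import Vale.Agent.P242.H696.PartB
import Vale.Agent.P242.H71.Top
import Vale.Agent.P242.H448.Fin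

/-! P242 (helper358): continuous check of the assembly: everything that is proved is plugged in,
the remaining inputs are hypotheses. -/

set_option linter.all false

open MeasureTheory

universe u

namespace Vale.Agent.P242.H358

open H71 H771

/-- `SB` for every space -/
def AllEnv (SB : ∀ {M : Type u} [MetricSpace M] [CompleteSpace M] [SecondCountableTopology M]
    [MeasurableSpace M] [BorelSpace M] (m : Measure M) (n : ℕ) (K : ℝ) (o : M)
    (p : ℝ → M → M → ℝ), Prop) : Prop :=
  ∀ (M : Type u) [MetricSpace M] [CompleteSpace M] [SecondCountableTopology M]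
    [MeasurableSpace M] [BorelSpace M] (m : Measure M) (n : ℕ) (K : ℝ) (o : M) (A : ℝ)
    (p : ℝ → M → M → ℝ), Env m n K o A p → SB m n K o p

theorem ci_H5 (hE4 : AllEnv.{u} fun m n K o p => SB_E4 m n K o p)
    (hG : AllEnv.{u} fun m n K o p => H852.SB_GOut m n K o p)
    (hRR : AllEnv.{u} fun m n K o p => SB_RR m n K o p)
    (hRel : AllEnv.{u} fun m n K o p => SB_Rel m n K o p) : H71.Blk_H5.{u} :=
  H200.blk_H5_of fun M _ _ _ _ _ m n K o A p e =>
    H100.sb_h5 H597.blk_near H703.blk_H234 e
      (H852.sb_vx_of e (H254.sb_E1 e) (H937.sb_w e (H254.sb_E1 e)) (hE4 M m n K o A p e)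
        (hG M m n K o A p e))
      (hRR M m n K o A p e) (hRel M m n K o A p e)

theorem ci_final (hR12 : H155.Blk_R12.{u})
    (hE4 : AllEnv.{u} fun m n K o p => SB_E4 m n K o p)
    (hG : AllEnv.{u} fun m n K o p => H852.SB_GOut m n K o p)
    (hRR : AllEnv.{u} fun m n K o p => SB_RR m n K o p)
    (hRel : AllEnv.{u} fun m n K o p => SB_Rel m n K o p) : H448.Final.{u} :=
  H448.final_of
    (partA_of H751.blk_F' H446.blk_Maps (H744.blk_Drop_of (H607.blk_Low_of H446.blk_Maps))
      H744.blk_H6 (H155.blk_T hR12) H597.blk_near (ci_H5 hE4 hG hRR hRel) H703.blk_H234)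
    H696.partB

end Vale.Agent.P242.H358
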