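import Vale.Agent.P242.H358.CIAsm
import Vale.Agent.P242.H196.RR
import Vale.Agent.P242.H196.RRs
import Vale.Agent.P242.H448.RelH
import Vale.Agent.P242.H655.SBE4F
import Vale.Agent.P242.H771.Gout

/-! P242 (helper358): the assembly without hypotheses. -/

set_option linter.all false

universe u

namespace Vale.Agent.P242.H358

theorem final : H448.Final.{u} :=
  ci_final H196.blk_R12
    (fun M _ _ _ _ _ m n K o A p e => H655.sb_E4 e)
    (fun M _ _ _ _ _ m n K o A p e => H771.sb_gout e)
    (fun M _ _ _ _ _ m n K o A p e => H196.sb_RR e)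
    (fun M _ _ _ _ _ m n K o A p e => H448.sb_Rel e)

end Vale.Agent.P242.H358
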