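import Vale.Agent.P233.Bd3.B1

/-!
P242 (helper358), package A-GH: the abstract integration by parts behind the comparison of
`d²/2` with `|v|²/2`.
-/

set_option linter.all false

open MeasureTheory Filter Topology
open scoped ENNReal NNReal

namespace Vale.Agent.P242.H358

open Vale.Agent.P233

variable {M : Type*} [MeasurableSpace M] {m : Measure M} {C : Calc m}

theorem A_sum (hD : IsDir C) {ι : Type*} (s : Finset ι) {f : ι → M →ₘ[m] ℝ}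
    (hf : ∀ i ∈ s, f i ∈ C.A) : ∑ i ∈ s, f i ∈ C.A := by
  classical
  induction s using Finset.induction_on with
  | empty => simpa using hD.A_zero
  | insert a s ha ih =>
    rw [Finset.sum_insert ha]
    exact hD.A_add (hf a (Finset.mem_insert_self a s))
      (ih fun i hi => hf i (Finset.mem_insert_of_mem hi))

theorem Γ_sum_right (hD : IsDir C) {ι : Type*} (s : Finset ι) {f : ι → M →ₘ[m] ℝ}
    (hf : ∀ i ∈ s, f i ∈ C.A) {g : M →ₘ[m] ℝ} (hg : g ∈ C.W) :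
    C.Γ g (∑ i ∈ s, f i) = ∑ i ∈ s, C.Γ g (f i) := by
  classical
  induction s using Finset.induction_on with
  | empty =>
    simp only [Finset.sum_empty]
    rw [hD.symm g hg 0 hD.zero_mem, hD.Γ_zero_left hg]
  | insert a s ha ih =>
    have h1 : ∀ i ∈ s, f i ∈ C.A := fun i hi => hf i (Finset.mem_insert_of_mem hi)
    rw [Finset.sum_insert ha, Finset.sum_insert ha,
      hD.Γ_add_right hg (hf a (Finset.mem_insert_self a s)).1 (A_sum hD s h1).1, ih h1]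

theorem mem_sum {p : ℝ≥0∞} {ι : Type*} (s : Finset ι) {f : ι → M →ₘ[m] ℝ}
    (hf : ∀ i ∈ s, MemLp (f i) p m) : MemLp (∑ i ∈ s, f i : M →ₘ[m] ℝ) p m := by
  classical
  induction s using Finset.induction_on with
  | empty => simpa using Vale.Agent.P233.mem_zero (m := m) (p := p)
  | insert a s ha ih =>
    rw [Finset.sum_insert ha]
    exact mem_add (hf a (Finset.mem_insert_self a s))
      (ih fun i hi => hf i (Finset.mem_insert_of_mem hi))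

theorem I_sum {ι : Type*} (s : Finset ι) {f : ι → M →ₘ[m] ℝ}
    (hf : ∀ i ∈ s, MemLp (f i) 1 m) : I (∑ i ∈ s, f i) = ∑ i ∈ s, I (f i) := by
  classical
  induction s using Finset.induction_on with
  | empty => simpa using I_zero
  | insert a s ha ih =>
    have h1 : ∀ i ∈ s, MemLp (f i) 1 m := fun i hi => hf i (Finset.mem_insert_of_mem hi)
    rw [Finset.sum_insert ha, Finset.sum_insert ha,
      I_add (hf a (Finset.mem_insert_self a s)) (mem_sum s h1), ih h1]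

/-- `½ ∑ (W_i + c_i)²` without the constant, an element of `A`. -/
noncomputable def bb {n : ℕ} (W : Fin n → M →ₘ[m] ℝ) (c : Fin n → ℝ) : M →ₘ[m] ℝ :=
  ∑ i, ((2 : ℝ)⁻¹ • (W i * W i) + c i • W i)

theorem bb_mem (hD : IsDir C) {n : ℕ} {W : Fin n → M →ₘ[m] ℝ} (hW : ∀ i, W i ∈ C.A)
    (c : Fin n → ℝ) : bb W c ∈ C.A :=
  A_sum hD _ fun i _ => hD.A_add (hD.A_smul _ (hD.mul_mem_A (hW i) (hW i))) (hD.A_smul _ (hW i))

theorem half_two (f : M →ₘ[m] ℝ) : (2 : ℝ)⁻¹ • (f + f) = f := by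
  rw [← two_smul ℝ f, smul_smul]; norm_num

theorem Γ_bb (hD : IsDir C) {n : ℕ} {W : Fin n → M →ₘ[m] ℝ} (hW : ∀ i, W i ∈ C.A)
    (c : Fin n → ℝ) {g : M →ₘ[m] ℝ} (hg : g ∈ C.W) :
    C.Γ g (bb W c) = ∑ i, (W i + c i • 1) * C.Γ g (W i) := by
  unfold bb
  rw [Γ_sum_right hD _ (fun i _ => hD.A_add (hD.A_smul _ (hD.mul_mem_A (hW i) (hW i)))
    (hD.A_smul _ (hW i))) hg]
  refine Finset.sum_congr rfl fun i _ => ?_
  rw [hD.Γ_add_right hg (hD.A_smul _ (hD.mul_mem_A (hW i) (hW i))).1 (hD.A_smul _ (hW i)).1,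
    hD.Γ_smul_right _ hg (hD.mul_mem_A (hW i) (hW i)).1, hD.Γ_smul_right _ hg (hW i).1,
    hD.Γ_mul_right (hW i) (hW i) hg, half_two, add_mul, smul_mul_assoc, one_mul]

/-- integration by parts of `∫ ⟨∇φ, ∇ ½|v|²⟩` -/
theorem ibp_bb (hD : IsDir C) {n : ℕ} {W L : Fin n → M →ₘ[m] ℝ} (hW : ∀ i, W i ∈ C.A)
    (hL : ∀ i, C.IsLap (W i) (L i)) (c : Fin n → ℝ) {φ : M →ₘ[m] ℝ} (hφ : φ ∈ C.A) :
    I (C.Γ φ (bb W c)) = -I (φ * ∑ i, (C.Γ (W i) (W i) + (W i + c i • 1) * L i)) := by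
  have hv : ∀ i, MemLp (W i + c i • 1 : M →ₘ[m] ℝ) ∞ m := fun i =>
    mem_add (hW i).2 (mem_smul _ mem_top_one)
  rw [Γ_bb hD hW c hφ.1, Finset.mul_sum, I_sum, I_sum, ← Finset.sum_neg_distrib]
  · refine Finset.sum_congr rfl fun i _ => ?_
    have e1 : W i * φ + c i • φ ∈ C.A := hD.A_add (hD.mul_mem_A (hW i) hφ) (hD.A_smul _ hφ)
    have e2 : C.Γ (W i) (W i * φ + c i • φ)
        = (W i + c i • 1) * C.Γ φ (W i) + φ * C.Γ (W i) (W i) := by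
      rw [hD.Γ_add_right (hW i).1 (hD.mul_mem_A (hW i) hφ).1 (hD.A_smul _ hφ).1,
        hD.Γ_mul_right (hW i) hφ (hW i).1, hD.Γ_smul_right _ (hW i).1 hφ.1,
        hD.symm _ (hW i).1 _ hφ.1, add_mul, smul_mul_assoc, one_mul]
      ring
    have e3 : I (C.Γ (W i) (W i * φ + c i • φ)) = -I (L i * (W i * φ + c i • φ)) :=
      (hL i).2.2 _ e1.1
    have m1 : MemLp ((W i + c i • 1) * C.Γ φ (W i) : M →ₘ[m] ℝ) 1 m :=
      mem_mul_top (hv i) (hD.Γ_mem1 hφ.1 (hW i).1)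
    have m2 : MemLp (φ * C.Γ (W i) (W i) : M →ₘ[m] ℝ) 1 m :=
      mem_mul_top hφ.2 (hD.mem1 _ (hW i).1)
    have m3 : MemLp (L i * (W i * φ + c i • φ) : M →ₘ[m] ℝ) 1 m :=
      mem_mul_22 (hL i).2.1 (hD.memLp _ e1.1)
    rw [e2, I_add m1 m2] at e3
    have e4 : φ * (C.Γ (W i) (W i) + (W i + c i • 1) * L i)
        = φ * C.Γ (W i) (W i) + L i * (W i * φ + c i • φ) := by
      simp only [Algebra.smul_def]; ring
    rw [e4, I_add m2 m3]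
    linarith
  · intro i _
    have e1 : W i * φ + c i • φ ∈ C.A := hD.A_add (hD.mul_mem_A (hW i) hφ) (hD.A_smul _ hφ)
    have e4 : φ * (C.Γ (W i) (W i) + (W i + c i • 1) * L i)
        = φ * C.Γ (W i) (W i) + L i * (W i * φ + c i • φ) := by
      simp only [Algebra.smul_def]; ring
    rw [e4]
    exact mem_add (mem_mul_top hφ.2 (hD.mem1 _ (hW i).1))
      (mem_mul_22 (hL i).2.1 (hD.memLp _ e1.1))
  · intro i _
    exact mem_mul_top (hv i) (hD.Γ_mem1 hφ.1 (hW i).1)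

/-- **Key inequality.** `Q` satisfies the comparison `ΔQ ≤ N`; `P = p(Q)`, `P' = p'(Q)`,
`Φ = Φ(Q)` with `Φ' = -p`; `F = Q - ½|v|² + κ`. -/
theorem key (hD : IsDir C) {n : ℕ} {Q : M →ₘ[m] ℝ} (hQ : Q ∈ C.A)
    {W L : Fin n → M →ₘ[m] ℝ} (hW : ∀ i, W i ∈ C.A) (hL : ∀ i, C.IsLap (W i) (L i))
    (c : Fin n → ℝ) (κ N : ℝ) {P Φ P' F : M →ₘ[m] ℝ} (hP : P ∈ C.A) (hP1 : MemLp P 1 m)
    (hΦ : Φ ∈ C.A) (hΦ1 : MemLp Φ 1 m) (hΦ0 : 0 ≤ Φ)
    (hP'b : MemLp P' ∞ m)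
    (hPc : ∀ g ∈ C.W, C.Γ P g = P' * C.Γ Q g) (hΦc : ∀ g ∈ C.W, C.Γ Φ g = -(P * C.Γ Q g))
    (hF : F = Q - bb W c + κ • 1) (hPF : 0 ≤ P * F)
    (hcomp : ∀ w ∈ C.A, MemLp w 1 m → 0 ≤ w → -I (C.Γ Q w) ≤ N * I w) :
    -I (F * (P' * C.Γ Q Q)) - N * I (P * F)
      ≤ N * I Φ + -I (Φ * ∑ i, (C.Γ (W i) (W i) + (W i + c i • 1) * L i)) := by
  set G := Q - bb W c with hG
  have hGA : G ∈ C.A := hD.A_sub hQ (bb_mem hD hW c)
  have hFb : MemLp F ∞ m := by rw [hF]; exact mem_add hGA.2 (mem_smul _ mem_top_one)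
  have hPFA : P * G + κ • P ∈ C.A := hD.A_add (hD.mul_mem_A hP hGA) (hD.A_smul _ hP)
  have ePF : P * G + κ • P = P * F := by
    rw [hF]; simp only [Algebra.smul_def]; ring
  have e1 : C.Γ Q (P * G + κ • P) = P * C.Γ Q G + F * (P' * C.Γ Q Q) := by
    rw [hD.Γ_add_right hQ.1 (hD.mul_mem_A hP hGA).1 (hD.A_smul _ hP).1,
      hD.Γ_mul_right hP hGA hQ.1, hD.Γ_smul_right _ hQ.1 hP.1, hD.symm Q hQ.1 P hP.1,
      hPc Q hQ.1, hF]
    simp only [Algebra.smul_def]; ring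
  have hPF1 : MemLp (P * F : M →ₘ[m] ℝ) 1 m := mem_top_mul hP1 hFb
  have m1 : MemLp (P * C.Γ Q G : M →ₘ[m] ℝ) 1 m := mem_mul_top hP.2 (hD.Γ_mem1 hQ.1 hGA.1)
  have m2 : MemLp (F * (P' * C.Γ Q Q) : M →ₘ[m] ℝ) 1 m :=
    mem_mul_top hFb (mem_mul_top hP'b (hD.mem1 _ hQ.1))
  have h1 := hcomp _ hPFA (by rw [ePF]; exact hPF1) (by rw [ePF]; exact hPF)
  rw [e1, ePF, I_add m1 m2] at h1
  have h2 : C.Γ Φ G = -(P * C.Γ Q G) := hΦc G hGA.1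
  have h3 : I (C.Γ Φ G) = -I (P * C.Γ Q G) := by rw [h2, I_neg]
  have h4 : C.Γ Φ G = C.Γ Φ Q - C.Γ Φ (bb W c) := by
    rw [hG, hD.Γ_sub_right hΦ.1 hQ.1 (bb_mem hD hW c).1]
  have h5 : I (C.Γ Φ G) = I (C.Γ Φ Q) - I (C.Γ Φ (bb W c)) := by
    rw [h4, I_sub (hD.Γ_mem1 hΦ.1 hQ.1) (hD.Γ_mem1 hΦ.1 (bb_mem hD hW c).1)]
  have h6 := ibp_bb hD hW hL c hΦ
  have h7 := hcomp Φ hΦ hΦ1 hΦ0
  rw [hD.symm Q hQ.1 Φ hΦ.1] at h7
  linarith

end Vale.Agent.P242.H358
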