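import Vale.Agent.P233.H866.FLapDist
import Vale.Agent.P242.H358.Key
import Vale.Agent.P242.H358.Barrier

/-!
P242 (helper358), package A-GH: the `L¹` bound of `d² - |v|²` for an almost splitting map.
-/

set_option linter.all false

open MeasureTheory Filter Topology Set Metric
open scoped ENNReal NNReal

universe u

namespace Vale.Agent.P242.H358

open Vale.Agent.P233 Vale.Agent.P233.H866

variable {M : Type u} [MetricSpace M] [MeasurableSpace M] [BorelSpace M]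
  [SecondCountableTopology M] {m : Measure M}

/-- `(min(d_x,R)² - R²)/2` -/
noncomputable def qf (x : M) (R : ℝ) (z : M) : ℝ := (min (dist x z) R ^ 2 - R ^ 2) / 2

/-- Laplacian comparison for `d_x²/2` in the ball of radius `R`, with `|∇d_x| = 1`. -/
structure Cmp (C : Calc m) (N' : ℝ) (x : M) (R : ℝ) : Prop where
  memA : cl m (qf x R) ∈ C.A
  hj : ∀ᵐ z ∂m, C.Γ (cl m (qf x R)) (cl m (qf x R)) z = if dist x z < R then dist x z ^ 2 else 0
  lap : ∀ w ∈ C.A, MemLp w 1 m → 0 ≤ w → -I (C.Γ (cl m (qf x R)) w) ≤ N' * I w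

theorem continuous_qf (x : M) (R : ℝ) : Continuous (qf x R) := by
  unfold qf; fun_prop

/-- `min(d_x,R)²/R²` -/
noncomputable def yf (x : M) (R : ℝ) (z : M) : ℝ := 1 + 2 * qf x R z / R ^ 2

theorem yf_eq {x : M} {R : ℝ} (hR : 0 < R) (z : M) :
    yf x R z = min (dist x z) R ^ 2 / R ^ 2 := by
  unfold yf qf
  field_simp
  ring

theorem yf_mem {x : M} {R : ℝ} (hR : 0 < R) (z : M) : yf x R z ∈ Icc (0 : ℝ) 1 := by
  rw [yf_eq hR]
  have h1 : 0 ≤ min (dist x z) R := le_min dist_nonneg hR.le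
  have h2 : min (dist x z) R ≤ R := min_le_right _ _
  constructor
  · positivity
  · rw [div_le_one (by positivity)]
    gcongr

theorem yf_of_lt {x : M} {R : ℝ} (hR : 0 < R) {z : M} (h : dist x z < R) :
    yf x R z = dist x z ^ 2 / R ^ 2 := by
  rw [yf_eq hR, min_eq_left h.le]

theorem yf_of_ge {x : M} {R : ℝ} (hR : 0 < R) {z : M} (h : R ≤ dist x z) :
    yf x R z = 1 := by
  rw [yf_eq hR, min_eq_right h, div_self (by positivity)]

theorem qf_mem {x : M} {R : ℝ} (hR : 0 < R) (z : M) : qf x R z ∈ Icc (-(R ^ 2 / 2)) 0 := by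
  have h1 : 0 ≤ min (dist x z) R := le_min dist_nonneg hR.le
  have h2 : min (dist x z) R ≤ R := min_le_right _ _
  unfold qf
  constructor <;> nlinarith

/-- `(min(d_x,R)² - |u - u(x)|²)/2 + ε R²/2` -/
noncomputable def Ff {n : ℕ} (U : Fin n → M → ℝ) (x : M) (R ε : ℝ) (z : M) : ℝ :=
  min (dist x z) R ^ 2 / 2 - (∑ i, (U i z - U i x) ^ 2) / 2 + ε / 2 * R ^ 2

theorem continuous_Ff {n : ℕ} {U : Fin n → M → ℝ} (hU : ∀ i, Continuous (U i)) (x : M)
    (R ε : ℝ) : Continuous (Ff U x R ε) := by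
  unfold Ff
  have : Continuous fun z => ∑ i, (U i z - U i x) ^ 2 :=
    continuous_finsetSum _ fun i _ => ((hU i).sub continuous_const).pow 2
  fun_prop

theorem sum_ae {ι : Type*} (s : Finset ι) (f : ι → M →ₘ[m] ℝ) :
    ⇑(∑ i ∈ s, f i) =ᵐ[m] fun z => ∑ i ∈ s, f i z := by
  classical
  induction s using Finset.induction_on with
  | empty =>
    filter_upwards [zero_ae (M := M) (m := m)] with z hz
    simpa using hz
  | insert a s ha ih =>
    rw [Finset.sum_insert ha]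
    filter_upwards [add_ae (f a) (∑ i ∈ s, f i), ih] with z h1 h2
    rw [h1, h2, Finset.sum_insert ha]

/-- the chain rule for functions of `y` -/
theorem chain_y {C : Calc m} (hD : IsDir C) {x : M} {R : ℝ} (hR : 0 < R)
    (hQ : cl m (qf x R) ∈ C.A) {φ φ' : ℝ → ℝ} (hφ : Continuous φ) (hφ' : Continuous φ')
    (hd : ∀ y ∈ Icc (0 : ℝ) 1, HasDerivWithinAt φ (φ' y) (Icc 0 1) y) (h0 : φ 1 = 0) :
    cl m (fun z => φ (yf x R z)) ∈ C.A ∧ ∀ g ∈ C.W, C.Γ (cl m (fun z => φ (yf x R z))) g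
      = cl m (fun z => 2 / R ^ 2 * φ' (yf x R z)) * C.Γ (cl m (qf x R)) g := by
  have hq := continuous_qf x R
  have hlin : Continuous fun t : ℝ => 1 + 2 * t / R ^ 2 := by fun_prop
  have hc1 : Continuous fun t : ℝ => φ (1 + 2 * t / R ^ 2) := hφ.comp hlin
  have hc2 : Continuous fun t : ℝ => 2 / R ^ 2 * φ' (1 + 2 * t / R ^ 2) :=
    continuous_const.mul (hφ'.comp hlin)
  have hab : ∀ᵐ z ∂m, -(R ^ 2 / 2) ≤ cl m (qf x R) z ∧ cl m (qf x R) z ≤ 0 := by
    filter_upwards [cl_ae (m := m) hq] with z hz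
    rw [hz]; exact qf_mem hR z
  have hmaps : ∀ t ∈ Icc (-(R ^ 2 / 2)) 0, 1 + 2 * t / R ^ 2 ∈ Icc (0 : ℝ) 1 := by
    intro t ht
    have hR2 : 0 < R ^ 2 := by positivity
    constructor
    · have : -1 ≤ 2 * t / R ^ 2 := by
        rw [le_div_iff₀ hR2]; linarith [ht.1]
      linarith
    · have : 2 * t / R ^ 2 ≤ 0 := div_nonpos_of_nonpos_of_nonneg (by linarith [ht.2]) hR2.le
      linarith
  have hder : ∀ t ∈ Icc (-(R ^ 2 / 2)) 0,
      HasDerivWithinAt (fun t : ℝ => φ (1 + 2 * t / R ^ 2)) (2 / R ^ 2 * φ' (1 + 2 * t / R ^ 2))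
        (Icc (-(R ^ 2 / 2)) 0) t := by
    intro t ht
    have h1 : HasDerivWithinAt (fun t : ℝ => 1 + 2 * t / R ^ 2) (2 / R ^ 2)
        (Icc (-(R ^ 2 / 2)) 0) t := by
      have := (((hasDerivAt_id t).const_mul 2).div_const (R ^ 2)).const_add 1
      simpa using this.hasDerivWithinAt
    have h2 := (hd _ (hmaps t ht)).comp t h1 (fun s hs => hmaps s hs)
    refine h2.congr_deriv (by ring)
  have hneg : -(R ^ 2 / 2) ≤ 0 := by
    have : 0 < R ^ 2 := by positivity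
    linarith
  obtain ⟨h1, h2⟩ := hD.hc_chain hQ.1 hneg le_rfl hab hc1 hc2 hder (by simpa using h0)
  have e1 : AEEqFun.comp _ hc1 (cl m (qf x R)) = cl m (fun z => φ (yf x R z)) := by
    rw [cl_comp hq hc1]; rfl
  have e2 : AEEqFun.comp _ hc2 (cl m (qf x R)) = cl m (fun z => 2 / R ^ 2 * φ' (yf x R z)) := by
    rw [cl_comp hq hc2]; rfl
  have h3 : MemLp (AEEqFun.comp _ hc1 (cl m (qf x R))) ∞ m := hc_comp_top hab hc1
  rw [e1] at h1 h2 h3
  rw [e2] at h2
  exact ⟨⟨h1, h3⟩, h2⟩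

theorem cl_y_top {x : M} {R : ℝ} (hR : 0 < R) {φ : ℝ → ℝ} (hφ : Continuous φ) :
    MemLp (cl m (fun z => φ (yf x R z))) ∞ m := by
  have hy : Continuous (yf x R) := by
    unfold yf
    have := continuous_qf x R
    fun_prop
  obtain ⟨B, hB⟩ := (isCompact_Icc (a := (0 : ℝ)) (b := 1)).exists_bound_of_continuousOn
    hφ.continuousOn
  rw [mem_top_iff]
  refine ⟨B, ?_⟩
  filter_upwards [cl_ae (m := m) (hφ.comp hy)] with z hz
  have hz' : cl m (fun z => φ (yf x R z)) z = φ (yf x R z) := hz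
  rw [hz']
  exact hB _ (yf_mem hR z)

theorem continuous_yf (x : M) (R : ℝ) : Continuous (yf x R) := by
  unfold yf
  have := continuous_qf x R
  fun_prop

theorem cl_y_mem1 (hfin : ∀ (x : M) (r : ℝ), m (ball x r) < ∞) {x : M} {R : ℝ} (hR : 0 < R)
    {φ : ℝ → ℝ} (hφ : Continuous φ) (h0 : φ 1 = 0) :
    MemLp (cl m (fun z => φ (yf x R z))) 1 m := by
  refine BSupp.mem1 hfin (cl_y_top hR hφ) ⟨x, R, ?_⟩
  filter_upwards [cl_ae (m := m) (hφ.comp (continuous_yf x R))] with z hz hd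
  have hz' : cl m (fun z => φ (yf x R z)) z = φ (yf x R z) := hz
  rw [hz', yf_of_ge hR (by rw [dist_comm]; exact hd.le), h0]

end Vale.Agent.P242.H358
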