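import Vale.Agent.P233.H715.BlkA1
import Vale.Agent.P233.H715.BlkHeat
import Vale.Agent.P242.H358.GH1

/-!
P242 (helper358): the Laplacian comparison `Δ(d_x²/2) ≤ N + |K| R²/2` in `B_R(x)` and `|∇d_x| = 1`,
from the library of P233.
-/

set_option linter.all false

open MeasureTheory Filter Topology Set Metric
open scoped ENNReal NNReal

universe u

namespace Vale.Agent.P242.H358

open Vale.Agent.P233 Vale.Agent.P233.H866

variable {M : Type u} [MetricSpace M] [CompleteSpace M] [SecondCountableTopology M]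
  [MeasurableSpace M] [BorelSpace M] {m : Measure M}

theorem qf_eq_zr (x : M) {R : ℝ} (hR : 0 < R) {s : ℝ} (hs : 0 < s) (z : M) :
    qf x R z = (1 + s) * zr x s (R ^ 2 / (2 * (1 + s))) 1 z := by
  have h := zr_eq (p := x) (s₀ := s) (t := 1) hR (by linarith) rfl z
  unfold qf
  rw [← h]; ring

/-- Laplacian comparison and eikonal equation of `d_x²/2`. -/
theorem cmp_std {K N : ℝ} (hS : Std m K N) (x : M) {R : ℝ} (hR : 0 < R) :
    Cmp (sob m) (N + |K| * R ^ 2 / 2) x R := by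
  obtain ⟨P, hP⟩ := H715.blk_A1 M m K N hS
  have hG := std_gamma hS
  have hD := hG.toIsDir
  have hA : ∀ s : ℝ, 0 < s → s ≤ 1 → ∃ u, PA.ULim m K N x s (R ^ 2 / (2 * (1 + s))) u := by
    intro s hs hs1
    obtain ⟨u, φ, h⟩ := H715.blk_A M m K N hS P hP x s (R ^ 2 / (2 * (1 + s))) hs hs1
      (by positivity)
    exact ⟨u, h.ulim⟩
  have ecl : ∀ s : ℝ, 0 < s → cl m (qf x R)
      = (1 + s) • cl m (zr x s (R ^ 2 / (2 * (1 + s))) 1) := by
    intro s hs
    rw [eq_iff_ae]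
    filter_upwards [cl_ae (m := m) (continuous_qf x R), smul_ae (cl m (zr x s
      (R ^ 2 / (2 * (1 + s))) 1)) (1 + s), cl_ae (m := m) (continuous_zr x s
      (R ^ 2 / (2 * (1 + s))) 1)] with z a1 a2 a3
    rw [a1, a2, a3]
    exact qf_eq_zr x hR hs z
  have h1 : (1 : ℝ) ∈ Icc (0 : ℝ) 1 := ⟨by norm_num, le_rfl⟩
  have h1' : (1 : ℝ) ∈ Ioc (0 : ℝ) 1 := ⟨by norm_num, le_rfl⟩
  refine ⟨?_, ?_, ?_⟩
  · obtain ⟨u, hu⟩ := hA 1 one_pos le_rfl
    rw [ecl 1 one_pos]
    exact hD.A_smul _ (hu.mem 1 h1).1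
  · obtain ⟨u, hu⟩ := hA 1 one_pos le_rfl
    have hz := (hu.mem 1 h1).1
    have e : (sob m).Γ (cl m (qf x R)) (cl m (qf x R)) = (2 : ℝ) • ((2 : ℝ) •
        (sob m).Γ (cl m (zr x 1 (R ^ 2 / (2 * (1 + 1))) 1))
          (cl m (zr x 1 (R ^ 2 / (2 * (1 + 1))) 1))) := by
      rw [ecl 1 one_pos, hD.smul_left _ _ hz.1 _ (hD.smul_mem _ _ hz.1),
        hD.Γ_smul_right _ hz.1 hz.1]
      norm_num
    rw [e]
    filter_upwards [hu.hj 1 h1, smul_ae ((2 : ℝ) • (sob m).Γ (cl m (zr x 1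
      (R ^ 2 / (2 * (1 + 1))) 1)) (cl m (zr x 1 (R ^ 2 / (2 * (1 + 1))) 1))) (2 : ℝ),
      smul_ae ((sob m).Γ (cl m (zr x 1 (R ^ 2 / (2 * (1 + 1))) 1))
        (cl m (zr x 1 (R ^ 2 / (2 * (1 + 1))) 1))) (2 : ℝ)] with z a1 a2 a3
    rw [a2, a3]
    have hq := qf_eq_zr x hR one_pos z
    split_ifs with hz
    · have h4 : zr x 1 (R ^ 2 / (2 * (1 + 1))) 1 z < 0 := by
        have h5 : qf x R z < 0 := by
          unfold qf
          rw [min_eq_left hz.le]
          have : dist x z ^ 2 < R ^ 2 := by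
            have : 0 ≤ dist x z := dist_nonneg
            gcongr
          linarith
        rw [hq] at h5
        linarith
      rw [a1.1 h4]
      ring
    · have h4 : zr x 1 (R ^ 2 / (2 * (1 + 1))) 1 z = 0 := by
        have h5 : qf x R z = 0 := by
          unfold qf
          rw [min_eq_right (not_lt.1 hz)]
          ring
        rw [hq] at h5
        linarith
      rw [a1.2 h4]
      ring
  · intro w hw hw1 hw0
    have hIw : 0 ≤ I w := I_nonneg hw0
    have key : ∀ s : ℝ, 0 < s → s ≤ 1 → -I ((sob m).Γ (cl m (qf x R)) w)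
        ≤ ((1 + s) * N + |K| * R ^ 2 / 2) * I w := by
      intro s hs hs1
      obtain ⟨u, hu⟩ := hA s hs hs1
      have h2 := hu.lap 1 h1' w hw.1 hw0 hw1
      rw [ecl s hs, hD.smul_left _ _ (hu.mem 1 h1).1.1 _ hw.1, I_smul]
      have h3 : (N / 1 + PA.c1 K 0 (R ^ 2 / (2 * (1 + s)))) * (1 + s)
          = (1 + s) * N + |K| * R ^ 2 / 2 := by
        unfold PA.c1
        have : 1 + s ≠ 0 := by positivity
        field_simp
        ring
      rw [← h3]
      have h4 : 0 < 1 + s := by linarith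
      nlinarith
    have hlim : Tendsto (fun s : ℝ => ((1 + s) * N + |K| * R ^ 2 / 2) * I w) (𝓝[>] 0)
        (𝓝 (((1 + 0) * N + |K| * R ^ 2 / 2) * I w)) := by
      have : Continuous fun s : ℝ => ((1 + s) * N + |K| * R ^ 2 / 2) * I w := by fun_prop
      exact (this.tendsto 0).mono_left nhdsWithin_le_nhds
    have h5 := ge_of_tendsto hlim (by
      filter_upwards [Ioc_mem_nhdsGT (show (0 : ℝ) < 1 by norm_num)] with s hs
      exact key s hs.1 hs.2)
    simpa using h5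

end Vale.Agent.P242.H358
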