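import Vale.Agent.P242.H358.GH3
import Mathlib.Analysis.Calculus.BumpFunction.Basic
import Mathlib.Analysis.Calculus.BumpFunction.InnerProduct

/-!
P242 (helper358), package A-GH, part 2: calculus of functions of an almost splitting map, one
variable at a time.
-/

set_option linter.all false

open MeasureTheory Filter Topology Set Metric
open scoped ENNReal NNReal

universe u

namespace Vale.Agent.P242.H358

open Vale.Agent.P233 Vale.Agent.P233.H866

/-! ### one variable -/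

/-- a smooth bump -/
theorem exists_bump : ∃ θ θ' : ℝ → ℝ, Continuous θ' ∧ (∀ t, HasDerivAt θ (θ' t) t) ∧
    (∀ t, 0 ≤ θ t ∧ θ t ≤ 1) ∧ (∀ t, 1 ≤ |t| → θ t = 0) ∧ (∀ t, |t| ≤ 1 / 2 → θ t = 1) ∧
    ∃ B : ℝ, 0 ≤ B ∧ ∀ t, |θ' t| ≤ B := by
  let f : ContDiffBump (0 : ℝ) := ⟨1 / 2, 1, by norm_num, by norm_num⟩
  have hf : ContDiff ℝ 1 f := f.contDiff
  have hd : Continuous (deriv f) := hf.continuous_deriv le_rfl
  have hcs : HasCompactSupport (deriv (f : ℝ → ℝ)) := f.hasCompactSupport.deriv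
  obtain ⟨B, hB⟩ := hcs.exists_bound_of_continuous hd
  refine ⟨f, deriv f, hd, fun t => (hf.differentiable one_ne_zero t).hasDerivAt,
    fun t => ⟨f.nonneg, f.le_one⟩, fun t ht => ?_, fun t ht => ?_, |B|, abs_nonneg _,
    fun t => ?_⟩
  · refine f.zero_of_le_dist ?_
    rw [Real.dist_eq, sub_zero]
    exact ht
  · refine f.one_of_mem_closedBall ?_
    rw [mem_closedBall, Real.dist_eq, sub_zero]
    exact ht
  · exact (hB t).trans (le_abs_self B)

/-- the primitive of a bump -/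
theorem prim_spec {θ : ℝ → ℝ} (hθ : Continuous θ) (h01 : ∀ t, 0 ≤ θ t ∧ θ t ≤ 1)
    (h0 : ∀ t, 1 ≤ |t| → θ t = 0) : ∃ Θ : ℝ → ℝ, (∀ t, HasDerivAt Θ (θ t) t) ∧
      (∀ t, |Θ t| ≤ 1) ∧ (∀ t, 1 ≤ t → Θ t = Θ 1) ∧ ∀ t, t ≤ -1 → Θ t = Θ (-1) := by
  have hd : ∀ t, HasDerivAt (fun t => ∫ s in (0 : ℝ)..t, θ s) (θ t) t := fun t =>
    (hθ.integral_hasStrictDerivAt 0 t).hasDerivAt
  have h1 : ∀ t, 1 ≤ t → (∫ s in (0 : ℝ)..t, θ s) = ∫ s in (0 : ℝ)..1, θ s := by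
    intro t ht
    have e := intervalIntegral.integral_add_adjacent_intervals
      (hθ.intervalIntegrable (μ := volume) 0 1) (hθ.intervalIntegrable (μ := volume) 1 t)
    have e2 : ∫ s in (1 : ℝ)..t, θ s = 0 := by
      rw [intervalIntegral.integral_congr (g := fun _ => (0 : ℝ))]
      · simp
      · intro s hs
        rw [uIcc_of_le ht] at hs
        exact h0 s (hs.1.trans (le_abs_self s))
    rw [e2, add_zero] at e
    exact e.symm
  have h2 : ∀ t, t ≤ -1 → (∫ s in (0 : ℝ)..t, θ s) = ∫ s in (0 : ℝ)..(-1), θ s := by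
    intro t ht
    have e := intervalIntegral.integral_add_adjacent_intervals
      (hθ.intervalIntegrable (μ := volume) 0 (-1)) (hθ.intervalIntegrable (μ := volume) (-1) t)
    have e2 : ∫ s in (-1 : ℝ)..t, θ s = 0 := by
      rw [intervalIntegral.integral_congr (g := fun _ => (0 : ℝ))]
      · simp
      · intro s hs
        rw [uIcc_of_ge ht] at hs
        refine h0 s ?_
        have := neg_le_abs s
        linarith [hs.2]
    rw [e2, add_zero] at e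
    exact e.symm
  have hb : ∀ t ∈ Icc (-1 : ℝ) 1, |∫ s in (0 : ℝ)..t, θ s| ≤ 1 := by
    intro t ht
    have := intervalIntegral.norm_integral_le_of_norm_le_const (a := (0 : ℝ)) (b := t) (f := θ)
      (C := 1) (fun s _ => by
        rw [Real.norm_eq_abs, abs_of_nonneg (h01 s).1]; exact (h01 s).2)
    rw [Real.norm_eq_abs, sub_zero, one_mul] at this
    exact this.trans (abs_le.2 ht)
  refine ⟨fun t => ∫ s in (0 : ℝ)..t, θ s, hd, fun t => ?_, h1, h2⟩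
  rcases le_total t (-1) with h | h
  · show |∫ s in (0 : ℝ)..t, θ s| ≤ 1
    rw [h2 t h]; exact hb _ ⟨le_rfl, by norm_num⟩
  · rcases le_total 1 t with h' | h'
    · show |∫ s in (0 : ℝ)..t, θ s| ≤ 1
      rw [h1 t h']; exact hb _ ⟨by norm_num, le_rfl⟩
    · exact hb t ⟨h, h'⟩

/-! ### functions of several Sobolev functions -/

variable {M : Type u} [MeasurableSpace M] {m : Measure M} {C : Calc m} {n : ℕ}

/-- `F` is a function with gradient `∑ a_j ∇W_j`, tested by products with `φ ∈ A` -/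
def Grd (C : Calc m) (W : Fin n → M →ₘ[m] ℝ) (F : M →ₘ[m] ℝ) (a : Fin n → M →ₘ[m] ℝ) : Prop :=
  MemLp F ∞ m ∧ (∀ j, MemLp (a j) ∞ m) ∧
  ∀ φ ∈ C.A, φ * F ∈ C.A ∧ ∀ h ∈ C.W, C.Γ (φ * F) h = F * C.Γ φ h + φ * ∑ j, a j * C.Γ (W j) h

theorem Grd.one (W : Fin n → M →ₘ[m] ℝ) : Grd C W 1 0 := by
  refine ⟨mem_top_one, fun j => P233.mem_zero, fun φ hφ => ?_⟩
  rw [mul_one]
  refine ⟨hφ, fun h hh => ?_⟩
  simp

theorem Grd.mul {W : Fin n → M →ₘ[m] ℝ} {F G : M →ₘ[m] ℝ} {a b : Fin n → M →ₘ[m] ℝ}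
    (hF : Grd C W F a) (hG : Grd C W G b) :
    Grd C W (F * G) (fun j => G * a j + F * b j) := by
  refine ⟨mem_mul_top hF.1 hG.1, fun j => mem_add (mem_mul_top hG.1 (hF.2.1 j))
    (mem_mul_top hF.1 (hG.2.1 j)), fun φ hφ => ?_⟩
  obtain ⟨h1, h2⟩ := hF.2.2 φ hφ
  obtain ⟨h3, h4⟩ := hG.2.2 _ h1
  rw [← mul_assoc]
  refine ⟨h3, fun h hh => ?_⟩
  rw [h4 h hh, h2 h hh]
  have e : ∑ j, (G * a j + F * b j) * C.Γ (W j) h
      = G * ∑ j, a j * C.Γ (W j) h + F * ∑ j, b j * C.Γ (W j) h := by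
    rw [Finset.mul_sum, Finset.mul_sum, ← Finset.sum_add_distrib]
    exact Finset.sum_congr rfl fun j _ => by ring
  rw [e]
  ring

theorem Grd.comp (hD : IsDir C) {W : Fin n → M →ₘ[m] ℝ} (hW : ∀ j, W j ∈ C.A) (k : Fin n)
    {ζ ζ' : ℝ → ℝ} (hζ' : Continuous ζ') (hd : ∀ t, HasDerivAt ζ (ζ' t) t)
    (hζ : Continuous ζ) :
    Grd C W (AEEqFun.comp ζ hζ (W k))
      (fun j => if j = k then AEEqFun.comp ζ' hζ' (W k) else 0) := by
  classical
  obtain ⟨K0, hK0⟩ := mem_top_iff.1 (hW k).2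
  set K := |K0| with hKd
  have hK : ∀ᵐ x ∂m, -K ≤ W k x ∧ W k x ≤ K := by
    filter_upwards [hK0] with x hx
    exact abs_le.1 (hx.trans (le_abs_self K0))
  have hK1 : -K ≤ 0 := by rw [neg_nonpos]; exact abs_nonneg _
  have hv : Continuous fun t => ζ t - ζ 0 := hζ.sub continuous_const
  obtain ⟨h1, h2⟩ := hD.hc_chain (hW k).1 hK1 (abs_nonneg K0) hK hv hζ'
    (fun t _ => ((hd t).sub_const _).hasDerivWithinAt) (sub_self _)
  set V := AEEqFun.comp _ hv (W k) with hV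
  have hVA : V ∈ C.A := ⟨h1, hc_comp_top hK hv⟩
  have eF : AEEqFun.comp ζ hζ (W k) = ζ 0 • (1 : M →ₘ[m] ℝ) + V := by
    rw [eq_iff_ae]
    filter_upwards [AEEqFun.coeFn_comp ζ hζ (W k), AEEqFun.coeFn_comp _ hv (W k),
      add_ae (ζ 0 • (1 : M →ₘ[m] ℝ)) V, smul_ae (1 : M →ₘ[m] ℝ) (ζ 0),
      one_ae (M := M) (m := m)] with x a1 a2 a3 a4 a5
    rw [a1, a3, a4, a5, hV, a2]
    simp
  have ht1 : MemLp (AEEqFun.comp ζ hζ (W k)) ∞ m := hc_comp_top hK hζ
  have ht2 : MemLp (AEEqFun.comp ζ' hζ' (W k)) ∞ m := hc_comp_top hK hζ'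
  refine ⟨ht1, fun j => ?_, fun φ hφ => ?_⟩
  · dsimp only
    split_ifs
    · exact ht2
    · exact P233.mem_zero
  · have e1 : φ * AEEqFun.comp ζ hζ (W k) = ζ 0 • φ + φ * V := by
      rw [eF]; simp only [Algebra.smul_def]; ring
    rw [e1]
    refine ⟨hD.A_add (hD.A_smul _ hφ) (hD.mul_mem_A hφ hVA), fun h hh => ?_⟩
    rw [hD.add_left _ (hD.A_smul _ hφ).1 _ (hD.mul_mem_A hφ hVA).1 _ hh,
      hD.smul_left _ _ hφ.1 _ hh, hD.Γ_mul_left hφ hVA hh, h2 h hh, eF]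
    have e2 : ∑ j, (if j = k then AEEqFun.comp ζ' hζ' (W k) else 0) * C.Γ (W j) h
        = AEEqFun.comp ζ' hζ' (W k) * C.Γ (W k) h := by
      rw [Finset.sum_eq_single k]
      · rw [if_pos rfl]
      · intro j _ hj; rw [if_neg hj, zero_mul]
      · intro hk; exact absurd (Finset.mem_univ k) hk
    rw [e2]
    simp only [Algebra.smul_def]; ring

/-- products of bounded functions of one variable each -/
theorem prod_grd (hD : IsDir C) {W : Fin n → M →ₘ[m] ℝ} (hW : ∀ j, W j ∈ C.A)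
    {ζ ζ' : Fin n → ℝ → ℝ} (hζ' : ∀ k, Continuous (ζ' k))
    (hd : ∀ k t, HasDerivAt (ζ k) (ζ' k t) t) (hζ : ∀ k, Continuous (ζ k))
    (h1 : ∀ k t, |ζ k t| ≤ 1) {B : ℝ} (hB0 : 0 ≤ B) (hB : ∀ k t, |ζ' k t| ≤ B)
    (S : Finset (Fin n)) :
    ∃ (F : M →ₘ[m] ℝ) (a : Fin n → M →ₘ[m] ℝ), Grd C W F a ∧
      (∀ᵐ x ∂m, F x = ∏ k ∈ S, ζ k (W k x)) ∧ (∀ᵐ x ∂m, |F x| ≤ 1) ∧
      (∀ j, ∀ᵐ x ∂m, |a j x| ≤ B) ∧ ∀ j, j ∉ S → a j = 0 := by
  classical
  induction S using Finset.induction_on with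
  | empty =>
    refine ⟨1, 0, Grd.one W, ?_, ?_, ?_, fun j _ => rfl⟩
    · filter_upwards [one_ae (M := M) (m := m)] with x hx
      rw [hx]; simp
    · filter_upwards [one_ae (M := M) (m := m)] with x hx
      rw [hx]; simp
    · intro j
      filter_upwards [zero_ae (M := M) (m := m)] with x hx
      have : (0 : Fin n → M →ₘ[m] ℝ) j = 0 := rfl
      rw [this, hx, abs_zero]; exact hB0
  | insert l S hl ih =>
    obtain ⟨F, a, hF, e1, e2, e3, e4⟩ := ih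
    have hG := Grd.comp hD hW l (hζ' l) (hd l) (hζ l)
    have hGF := hG.mul hF
    set G := AEEqFun.comp (ζ l) (hζ l) (W l) with hGd
    have aG : ∀ᵐ x ∂m, G x = ζ l (W l x) := AEEqFun.coeFn_comp _ _ _
    refine ⟨_, _, hGF, ?_, ?_, ?_, ?_⟩
    · filter_upwards [mul_ae G F, aG, e1] with x b1 b2 b3
      rw [b1, b2, b3, Finset.prod_insert hl]
    · filter_upwards [mul_ae G F, aG, e2] with x b1 b2 b3
      rw [b1, b2, abs_mul]
      exact mul_le_one₀ (h1 l _) (abs_nonneg _) b3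
    · intro j
      by_cases hj : j = l
      · subst hj
        rw [if_pos rfl, e4 j hl, mul_zero, add_zero]
        filter_upwards [mul_ae F (AEEqFun.comp (ζ' j) (hζ' j) (W j)), e2,
          AEEqFun.coeFn_comp (ζ' j) (hζ' j) (W j)] with x b1 b2 b3
        rw [b1, b3, abs_mul, Function.comp_apply]
        calc |F x| * |ζ' j (W j x)| ≤ 1 * B :=
              mul_le_mul b2 (hB j _) (abs_nonneg _) zero_le_one
          _ = B := one_mul B
      · rw [if_neg hj, mul_zero, zero_add]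
        filter_upwards [mul_ae G (a j), aG, e3 j] with x b1 b2 b3
        rw [b1, b2, abs_mul]
        calc |ζ l (W l x)| * |a j x| ≤ 1 * B :=
              mul_le_mul (h1 l _) b3 (abs_nonneg _) zero_le_one
          _ = B := one_mul B
    · intro j hj
      rw [Finset.mem_insert, not_or] at hj
      rw [if_neg hj.1, e4 j hj.2, mul_zero, mul_zero, add_zero]

/-- the integration by parts -/
theorem grd_ibp (hD : IsDir C) {W L : Fin n → M →ₘ[m] ℝ} (hW : ∀ j, W j ∈ C.A)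
    {i : Fin n} (hL : C.IsLap (W i) (L i)) {F : M →ₘ[m] ℝ} {a : Fin n → M →ₘ[m] ℝ}
    (hF : Grd C W F a) {χ : M →ₘ[m] ℝ} (hχ : χ ∈ C.A) (hχ1 : MemLp χ 1 m)
    (h0 : F * C.Γ χ (W i) = 0) :
    I (χ * a i) = -I (χ * F * L i)
      - ∑ j, I (χ * (a j * (C.Γ (W j) (W i) - if j = i then 1 else 0))) := by
  classical
  obtain ⟨h1, h2⟩ := hF.2.2 χ hχ
  have h3 : I (C.Γ (W i) (χ * F)) = -I (L i * (χ * F)) := hL.2.2 _ h1.1
  rw [hD.symm _ (hW i).1 _ h1.1, h2 _ (hW i).1, h0, zero_add] at h3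
  have e1 : L i * (χ * F) = χ * F * L i := by ring
  rw [e1, Finset.mul_sum] at h3
  have m1 : ∀ j, MemLp (χ * (a j * C.Γ (W j) (W i)) : M →ₘ[m] ℝ) 1 m := fun j =>
    mem_mul_top hχ.2 (mem_mul_top (hF.2.1 j) (hD.Γ_mem1 (hW j).1 (hW i).1))
  rw [I_sum _ fun j _ => m1 j] at h3
  have m2 : ∀ j, MemLp (χ * (a j * if j = i then 1 else 0) : M →ₘ[m] ℝ) 1 m := by
    intro j
    split_ifs
    · rw [mul_one]; exact mem_top_mul hχ1 (hF.2.1 j)
    · rw [mul_zero, mul_zero]; exact P233.mem_zero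
  have e2 : ∀ j, I (χ * (a j * (C.Γ (W j) (W i) - if j = i then 1 else 0)))
      = I (χ * (a j * C.Γ (W j) (W i))) - I (χ * (a j * if j = i then 1 else 0)) := by
    intro j
    rw [← I_sub (m1 j) (m2 j)]
    congr 1
    ring
  have e3 : ∑ j, I (χ * (a j * if j = i then 1 else 0)) = I (χ * a i) := by
    rw [Finset.sum_eq_single i]
    · rw [if_pos rfl, mul_one]
    · intro j _ hj
      rw [if_neg hj, mul_zero, mul_zero, I_zero]
    · intro hi; exact absurd (Finset.mem_univ i) hi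
  simp only [e2, Finset.sum_sub_distrib]
  rw [e3, h3]
  ring

end Vale.Agent.P242.H358
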