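import Vale.Agent.P242.H358.Dens1

/-!
P242 (helper358), package A-GH, part 2: the image of an almost splitting map is almost dense.
-/

set_option linter.all false

open MeasureTheory Filter Topology Set Metric
open scoped ENNReal NNReal

universe u

namespace Vale.Agent.P242.H358

open Vale.Agent.P233 Vale.Agent.P233.H866

/-! ### the cut-off -/

/-- `1` for `y ≤ 0.48²`, `0` for `y ≥ 0.49²` -/
noncomputable def cut (y : ℝ) : ℝ := Real.smoothTransition ((2401 / 10000 - y) / (97 / 10000))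

theorem contDiff_cut : ContDiff ℝ 1 cut := by
  unfold cut
  exact Real.smoothTransition.contDiff.comp (by fun_prop)

theorem cut_mem (y : ℝ) : 0 ≤ cut y ∧ cut y ≤ 1 :=
  ⟨Real.smoothTransition.nonneg _, Real.smoothTransition.le_one _⟩

theorem cut_one {y : ℝ} (hy : y ≤ 2304 / 10000) : cut y = 1 := by
  unfold cut
  refine Real.smoothTransition.one_of_one_le ?_
  rw [le_div_iff₀ (by norm_num)]; linarith

theorem cut_zero {y : ℝ} (hy : 2401 / 10000 ≤ y) : cut y = 0 := by
  unfold cut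
  refine Real.smoothTransition.zero_of_nonpos ?_
  exact div_nonpos_of_nonpos_of_nonneg (by linarith) (by norm_num)

theorem deriv_cut_left {y : ℝ} (hy : y < 2304 / 10000) : deriv cut y = 0 := by
  have h : cut =ᶠ[𝓝 y] fun _ => (1 : ℝ) := by
    filter_upwards [Iio_mem_nhds hy] with t ht
    exact cut_one (le_of_lt ht)
  rw [h.deriv_eq, deriv_const]

theorem deriv_cut_right {y : ℝ} (hy : 2401 / 10000 < y) : deriv cut y = 0 := by
  have h : cut =ᶠ[𝓝 y] fun _ => (0 : ℝ) := by
    filter_upwards [Ioi_mem_nhds hy] with t ht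
    exact cut_zero (le_of_lt ht)
  rw [h.deriv_eq, deriv_const]

theorem hasDerivAt_cut (y : ℝ) : HasDerivAt cut (deriv cut y) y :=
  (contDiff_cut.differentiable one_ne_zero y).hasDerivAt

theorem continuous_deriv_cut : Continuous (deriv cut) := contDiff_cut.continuous_deriv le_rfl

theorem continuous_cut : Continuous cut := contDiff_cut.continuous

section metric

variable {M : Type u} [MetricSpace M] [MeasurableSpace M] [BorelSpace M]
  [SecondCountableTopology M] {m : Measure M} {C : Calc m} {n : ℕ} {x : M} {R : ℝ}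
  {U : Fin n → M → ℝ} {L : Fin n → M →ₘ[m] ℝ}

/-- the class of the cut-off -/
noncomputable def cX (m : Measure M) (x : M) (R : ℝ) : M →ₘ[m] ℝ := cl m (fun z => cut (yf x R z))

theorem cX_ae : ⇑(cX m x R) =ᵐ[m] fun z => cut (yf x R z) :=
  cl_ae (continuous_cut.comp (continuous_yf x R))

theorem cX_spec (hD : IsDir C) (hfin : ∀ (x : M) (r : ℝ), m (ball x r) < ∞) (hR : 0 < R)
    (hQ : cl m (qf x R) ∈ C.A) :
    cX m x R ∈ C.A ∧ MemLp (cX m x R) 1 m ∧ ∀ g ∈ C.W, C.Γ (cX m x R) g
      = cl m (fun z => 2 / R ^ 2 * deriv cut (yf x R z)) * C.Γ (cl m (qf x R)) g := by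
  have h1 : cut 1 = 0 := cut_zero (by norm_num)
  obtain ⟨h2, h3⟩ := chain_y hD hR hQ continuous_cut continuous_deriv_cut
    (fun y _ => (hasDerivAt_cut y).hasDerivWithinAt) h1
  exact ⟨h2, cl_y_mem1 hfin hR continuous_cut h1, h3⟩

theorem cut_supp (hR : 0 < R) {z : M} (h : cut (yf x R z) ≠ 0) : dist x z < 49 / 100 * R := by
  by_contra hneg
  push Not at hneg
  refine h (cut_zero ?_)
  rcases lt_or_ge (dist x z) R with hz | hz
  · rw [yf_of_lt hR hz, le_div_iff₀ (by positivity)]
    nlinarith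
  · rw [yf_of_ge hR hz]; norm_num

/-- bound of an integral with the cut-off -/
theorem I_le_ball {X Y : M →ₘ[m] ℝ} {b : ℝ} (hb : 0 ≤ b) (hX : ∀ᵐ z ∂m, |X z| ≤ b * |Y z|)
    (hY : IntegrableOn Y (ball x R) m) (hR : 0 < R) :
    |I (cX m x R * X)| ≤ b * ∫ z in ball x R, |Y z| ∂m := by
  have i1 : Integrable (fun z => (ball x R).indicator (fun z => b * |Y z|) z) m := by
    have : IntegrableOn (fun z => b * |Y z|) (ball x R) m := hY.abs.const_mul b
    exact this.integrable_indicator measurableSet_ball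
  have h1 : |I (cX m x R * X)| ≤ ∫ z, (ball x R).indicator (fun z => b * |Y z|) z ∂m := by
    unfold I
    rw [← Real.norm_eq_abs]
    refine norm_integral_le_of_norm_le i1 ?_
    filter_upwards [mul_ae (cX m x R) X, cX_ae (m := m) (x := x) (R := R), hX] with z a1 a2 a3
    rw [Real.norm_eq_abs, a1, a2, abs_mul]
    by_cases hz : cut (yf x R z) = 0
    · rw [hz, abs_zero, zero_mul]
      exact indicator_nonneg (fun _ _ => mul_nonneg hb (abs_nonneg _)) z
    · have h2 := cut_supp hR hz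
      rw [indicator_of_mem (by rw [mem_ball, dist_comm]; linarith)]
      have h3 := cut_mem (yf x R z)
      rw [abs_of_nonneg h3.1]
      calc cut (yf x R z) * |X z| ≤ 1 * |X z| :=
            mul_le_mul_of_nonneg_right h3.2 (abs_nonneg _)
        _ = |X z| := one_mul _
        _ ≤ _ := a3
  rwa [integral_indicator measurableSet_ball, integral_const_mul] at h1

/-- **one step**: moving the bump in the direction `i` -/
theorem step_bound (hD : IsDir C) (hfin : ∀ (x : M) (r : ℝ), m (ball x r) < ∞) (hR : 0 < R)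
    (hQ : cl m (qf x R) ∈ C.A) (hUc : ∀ i, Continuous (U i)) (hUA : ∀ i, cl m (U i) ∈ C.A)
    {i : Fin n} (hL : C.IsLap (cl m (U i)) (L i)) {ζ ζ' : Fin n → ℝ → ℝ}
    (hζ' : ∀ k, Continuous (ζ' k)) (hd : ∀ k t, HasDerivAt (ζ k) (ζ' k t) t)
    (hζ : ∀ k, Continuous (ζ k)) (h1 : ∀ k t, |ζ k t| ≤ 1) {B : ℝ} (hB0 : 0 ≤ B)
    (hB : ∀ k t, |ζ' k t| ≤ B) {ξ ξ' : ℝ → ℝ} (hξ' : Continuous ξ')
    (hξd : ∀ t, HasDerivAt ξ (ξ' t) t) {b : ℝ} (hb0 : 0 ≤ b) (hb : ∀ t, |ξ t| ≤ b)
    (hb1 : ∀ t, |ξ' t| ≤ 1)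
    (hsupp : ∀ z, (∏ k ∈ Finset.univ.erase i, ζ k (U k z)) * ξ (U i z) ≠ 0 →
      deriv cut (yf x R z) = 0) {δ : ℝ}
    (hLi : b * ∫ z in ball x R, |L i z| ∂m ≤ δ)
    (hG : ∀ j, (b * B + 1) * ∫ z in ball x R, |C.Γ (cl m (U j)) (cl m (U i)) z
      - if j = i then 1 else 0| ∂m ≤ δ) :
    |∫ z, cut (yf x R z) * ((∏ k ∈ Finset.univ.erase i, ζ k (U k z)) * ξ' (U i z)) ∂m|
      ≤ (n + 1) * δ := by
  classical
  have hξ : Continuous ξ := continuous_iff_continuousAt.2 fun t => (hξd t).continuousAt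
  obtain ⟨P, a, hP, eP, bP, ba, a0⟩ := prod_grd hD (W := fun k => cl m (U k)) hUA hζ' hd hζ h1 hB0
    hB (Finset.univ.erase i)
  have hX := Grd.comp hD (W := fun k => cl m (U k)) hUA i hξ' hξd hξ
  have hPX := hP.mul hX
  obtain ⟨hχA, hχ1, hχΓ⟩ := cX_spec (m := m) (x := x) hD hfin hR hQ
  have aU : ∀ᵐ z ∂m, ∀ k, cl m (U k) z = U k z := by
    rw [ae_all_iff]; intro k; exact cl_ae (hUc k)
  have aξ : ∀ᵐ z ∂m, AEEqFun.comp ξ hξ (cl m (U i)) z = ξ (U i z) := by
    filter_upwards [AEEqFun.coeFn_comp ξ hξ (cl m (U i)), aU] with z a1 a2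
    rw [a1, Function.comp_apply, a2]
  have aξ' : ∀ᵐ z ∂m, AEEqFun.comp ξ' hξ' (cl m (U i)) z = ξ' (U i z) := by
    filter_upwards [AEEqFun.coeFn_comp ξ' hξ' (cl m (U i)), aU] with z a1 a2
    rw [a1, Function.comp_apply, a2]
  have eP' : ∀ᵐ z ∂m, P z = ∏ k ∈ Finset.univ.erase i, ζ k (U k z) := by
    filter_upwards [eP, aU] with z a1 a2
    rw [a1]
    exact Finset.prod_congr rfl fun k _ => by rw [a2]
  set X := AEEqFun.comp ξ hξ (cl m (U i)) with hXd
  set X' := AEEqFun.comp ξ' hξ' (cl m (U i)) with hXd'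
  -- locality
  have h0 : P * X * C.Γ (cX m x R) (cl m (U i)) = 0 := by
    rw [hχΓ _ (hUA i).1, eq_iff_ae]
    have hcc : Continuous fun z => 2 / R ^ 2 * deriv cut (yf x R z) :=
      continuous_const.mul (continuous_deriv_cut.comp (continuous_yf x R))
    filter_upwards [mul_ae (P * X) (cl m (fun z => 2 / R ^ 2 * deriv cut (yf x R z))
      * C.Γ (cl m (qf x R)) (cl m (U i))), mul_ae P X,
      mul_ae (cl m (fun z => 2 / R ^ 2 * deriv cut (yf x R z)))
        (C.Γ (cl m (qf x R)) (cl m (U i))), cl_ae (m := m) hcc, eP', aξ,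
      zero_ae (M := M) (m := m)] with z a1 a2 a3 a4 a5 a6 a7
    rw [a1, a2, a3, a4, a5, a6, a7]
    by_cases hz : (∏ k ∈ Finset.univ.erase i, ζ k (U k z)) * ξ (U i z) = 0
    · rw [hz, zero_mul]
    · rw [hsupp z hz]; ring
  have hibp := grd_ibp hD (W := fun k => cl m (U k)) hUA hL hPX hχA hχ1 h0
  -- the left side
  have e1 : ∫ z, cut (yf x R z) * ((∏ k ∈ Finset.univ.erase i, ζ k (U k z)) * ξ' (U i z)) ∂m
      = I (cX m x R * (X * a i + P * if i = i then X' else 0)) := by
    rw [if_pos rfl, a0 i (Finset.notMem_erase i _), mul_zero, zero_add]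
    unfold I
    refine integral_congr_ae ?_
    filter_upwards [mul_ae (cX m x R) (P * X'), mul_ae P X', cX_ae (m := m) (x := x) (R := R),
      eP', aξ'] with z a1 a2 a3 a4 a5
    rw [a1, a2, a3, a4, a5]
  rw [e1, hibp]
  -- bounds
  have hLm : IntegrableOn (L i) (ball x R) m := by
    haveI : IsFiniteMeasure (m.restrict (ball x R)) := ⟨by
      rw [Measure.restrict_apply_univ]; exact hfin x R⟩
    exact (hL.2.1.restrict _).integrable (by norm_num)
  have b1 : |I (cX m x R * (P * X) * L i)| ≤ δ := by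
    rw [mul_assoc]
    refine (I_le_ball (Y := L i) hb0 ?_ hLm hR).trans hLi
    filter_upwards [mul_ae (P * X) (L i), mul_ae P X, bP, aξ] with z a1 a2 a3 a4
    rw [a1, a2, a4, abs_mul, abs_mul]
    refine mul_le_mul_of_nonneg_right ?_ (abs_nonneg _)
    calc |P z| * |ξ (U i z)| ≤ 1 * b := mul_le_mul a3 (hb _) (abs_nonneg _) zero_le_one
      _ = b := one_mul b
  have b2 : ∀ j, |I (cX m x R * ((X * a j + P * if j = i then X' else 0)
      * (C.Γ (cl m (U j)) (cl m (U i)) - if j = i then 1 else 0)))| ≤ δ := by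
    intro j
    have hGi : IntegrableOn (C.Γ (cl m (U j)) (cl m (U i)) - if j = i then 1 else 0
        : M →ₘ[m] ℝ) (ball x R) m := by
      have i1 : IntegrableOn (C.Γ (cl m (U j)) (cl m (U i))) (ball x R) m :=
        (int_of_mem (hD.Γ_mem1 (hUA j).1 (hUA i).1)).integrableOn
      have i2 : IntegrableOn (if j = i then 1 else 0 : M →ₘ[m] ℝ) (ball x R) m := by
        have i3 : MemLp (if j = i then 1 else 0 : M →ₘ[m] ℝ) ∞ m := by
          split_ifs
          · exact mem_top_one
          · exact P233.mem_zero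
        haveI : IsFiniteMeasure (m.restrict (ball x R)) := ⟨by
          rw [Measure.restrict_apply_univ]; exact hfin x R⟩
        exact (i3.restrict _).integrable (by norm_num)
      refine (i1.sub i2).congr ?_
      exact ae_restrict_of_ae (sub_ae _ _).symm
    have hb2 : 0 ≤ b * B + 1 := by positivity
    refine (I_le_ball (b := b * B + 1)
      (Y := C.Γ (cl m (U j)) (cl m (U i)) - if j = i then 1 else 0) hb2 ?_ hGi hR).trans ?_
    · filter_upwards [mul_ae (X * a j + P * if j = i then X' else 0)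
        (C.Γ (cl m (U j)) (cl m (U i)) - if j = i then 1 else 0),
        add_ae (X * a j) (P * if j = i then X' else 0), mul_ae X (a j),
        mul_ae P (if j = i then X' else 0), bP, aξ, aξ', ba j,
        zero_ae (M := M) (m := m)] with z a1 a2 a3 a4 a5 a6 a7 a8 a9
      rw [a1, a2, a3, a4, abs_mul, a6]
      refine mul_le_mul_of_nonneg_right ?_ (abs_nonneg _)
      refine (abs_add_le _ _).trans (add_le_add ?_ ?_)
      · rw [abs_mul]
        exact mul_le_mul (hb _) a8 (abs_nonneg _) hb0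
      · rw [abs_mul]
        have h3 : |(if j = i then X' else 0 : M →ₘ[m] ℝ) z| ≤ 1 := by
          split_ifs
          · rw [a7]; exact hb1 _
          · rw [a9, abs_zero]; exact zero_le_one
        exact mul_le_one₀ a5 (abs_nonneg _) h3
    · refine le_of_eq_of_le ?_ (hG j)
      congr 1
      refine integral_congr_ae (ae_restrict_of_ae ?_)
      filter_upwards [sub_ae (C.Γ (cl m (U j)) (cl m (U i))) (if j = i then 1 else 0),
        one_ae (M := M) (m := m), zero_ae (M := M) (m := m)] with z a1 a2 a3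
      rw [a1]
      split_ifs
      · rw [a2]
      · rw [a3]
  have h4 : |∑ j, I (cX m x R * ((X * a j + P * if j = i then X' else 0)
      * (C.Γ (cl m (U j)) (cl m (U i)) - if j = i then 1 else 0)))| ≤ n * δ := by
    refine (Finset.abs_sum_le_sum_abs _ _).trans ?_
    refine (Finset.sum_le_sum fun j _ => b2 j).trans ?_
    rw [Finset.sum_const, Finset.card_univ, Fintype.card_fin, nsmul_eq_mul]
  have h5 := abs_sub (-I (cX m x R * (P * X) * L i))
    (∑ j, I (cX m x R * ((X * a j + P * if j = i then X' else 0)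
      * (C.Γ (cl m (U j)) (cl m (U i)) - if j = i then 1 else 0))))
  rw [abs_neg] at h5
  refine h5.trans ?_
  linarith

end metric

end Vale.Agent.P242.H358
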