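import Vale.Agent.P242.H358.Dens2

/-!
P242 (helper358), package A-GH: almost splitting maps are almost isometries with almost dense image.
-/

set_option linter.all false

open MeasureTheory Filter Topology Set Metric
open scoped ENNReal NNReal

universe u

namespace Vale.Agent.P242.H358

open Vale.Agent.P233 Vale.Agent.P233.H866

section metric

variable {M : Type u} [MetricSpace M] [MeasurableSpace M] [BorelSpace M]
  [SecondCountableTopology M] {m : Measure M} {C : Calc m} {n : ℕ} {x : M} {R : ℝ}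
  {U : Fin n → M → ℝ} {L : Fin n → M →ₘ[m] ℝ}

/-- the factor of the moving bump -/
noncomputable def zt (θ : ℝ → ℝ) (U : Fin n → M → ℝ) (x : M) (v : Fin n → ℝ) (ρ : ℝ) (l : ℕ)
    (k : Fin n) (t : ℝ) : ℝ := θ ((t - U k x - if k.val < l then v k else 0) / ρ)

theorem sq_le_of_abs_le {a v ρ : ℝ} (h : |a| ≤ |v| + ρ) (hρ : 0 ≤ ρ) :
    a ^ 2 ≤ 12 / 10 * v ^ 2 + 6 * ρ ^ 2 := by
  have h1 : a ^ 2 ≤ (|v| + ρ) ^ 2 := by
    rw [← sq_abs a]; gcongr
  have h2 : v ^ 2 = |v| ^ 2 := (sq_abs v).symm
  rw [h2]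
  nlinarith [sq_nonneg (|v| - 5 * ρ)]

/-- locality of the moving bump -/
theorem supp_bump (hR : 0 < R) {w v : Fin n → ℝ} {ρ : ℝ} (hρ : 0 ≤ ρ)
    (hv : ∑ k, v k ^ 2 ≤ 16 / 100 * R ^ 2) (hρn : 6 * n * ρ ^ 2 ≤ 1 / 100 * R ^ 2)
    (h : ∀ k, |w k| ≤ |v k| + ρ) : ∑ k, w k ^ 2 ≤ 202 / 1000 * R ^ 2 := by
  have h1 : ∑ k, w k ^ 2 ≤ ∑ k, (12 / 10 * v k ^ 2 + 6 * ρ ^ 2) :=
    Finset.sum_le_sum fun k _ => sq_le_of_abs_le (h k) hρ
  rw [Finset.sum_add_distrib, ← Finset.mul_sum, Finset.sum_const, Finset.card_univ,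
    Fintype.card_fin, nsmul_eq_mul] at h1
  have h2 : (n : ℝ) * (6 * ρ ^ 2) = 6 * n * ρ ^ 2 := by ring
  rw [h2] at h1
  linarith

theorem deriv_cut_zero (hR : 0 < R)
    (hiso : ∀ z ∈ ball x (R / 2), |∑ i, (U i z - U i x) ^ 2 - dist x z ^ 2| ≤ 1 / 100 * R ^ 2)
    {z : M} (hz : ∑ k, (U k z - U k x) ^ 2 ≤ 202 / 1000 * R ^ 2) :
    deriv cut (yf x R z) = 0 := by
  have hR2 : 0 < R ^ 2 := by positivity
  rcases lt_or_ge (dist x z) (R / 2) with h | h
  · refine deriv_cut_left ?_
    have h1 := hiso z (by rw [mem_ball, dist_comm]; exact h)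
    rw [yf_of_lt hR (by linarith), div_lt_iff₀ hR2]
    have := (abs_le.1 h1).1
    linarith
  · refine deriv_cut_right ?_
    rcases lt_or_ge (dist x z) R with h' | h'
    · rw [yf_of_lt hR h', lt_div_iff₀ hR2]
      nlinarith
    · rw [yf_of_ge hR h']; norm_num

/-- **the telescoping argument** -/
theorem dens_aux (hD : IsDir C) (hfin : ∀ (x : M) (r : ℝ), m (ball x r) < ∞) (hR : 0 < R)
    (hQ : cl m (qf x R) ∈ C.A) (hUc : ∀ i, Continuous (U i)) (hUA : ∀ i, cl m (U i) ∈ C.A)
    (hL : ∀ i, C.IsLap (cl m (U i)) (L i))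
    (hiso : ∀ z ∈ ball x (R / 2), |∑ i, (U i z - U i x) ^ 2 - dist x z ^ 2| ≤ 1 / 100 * R ^ 2)
    {θ θ' : ℝ → ℝ} (hθ' : Continuous θ') (hθd : ∀ t, HasDerivAt θ (θ' t) t)
    (h01 : ∀ t, 0 ≤ θ t ∧ θ t ≤ 1) (hθ0 : ∀ t, 1 ≤ |t| → θ t = 0) {B : ℝ} (hB0 : 0 ≤ B)
    (hB : ∀ t, |θ' t| ≤ B) {v : Fin n → ℝ} (hv : ∑ k, v k ^ 2 ≤ 16 / 100 * R ^ 2)
    {ρ : ℝ} (hρ : 0 < ρ) (hρn : 6 * n * ρ ^ 2 ≤ 1 / 100 * R ^ 2) {δ : ℝ}
    (hLi : ∀ i, 2 * ρ * ∫ z in ball x R, |L i z| ∂m ≤ δ)
    (hG : ∀ i j, (2 * B + 1) * ∫ z in ball x R, |C.Γ (cl m (U j)) (cl m (U i)) z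
      - if j = i then 1 else 0| ∂m ≤ δ) (l : ℕ) (hl : l ≤ n) :
    |∫ z, cut (yf x R z) * ∏ k, zt θ U x v ρ l k (U k z) ∂m
      - ∫ z, cut (yf x R z) * ∏ k, zt θ U x v ρ 0 k (U k z) ∂m| ≤ l * ((n + 1) * δ) := by
  classical
  have hθ : Continuous θ := continuous_iff_continuousAt.2 fun t => (hθd t).continuousAt
  obtain ⟨Θ, hΘd, hΘb, hΘ1, hΘ2⟩ := prim_spec hθ h01 hθ0
  have hint : ∀ l : ℕ, Integrable (fun z => cut (yf x R z) * ∏ k, zt θ U x v ρ l k (U k z)) m := by
    intro l
    have hc : Continuous fun z => cut (yf x R z) * ∏ k, zt θ U x v ρ l k (U k z) := by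
      refine (continuous_cut.comp (continuous_yf x R)).mul (continuous_finsetProd _ fun k _ => ?_)
      unfold zt
      exact hθ.comp ((((hUc k).sub continuous_const).sub continuous_const).div_const _)
    have h1 : IntegrableOn (fun z => cut (yf x R z) * ∏ k, zt θ U x v ρ l k (U k z))
        (ball x R) m := by
      refine Measure.integrableOn_of_bounded (M := 1) (hfin x R).ne hc.aestronglyMeasurable ?_
      refine ae_of_all _ fun z => ?_
      rw [Real.norm_eq_abs, abs_mul, Finset.abs_prod]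
      refine mul_le_one₀ ?_ (Finset.prod_nonneg fun _ _ => abs_nonneg _)
        (Finset.prod_le_one (fun _ _ => abs_nonneg _) fun k _ => ?_)
      · rw [abs_of_nonneg (cut_mem _).1]; exact (cut_mem _).2
      · unfold zt
        rw [abs_of_nonneg (h01 _).1]; exact (h01 _).2
    refine h1.integrable_of_forall_notMem_eq_zero fun z hz => ?_
    by_cases h2 : cut (yf x R z) = 0
    · rw [h2, zero_mul]
    · have := cut_supp hR h2
      rw [mem_ball, dist_comm, not_lt] at hz
      linarith
  induction l with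
  | zero => simp
  | succ l ih =>
    have ih' := ih (by omega)
    have hln : l < n := by omega
    set i : Fin n := ⟨l, hln⟩ with hi
    -- the two products
    have hne : ∀ k, k ≠ i → ∀ t, zt θ U x v ρ (l + 1) k t = zt θ U x v ρ l k t := by
      intro k hk t
      unfold zt
      have : (k.val < l + 1) ↔ (k.val < l) := by
        have : k.val ≠ l := fun h => hk (Fin.ext h)
        omega
      simp only [this]
    have hi1 : ∀ t, zt θ U x v ρ (l + 1) i t = θ ((t - U i x - v i) / ρ) := by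
      intro t; unfold zt; rw [if_pos (by simp [hi])]
    have hi0 : ∀ t, zt θ U x v ρ l i t = θ ((t - U i x) / ρ) := by
      intro t; unfold zt; rw [if_neg (by simp [hi]), sub_zero]
    have hstep : ∀ z, cut (yf x R z) * ∏ k, zt θ U x v ρ (l + 1) k (U k z)
        - cut (yf x R z) * ∏ k, zt θ U x v ρ l k (U k z)
        = cut (yf x R z) * ((∏ k ∈ Finset.univ.erase i, zt θ U x v ρ l k (U k z))
          * (θ ((U i z - U i x - v i) / ρ) - θ ((U i z - U i x) / ρ))) := by
      intro z
      rw [← Finset.mul_prod_erase Finset.univ _ (Finset.mem_univ i),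
        ← Finset.mul_prod_erase Finset.univ (fun k => zt θ U x v ρ l k (U k z))
          (Finset.mem_univ i)]
      have e : ∏ k ∈ Finset.univ.erase i, zt θ U x v ρ (l + 1) k (U k z)
          = ∏ k ∈ Finset.univ.erase i, zt θ U x v ρ l k (U k z) :=
        Finset.prod_congr rfl fun k hk => hne k (Finset.ne_of_mem_erase hk) _
      rw [e, hi1, hi0]
      ring
    have key : |∫ z, cut (yf x R z) * ((∏ k ∈ Finset.univ.erase i, zt θ U x v ρ l k (U k z))
          * (θ ((U i z - U i x - v i) / ρ) - θ ((U i z - U i x) / ρ))) ∂m| ≤ (n + 1) * δ := by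
      refine step_bound (x := x) (R := R) (U := U) (L := L) hD hfin hR hQ hUc hUA (hL i)
        (ζ := fun k => zt θ U x v ρ l k)
        (ζ' := fun k t => θ' ((t - U k x - if k.val < l then v k else 0) / ρ) * ρ⁻¹)
        (fun k => ?_) (fun k t => ?_) (fun k => ?_) (fun k t => ?_) (B := B / ρ) (by positivity)
        (fun k t => ?_)
        (ξ := fun t => ρ * (Θ ((t - U i x - v i) / ρ) - Θ ((t - U i x) / ρ)))
        (ξ' := fun t => θ ((t - U i x - v i) / ρ) - θ ((t - U i x) / ρ)) ?_ (fun t => ?_)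
        (b := 2 * ρ) (by positivity) (fun t => ?_) (fun t => ?_) (fun z hz => ?_) (hLi i)
        (fun j => ?_)
      · exact (hθ'.comp (by fun_prop)).mul continuous_const
      · have h1 : HasDerivAt (fun t => (t - U k x - if k.val < l then v k else 0) / ρ) ρ⁻¹ t := by
          have := (((hasDerivAt_id t).sub_const (U k x)).sub_const
            (if k.val < l then v k else 0)).div_const ρ
          simpa using this
        exact (hθd _).comp t h1
      · unfold zt
        exact hθ.comp (by fun_prop)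
      · unfold zt
        rw [abs_of_nonneg (h01 _).1]; exact (h01 _).2
      · rw [abs_mul, abs_of_pos (inv_pos.2 hρ), ← div_eq_mul_inv]
        gcongr
        exact hB _
      · exact (hθ.comp (by fun_prop)).sub (hθ.comp (by fun_prop))
      · have h1 : HasDerivAt (fun t => (t - U i x - v i) / ρ) ρ⁻¹ t := by
          have := (((hasDerivAt_id t).sub_const (U i x)).sub_const (v i)).div_const ρ
          simpa using this
        have h2 : HasDerivAt (fun t => (t - U i x) / ρ) ρ⁻¹ t := by
          have := ((hasDerivAt_id t).sub_const (U i x)).div_const ρ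
          simpa using this
        have h3 := (((hΘd _).comp t h1).sub ((hΘd _).comp t h2)).const_mul ρ
        refine h3.congr_deriv ?_
        field_simp
      · show |ρ * (Θ ((t - U i x - v i) / ρ) - Θ ((t - U i x) / ρ))| ≤ 2 * ρ
        rw [abs_mul, abs_of_pos hρ]
        have := (abs_sub (Θ ((t - U i x - v i) / ρ)) (Θ ((t - U i x) / ρ))).trans
          (add_le_add (hΘb _) (hΘb _))
        nlinarith
      · show |θ ((t - U i x - v i) / ρ) - θ ((t - U i x) / ρ)| ≤ 1
        rw [abs_le]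
        constructor <;> linarith [(h01 ((t - U i x - v i) / ρ)).1, (h01 ((t - U i x - v i) / ρ)).2,
          (h01 ((t - U i x) / ρ)).1, (h01 ((t - U i x) / ρ)).2]
      · -- locality
        refine deriv_cut_zero hR hiso (supp_bump (v := v) hR hρ.le hv hρn fun k => ?_)
        have h1 := left_ne_zero_of_mul hz
        have h2 : Θ ((U i z - U i x - v i) / ρ) - Θ ((U i z - U i x) / ρ) ≠ 0 :=
          right_ne_zero_of_mul (right_ne_zero_of_mul hz)
        by_cases hk : k = i
        · rw [hk]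
          by_contra hneg
          push Not at hneg
          refine h2 ?_
          rcases le_total 0 (U i z - U i x) with h3 | h3
          · rw [abs_of_nonneg h3] at hneg
            have h4 : 1 ≤ (U i z - U i x - v i) / ρ := by
              rw [le_div_iff₀ hρ]; linarith [le_abs_self (v i)]
            have h5 : 1 ≤ (U i z - U i x) / ρ := by
              rw [le_div_iff₀ hρ]; linarith [abs_nonneg (v i)]
            rw [hΘ1 _ h4, hΘ1 _ h5, sub_self]
          · rw [abs_of_nonpos h3] at hneg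
            have h4 : (U i z - U i x - v i) / ρ ≤ -1 := by
              rw [div_le_iff₀ hρ]; linarith [neg_abs_le (v i)]
            have h5 : (U i z - U i x) / ρ ≤ -1 := by
              rw [div_le_iff₀ hρ]; linarith [abs_nonneg (v i)]
            rw [hΘ2 _ h4, hΘ2 _ h5, sub_self]
        · have h3 : zt θ U x v ρ l k (U k z) ≠ 0 := by
            intro h4
            exact h1 (Finset.prod_eq_zero (Finset.mem_erase.2 ⟨hk, Finset.mem_univ k⟩) h4)
          have h4 : |(U k z - U k x - if k.val < l then v k else 0) / ρ| < 1 := by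
            by_contra hneg
            push Not at hneg
            exact h3 (hθ0 _ hneg)
          rw [abs_div, abs_of_pos hρ, div_lt_one hρ] at h4
          have h5 : |if k.val < l then v k else 0| ≤ |v k| := by
            split_ifs
            · exact le_rfl
            · rw [abs_zero]; exact abs_nonneg _
          have h6 := abs_sub_abs_le_abs_sub (U k z - U k x) (if k.val < l then v k else 0)
          linarith
      · have : 2 * ρ * (B / ρ) + 1 = 2 * B + 1 := by field_simp
        rw [this]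
        exact hG i j
    have hsub : ∫ z, cut (yf x R z) * ∏ k, zt θ U x v ρ (l + 1) k (U k z) ∂m
        - ∫ z, cut (yf x R z) * ∏ k, zt θ U x v ρ l k (U k z) ∂m
        = ∫ z, cut (yf x R z) * ((∏ k ∈ Finset.univ.erase i, zt θ U x v ρ l k (U k z))
          * (θ ((U i z - U i x - v i) / ρ) - θ ((U i z - U i x) / ρ))) ∂m := by
      rw [← integral_sub (hint _) (hint _)]
      exact integral_congr_ae (ae_of_all _ hstep)
    rw [← hsub] at key
    push_cast
    have h7 := abs_sub_le (∫ z, cut (yf x R z) * ∏ k, zt θ U x v ρ (l + 1) k (U k z) ∂m)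
      (∫ z, cut (yf x R z) * ∏ k, zt θ U x v ρ l k (U k z) ∂m)
      (∫ z, cut (yf x R z) * ∏ k, zt θ U x v ρ 0 k (U k z) ∂m)
    linarith

end metric

end Vale.Agent.P242.H358
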