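import Vale.Agent.P242.H358.GH1

/-!
P242 (helper358), package A-GH: the `L¹` bound of `d² - |v|²` for an almost splitting map.
-/

set_option linter.all false

open MeasureTheory Filter Topology Set Metric
open scoped ENNReal NNReal

universe u

namespace Vale.Agent.P242.H358

open Vale.Agent.P233 Vale.Agent.P233.H866

variable {M : Type u} [MetricSpace M] [MeasurableSpace M] [BorelSpace M]
  [SecondCountableTopology M] {m : Measure M}

theorem Ff_ae {n : ℕ} {U : Fin n → M → ℝ} (hU : ∀ i, Continuous (U i)) (x : M) {R : ℝ}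
    (ε : ℝ) : cl m (Ff U x R ε) = cl m (qf x R) - bb (fun i => cl m (U i)) (fun i => -U i x)
      + (R ^ 2 / 2 - (∑ i, (U i x) ^ 2) / 2 + ε / 2 * R ^ 2) • 1 := by
  rw [eq_iff_ae]
  have hbb : ⇑(bb (fun i => cl m (U i)) (fun i => -U i x)) =ᵐ[m]
      fun z => ∑ i, (2⁻¹ * (U i z * U i z) + -U i x * U i z) := by
    unfold bb
    have h1 : ∀ᵐ z ∂m, ∀ i, ((2 : ℝ)⁻¹ • (cl m (U i) * cl m (U i)) + (-U i x) • cl m (U i)
        : M →ₘ[m] ℝ) z = 2⁻¹ * (U i z * U i z) + -U i x * U i z := by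
      rw [ae_all_iff]
      intro i
      filter_upwards [add_ae ((2 : ℝ)⁻¹ • (cl m (U i) * cl m (U i))) ((-U i x) • cl m (U i)),
        smul_ae (cl m (U i) * cl m (U i)) (2 : ℝ)⁻¹, smul_ae (cl m (U i)) (-U i x),
        mul_ae (cl m (U i)) (cl m (U i)), cl_ae (m := m) (hU i)] with z a1 a2 a3 a4 a5
      rw [a1, a2, a3, a4, a5]
    filter_upwards [sum_ae Finset.univ fun i => ((2 : ℝ)⁻¹ • (cl m (U i) * cl m (U i))
      + (-U i x) • cl m (U i) : M →ₘ[m] ℝ), h1] with z a1 a2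
    rw [a1]
    exact Finset.sum_congr rfl fun i _ => a2 i
  filter_upwards [cl_ae (m := m) (continuous_Ff hU x R ε), cl_ae (m := m) (continuous_qf x R), hbb,
    add_ae (cl m (qf x R) - bb (fun i => cl m (U i)) (fun i => -U i x))
      ((R ^ 2 / 2 - (∑ i, (U i x) ^ 2) / 2 + ε / 2 * R ^ 2) • (1 : M →ₘ[m] ℝ)),
    sub_ae (cl m (qf x R)) (bb (fun i => cl m (U i)) (fun i => -U i x)),
    smul_ae (1 : M →ₘ[m] ℝ) (R ^ 2 / 2 - (∑ i, (U i x) ^ 2) / 2 + ε / 2 * R ^ 2),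
    one_ae (M := M) (m := m)] with z a1 a2 a3 a4 a5 a6 a7
  rw [a1, a4, a5, a6, a7, a2, a3]
  unfold Ff qf
  have e : ∑ i, (U i z - U i x) ^ 2 = 2 * ∑ i, (2⁻¹ * (U i z * U i z) + -U i x * U i z)
      + ∑ i, U i x ^ 2 := by
    rw [Finset.mul_sum, ← Finset.sum_add_distrib]
    refine Finset.sum_congr rfl fun i _ => by ring
  rw [e]
  ring

/-- `∑ (Γ(u_i,u_i) + (u_i - u_i(x)) Δu_i)` -/
noncomputable def Sf {n : ℕ} (C : Calc m) (U : Fin n → M → ℝ) (L : Fin n → M →ₘ[m] ℝ) (x z : M) :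
    ℝ := ∑ i, (C.Γ (cl m (U i)) (cl m (U i)) z + (U i z - U i x) * L i z)

theorem Sf_ae {C : Calc m} {n : ℕ} {U : Fin n → M → ℝ} (hU : ∀ i, Continuous (U i))
    (L : Fin n → M →ₘ[m] ℝ) (x : M) :
    ⇑(∑ i, (C.Γ (cl m (U i)) (cl m (U i)) + (cl m (U i) + (-U i x) • 1) * L i))
      =ᵐ[m] Sf C U L x := by
  have h1 : ∀ᵐ z ∂m, ∀ i, (C.Γ (cl m (U i)) (cl m (U i)) + (cl m (U i) + (-U i x) • 1) * L i
      : M →ₘ[m] ℝ) z = C.Γ (cl m (U i)) (cl m (U i)) z + (U i z - U i x) * L i z := by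
    rw [ae_all_iff]
    intro i
    filter_upwards [add_ae (C.Γ (cl m (U i)) (cl m (U i))) ((cl m (U i) + (-U i x) • 1) * L i),
      mul_ae (cl m (U i) + (-U i x) • 1) (L i), add_ae (cl m (U i)) ((-U i x) • (1 : M →ₘ[m] ℝ)),
      smul_ae (1 : M →ₘ[m] ℝ) (-U i x), one_ae (M := M) (m := m), cl_ae (m := m) (hU i)]
      with z a1 a2 a3 a4 a5 a6
    rw [a1, a2, a3, a4, a5, a6]
    ring
  filter_upwards [sum_ae Finset.univ fun i => (C.Γ (cl m (U i)) (cl m (U i))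
    + (cl m (U i) + (-U i x) • 1) * L i : M →ₘ[m] ℝ), h1] with z a1 a2
  rw [a1]
  unfold Sf
  exact Finset.sum_congr rfl fun i _ => a2 i

theorem Ff_nonneg {n : ℕ} {U : Fin n → M → ℝ} {x : M} {R ε : ℝ} (hε : 0 ≤ ε)
    (hU : ∀ z ∈ ball x R, ∑ i, (U i z - U i x) ^ 2 ≤ (1 + ε) * dist x z ^ 2) {z : M}
    (hz : dist x z < R) : 0 ≤ Ff U x R ε z := by
  unfold Ff
  rw [min_eq_left hz.le]
  have h1 := hU z (by rw [mem_ball, dist_comm]; exact hz)
  have h2 : dist x z ^ 2 ≤ R ^ 2 := by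
    have : 0 ≤ dist x z := dist_nonneg
    gcongr
  nlinarith

theorem Ff_le {n : ℕ} {U : Fin n → M → ℝ} {x : M} {R ε : ℝ} {z : M}
    (hz : dist x z < R) : Ff U x R ε z ≤ dist x z ^ 2 / 2 + ε / 2 * R ^ 2 := by
  unfold Ff
  rw [min_eq_left hz.le]
  have : 0 ≤ ∑ i, (U i z - U i x) ^ 2 := Finset.sum_nonneg fun i _ => sq_nonneg _
  linarith


section data

variable (C : Calc m) (n : ℕ) (σ : ℝ) (x : M) (R : ℝ)

/-- the class of `p(y)` -/
noncomputable def cP (m : Measure M) (n : ℕ) (σ : ℝ) (x : M) (R : ℝ) : M →ₘ[m] ℝ :=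
  cl m (fun z => pb n σ (yf x R z))
/-- the class of `2 p'(y)/R²` -/
noncomputable def cP1 (m : Measure M) (n : ℕ) (σ : ℝ) (x : M) (R : ℝ) : M →ₘ[m] ℝ :=
  cl m (fun z => 2 / R ^ 2 * pb1 n σ (yf x R z))
/-- the class of `Φ(y)` -/
noncomputable def cPh (m : Measure M) (n : ℕ) (σ : ℝ) (x : M) (R : ℝ) : M →ₘ[m] ℝ :=
  cl m (fun z => R ^ 2 / 2 * Phb n σ (yf x R z))

variable {C n σ x R}

theorem cP_ae (hσ : 0 < σ) : ⇑(cP m n σ x R) =ᵐ[m] fun z => pb n σ (yf x R z) :=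
  cl_ae ((continuous_pb hσ).comp (continuous_yf x R))

theorem cP1_ae (hσ : 0 < σ) :
    ⇑(cP1 m n σ x R) =ᵐ[m] fun z => 2 / R ^ 2 * pb1 n σ (yf x R z) := by
  have h : Continuous fun z => 2 / R ^ 2 * pb1 n σ (yf x R z) :=
    continuous_const.mul ((continuous_pb1 hσ).comp (continuous_yf x R))
  exact cl_ae h

theorem cPh_ae (hσ : 0 < σ) :
    ⇑(cPh m n σ x R) =ᵐ[m] fun z => R ^ 2 / 2 * Phb n σ (yf x R z) := by
  have h : Continuous fun z => R ^ 2 / 2 * Phb n σ (yf x R z) :=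
    continuous_const.mul ((continuous_Phb hσ).comp (continuous_yf x R))
  exact cl_ae h

theorem cP_spec (hD : IsDir C) (hfin : ∀ (x : M) (r : ℝ), m (ball x r) < ∞) (hR : 0 < R)
    (hQ : cl m (qf x R) ∈ C.A) (hσ : 0 < σ) :
    cP m n σ x R ∈ C.A ∧ MemLp (cP m n σ x R) 1 m ∧
      ∀ g ∈ C.W, C.Γ (cP m n σ x R) g = cP1 m n σ x R * C.Γ (cl m (qf x R)) g := by
  have hpc := continuous_pb (n := n) hσ
  have hp1c := continuous_pb1 (n := n) hσ
  obtain ⟨h1, h2⟩ := chain_y hD hR hQ hpc hp1c (fun y hy => hasDerivWithinAt_pb hσ hy) (pb_one σ)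
  exact ⟨h1, cl_y_mem1 hfin hR hpc (pb_one σ), h2⟩

theorem cPh_spec (hD : IsDir C) (hfin : ∀ (x : M) (r : ℝ), m (ball x r) < ∞) (hR : 0 < R)
    (hQ : cl m (qf x R) ∈ C.A) (hσ : 0 < σ) :
    cPh m n σ x R ∈ C.A ∧ MemLp (cPh m n σ x R) 1 m ∧ 0 ≤ cPh m n σ x R ∧
      ∀ g ∈ C.W, C.Γ (cPh m n σ x R) g = -(cP m n σ x R * C.Γ (cl m (qf x R)) g) := by
  have hpc := continuous_pb (n := n) hσ
  have hΦc0 : Continuous fun y => R ^ 2 / 2 * Phb n σ y := continuous_const.mul (continuous_Phb hσ)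
  have hΦc1 : Continuous fun y => -(R ^ 2 / 2) * pb n σ y := continuous_const.mul hpc
  have hder : ∀ y ∈ Icc (0 : ℝ) 1, HasDerivWithinAt (fun y => R ^ 2 / 2 * Phb n σ y)
      (-(R ^ 2 / 2) * pb n σ y) (Icc 0 1) y := by
    intro y hy
    have h1 : HasDerivAt (fun y => R ^ 2 / 2 * Phb n σ y) (R ^ 2 / 2 * -pb n σ y) y :=
      (hasDerivAt_Phb (n := n) hσ y).const_mul (R ^ 2 / 2)
    have h2 : R ^ 2 / 2 * -pb n σ y = -(R ^ 2 / 2) * pb n σ y := by ring
    rw [h2] at h1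
    exact h1.hasDerivWithinAt
  have h00 : R ^ 2 / 2 * Phb n σ 1 = 0 := by rw [Phb_one, mul_zero]
  obtain ⟨h1, h2⟩ := chain_y (φ := fun y => R ^ 2 / 2 * Phb n σ y)
    (φ' := fun y => -(R ^ 2 / 2) * pb n σ y) hD hR hQ hΦc0 hΦc1 hder h00
  refine ⟨h1, cl_y_mem1 (φ := fun y => R ^ 2 / 2 * Phb n σ y) hfin hR hΦc0 h00, ?_, ?_⟩
  · rw [nonneg_iff_ae]
    filter_upwards [cPh_ae (m := m) (n := n) (x := x) (R := R) hσ] with z a1
    rw [a1]
    exact mul_nonneg (by positivity) (Phb_nonneg hσ (yf_mem hR z).2)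
  · intro g hg
    have h3 := h2 g hg
    unfold cPh
    rw [h3, ← neg_mul]
    congr 1
    have h4 : Continuous fun z => 2 / R ^ 2 * (-(R ^ 2 / 2) * pb n σ (yf x R z)) :=
      continuous_const.mul (hΦc1.comp (continuous_yf x R))
    rw [eq_iff_ae]
    filter_upwards [neg_ae (cP m n σ x R), cP_ae (m := m) (n := n) (x := x) (R := R) hσ,
      cl_ae (m := m) h4] with z a1 a2 a3
    rw [a1, a2, a3]
    field_simp

theorem cP1_top (hR : 0 < R) (hσ : 0 < σ) : MemLp (cP1 m n σ x R) ∞ m := by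
  have h : Continuous fun y => 2 / R ^ 2 * pb1 n σ y :=
    continuous_const.mul (continuous_pb1 hσ)
  exact cl_y_top (φ := fun y => 2 / R ^ 2 * pb1 n σ y) hR h

end data

section bound

variable {C : Calc m} {n : ℕ} {η : ℝ} {x : M} {R : ℝ} {U : Fin n → M → ℝ}
  {L : Fin n → M →ₘ[m] ℝ} {ε h σ : ℝ}

theorem cF_top (hD : IsDir C) (hQ : cl m (qf x R) ∈ C.A) (hUc : ∀ i, Continuous (U i))
    (hUA : ∀ i, cl m (U i) ∈ C.A) : MemLp (cl m (Ff U x R ε)) ∞ m := by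
  rw [Ff_ae hUc x ε]
  exact mem_add (hD.A_sub hQ (bb_mem hD hUA _)).2 (mem_smul _ mem_top_one)

theorem int_ind (hfin : ∀ (x : M) (r : ℝ), m (ball x r) < ∞) (x : M) (r c : ℝ) :
    Integrable (fun z => (ball x r).indicator (fun _ => c) z) m ∧
      ∫ z, (ball x r).indicator (fun _ => c) z ∂m = c * m.real (ball x r) := by
  have h1 : IntegrableOn (fun _ : M => c) (ball x r) m := integrableOn_const (hfin x r).ne
  refine ⟨h1.integrable_indicator measurableSet_ball, ?_⟩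
  rw [integral_indicator measurableSet_ball, setIntegral_const, smul_eq_mul, mul_comm]

theorem ptw_low (hn : 1 ≤ n) (hR : 0 < R) (hε : 0 ≤ ε)
    (hU : ∀ z ∈ ball x R, ∑ i, (U i z - U i x) ^ 2 ≤ (1 + ε) * dist x z ^ 2)
    (hσ : 0 < σ) (hσ1 : 2 * n * σ ≤ 1) (z : M) :
    (ball x (7 / 10 * R)).indicator (fun z => 1 / 16 * Ff U x R ε z) z
      - (ball x (2 * n * σ * R)).indicator
        (fun _ => (n + 1) / σ ^ (n + 1) * ((n * σ ^ 2 + ε / 2) * R ^ 2)) z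
      ≤ -(Ff U x R ε z * (2 / R ^ 2 * pb1 n σ (yf x R z) * if dist x z < R then dist x z ^ 2 else 0))
        - n * (pb n σ (yf x R z) * Ff U x R ε z) := by
  have hn' : (1 : ℝ) ≤ n := by exact_mod_cast hn
  have hσh : σ ≤ 1 / 2 := by nlinarith
  have hR2 : 0 < R ^ 2 := by positivity
  have hσn : 0 < σ ^ (n + 1) := by positivity
  have hym := yf_mem (x := x) hR z
  have hc : 0 ≤ ((n : ℝ) + 1) / σ ^ (n + 1) * ((n * σ ^ 2 + ε / 2) * R ^ 2) := by positivity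
  rcases lt_or_ge (dist x z) R with hz | hz
  · have hy := yf_of_lt hR hz
    rw [if_pos hz]
    have hF0 := Ff_nonneg hε hU hz
    have hF1 := Ff_le (U := U) (ε := ε) hz
    have e3 : dist x z ^ 2 = R ^ 2 * yf x R z := by rw [hy]; field_simp
    have e4 : -(Ff U x R ε z * (2 / R ^ 2 * pb1 n σ (yf x R z) * dist x z ^ 2))
        - n * (pb n σ (yf x R z) * Ff U x R ε z)
        = Ff U x R ε z * (-(2 * yf x R z * pb1 n σ (yf x R z)) - n * pb n σ (yf x R z)) := by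
      rw [e3]; field_simp
    rw [e4]
    have h1 := mul_le_mul_of_nonneg_left (L_lower hn hσ hσh hym) hF0
    refine le_trans ?_ h1
    rw [mul_sub]
    refine sub_le_sub ?_ ?_
    · by_cases h3 : z ∈ ball x (7 / 10 * R)
      · rw [indicator_of_mem h3]
        have h4 : yf x R z ≤ 1 / 2 := by
          rw [hy, div_le_iff₀ hR2]
          rw [mem_ball, dist_comm] at h3
          have : 0 ≤ dist x z := dist_nonneg
          nlinarith
        rw [if_pos h4]; linarith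
      · rw [indicator_of_notMem h3]
        split_ifs
        · positivity
        · simp
    · by_cases h3 : yf x R z < 2 * n * σ ^ 2
      · rw [if_pos h3]
        have h4 : z ∈ ball x (2 * n * σ * R) := by
          rw [mem_ball, dist_comm]
          rw [hy, div_lt_iff₀ hR2] at h3
          refine lt_of_pow_lt_pow_left₀ 2 (by positivity) (h3.trans_le ?_)
          have h6 : 0 ≤ (n : ℝ) * σ ^ 2 * R ^ 2 := by positivity
          have h7 : (2 * n * σ * R) ^ 2 = 4 * n * (n * σ ^ 2 * R ^ 2) := by ring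
          rw [h7]
          nlinarith
        rw [indicator_of_mem h4, mul_comm]
        refine mul_le_mul_of_nonneg_left ?_ (by positivity)
        have h5 : dist x z ^ 2 ≤ 2 * n * σ ^ 2 * R ^ 2 := by
          rw [e3]; nlinarith
        linarith
      · rw [if_neg h3, mul_zero]
        exact indicator_nonneg (fun _ _ => hc) z
  · have hy := yf_of_ge hR hz
    rw [if_neg (not_lt.2 hz), hy, pb_one]
    have h3 : z ∉ ball x (7 / 10 * R) := by
      rw [mem_ball, dist_comm, not_lt]; linarith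
    rw [indicator_of_notMem h3]
    simp only [mul_zero, zero_mul, sub_zero, neg_zero, zero_sub]
    rw [neg_nonpos]
    exact indicator_nonneg (fun _ _ => hc) z

theorem hlow (hD : IsDir C) (hfin : ∀ (x : M) (r : ℝ), m (ball x r) < ∞)
    (hn : 1 ≤ n) (hR : 0 < R) {N' : ℝ}
    (hcmp : Cmp C N' x R) (hUc : ∀ i, Continuous (U i)) (hUA : ∀ i, cl m (U i) ∈ C.A)
    (hε : 0 ≤ ε)
    (hU : ∀ z ∈ ball x R, ∑ i, (U i z - U i x) ^ 2 ≤ (1 + ε) * dist x z ^ 2)
    (hσ : 0 < σ) (hσ1 : 2 * n * σ ≤ 1) :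
    1 / 16 * ∫ z in ball x (7 / 10 * R), Ff U x R ε z ∂m
      - (n + 1) / σ ^ (n + 1) * ((n * σ ^ 2 + ε / 2) * R ^ 2) * m.real (ball x (2 * n * σ * R))
      ≤ -I (cl m (Ff U x R ε) * (cP1 m n σ x R * C.Γ (cl m (qf x R)) (cl m (qf x R))))
        - n * I (cP m n σ x R * cl m (Ff U x R ε)) := by
  have hFtop := cF_top (ε := ε) hD hcmp.memA hUc hUA
  have hP := cP_spec (n := n) hD hfin hR hcmp.memA hσ
  have aF : ⇑(cl m (Ff U x R ε)) =ᵐ[m] Ff U x R ε := cl_ae (continuous_Ff hUc x R ε)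
  set F := cl m (Ff U x R ε) with hF
  set Q := cl m (qf x R) with hQ
  set P := cP m n σ x R with hPd
  set P' := cP1 m n σ x R with hP'd
  have mX : MemLp (F * (P' * C.Γ Q Q) : M →ₘ[m] ℝ) 1 m :=
    mem_mul_top hFtop (mem_mul_top (cP1_top hR hσ) (hD.mem1 _ hcmp.memA.1))
  have mY : MemLp (P * F : M →ₘ[m] ℝ) 1 m := mem_top_mul hP.2.1 hFtop
  have e1 : -I (F * (P' * C.Γ Q Q)) - n * I (P * F)
      = I (-(F * (P' * C.Γ Q Q)) - (n : ℝ) • (P * F)) := by
    rw [I_sub (mem_neg mX) (mem_smul _ mY), I_neg, I_smul]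
  have i1 : Integrable (fun z => (ball x (7 / 10 * R)).indicator
      (fun z => 1 / 16 * Ff U x R ε z) z) m := by
    have : IntegrableOn (fun z => 1 / 16 * Ff U x R ε z) (ball x (7 / 10 * R)) m := by
      have h1 : Integrable (fun z => 1 / 16 * (F : M → ℝ) z)
          (m.restrict (ball x (7 / 10 * R))) := by
        refine Integrable.const_mul ?_ _
        obtain ⟨B, hB⟩ := mem_top_iff.1 hFtop
        exact Measure.integrableOn_of_bounded (hfin x _).ne F.aestronglyMeasurable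
          (M := B) (by filter_upwards [ae_restrict_of_ae hB] with z hz; exact hz)
      refine h1.congr ?_
      filter_upwards [ae_restrict_of_ae aF] with z hz
      rw [hz]
    exact this.integrable_indicator measurableSet_ball
  obtain ⟨i2, e2'⟩ := int_ind hfin x (2 * n * σ * R)
    ((n + 1) / σ ^ (n + 1) * ((n * σ ^ 2 + ε / 2) * R ^ 2))
  have e2 : 1 / 16 * ∫ z in ball x (7 / 10 * R), Ff U x R ε z ∂m
      - (n + 1) / σ ^ (n + 1) * ((n * σ ^ 2 + ε / 2) * R ^ 2) * m.real (ball x (2 * n * σ * R))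
      = ∫ z, ((ball x (7 / 10 * R)).indicator (fun z => 1 / 16 * Ff U x R ε z) z
        - (ball x (2 * n * σ * R)).indicator
          (fun _ => (n + 1) / σ ^ (n + 1) * ((n * σ ^ 2 + ε / 2) * R ^ 2)) z) ∂m := by
    rw [integral_sub i1 i2, e2', integral_indicator measurableSet_ball, integral_const_mul]
  rw [e1, e2]
  unfold I
  refine integral_mono_ae (i1.sub i2) (int_of_mem (mem_sub (mem_neg mX) (mem_smul _ mY))) ?_
  filter_upwards [aF, cP_ae (m := m) (n := n) (x := x) (R := R) hσ,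
    cP1_ae (m := m) (n := n) (x := x) (R := R) hσ, hcmp.hj,
    sub_ae (-(F * (P' * C.Γ Q Q))) ((n : ℝ) • (P * F)),
    neg_ae (F * (P' * C.Γ Q Q)), smul_ae (P * F) (n : ℝ), mul_ae P F,
    mul_ae F (P' * C.Γ Q Q), mul_ae P' (C.Γ Q Q)] with z a1 a2 a3 a4 a5 a6 a7 a8 a9 a10
  rw [a5, a6, a7, a8, a9, a10, a1, a2, a3, a4]
  exact ptw_low hn hR hε hU hσ hσ1 z

theorem hup1 (hD : IsDir C) (hfin : ∀ (x : M) (r : ℝ), m (ball x r) < ∞)
    (hR : 0 < R) {N' : ℝ}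
    (hcmp : Cmp C N' x R) (hUc : ∀ i, Continuous (U i)) (hUA : ∀ i, cl m (U i) ∈ C.A)
    (hε : 0 ≤ ε)
    (hU : ∀ z ∈ ball x R, ∑ i, (U i z - U i x) ^ 2 ≤ (1 + ε) * dist x z ^ 2)
    (hσ : 0 < σ) :
    I (cP m n σ x R * cl m (Ff U x R ε))
      ≤ 1 / σ ^ (n + 1) * ((1 + ε) / 2 * R ^ 2) * m.real (ball x R) := by
  have hFtop := cF_top (ε := ε) hD hcmp.memA hUc hUA
  have hP := cP_spec (n := n) hD hfin hR hcmp.memA hσ
  have aF : ⇑(cl m (Ff U x R ε)) =ᵐ[m] Ff U x R ε := cl_ae (continuous_Ff hUc x R ε)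
  obtain ⟨i1, e1⟩ := int_ind hfin x R (1 / σ ^ (n + 1) * ((1 + ε) / 2 * R ^ 2))
  rw [← e1]
  unfold I
  refine integral_mono_ae (int_of_mem (mem_top_mul hP.2.1 hFtop)) i1 ?_
  filter_upwards [mul_ae (cP m n σ x R) (cl m (Ff U x R ε)),
    cP_ae (m := m) (n := n) (x := x) (R := R) hσ, aF] with z a1 a2 a3
  rw [a1, a2, a3]
  rcases lt_or_ge (dist x z) R with hz | hz
  · rw [indicator_of_mem (by rw [mem_ball, dist_comm]; exact hz)]
    refine mul_le_mul (pb_le hσ (yf_mem hR z)) ?_ (Ff_nonneg hε hU hz) (by positivity)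
    refine (Ff_le hz).trans ?_
    have : dist x z ^ 2 ≤ R ^ 2 := by
      have : 0 ≤ dist x z := dist_nonneg
      gcongr
    linarith
  · rw [yf_of_ge hR hz, pb_one, zero_mul]
    exact indicator_nonneg (fun _ _ => by positivity) z

theorem Sf_int (hD : IsDir C) (hfin : ∀ (x : M) (r : ℝ), m (ball x r) < ∞)
    (hUc : ∀ i, Continuous (U i)) (hUA : ∀ i, cl m (U i) ∈ C.A)
    (hL : ∀ i, C.IsLap (cl m (U i)) (L i)) (x : M) (R : ℝ) :
    IntegrableOn (Sf C U L x) (ball x R) m := by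
  have h1 : ∀ i, IntegrableOn (fun z => C.Γ (cl m (U i)) (cl m (U i)) z
      + (U i z - U i x) * L i z) (ball x R) m := by
    intro i
    refine (int_of_mem (hD.mem1 _ (hUA i).1)).integrableOn.add ?_
    have h2 : MemLp ((cl m (U i) + (-U i x) • 1) * L i : M →ₘ[m] ℝ) 2 m :=
      mem_mul_top (mem_add (hUA i).2 (mem_smul _ mem_top_one)) (hL i).2.1
    haveI : IsFiniteMeasure (m.restrict (ball x R)) := ⟨by
      rw [Measure.restrict_apply_univ]; exact hfin x R⟩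
    have h3 : Integrable ((cl m (U i) + (-U i x) • 1) * L i : M →ₘ[m] ℝ)
        (m.restrict (ball x R)) := (h2.restrict _).integrable (by norm_num)
    refine h3.congr ?_
    refine ae_restrict_of_ae ?_
    filter_upwards [mul_ae (cl m (U i) + (-U i x) • 1) (L i),
      add_ae (cl m (U i)) ((-U i x) • (1 : M →ₘ[m] ℝ)),
      smul_ae (1 : M →ₘ[m] ℝ) (-U i x), one_ae (M := M) (m := m), cl_ae (m := m) (hUc i)]
      with z a2 a3 a4 a5 a6
    rw [a2, a3, a4, a5, a6]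
    ring
  have e : Sf C U L x = fun z => ∑ i, (C.Γ (cl m (U i)) (cl m (U i)) z
      + (U i z - U i x) * L i z) := rfl
  rw [e]
  exact integrable_finsetSum _ fun i _ => h1 i

theorem hup2 (hD : IsDir C) (hfin : ∀ (x : M) (r : ℝ), m (ball x r) < ∞)
    (hR : 0 < R) {N' : ℝ} (hη : 0 ≤ η)
    (hcmp : Cmp C N' x R) (hUc : ∀ i, Continuous (U i)) (hUA : ∀ i, cl m (U i) ∈ C.A)
    (hL : ∀ i, C.IsLap (cl m (U i)) (L i))
    (hh : ∫ z in ball x R, |Sf C U L x z - n| ∂m ≤ h) (hσ : 0 < σ) :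
    (n + η) * I (cPh m n σ x R) + -I (cPh m n σ x R * ∑ i, (C.Γ (cl m (U i)) (cl m (U i))
        + (cl m (U i) + (-U i x) • 1) * L i))
      ≤ R ^ 2 / 2 * (1 / σ ^ (n + 1)) * (h + η * m.real (ball x R)) := by
  obtain ⟨hΦA, hΦm, hΦ0, -⟩ := cPh_spec (n := n) hD hfin hR hcmp.memA hσ
  set Φ := cPh m n σ x R with hΦ
  set S := ∑ i, (C.Γ (cl m (U i)) (cl m (U i)) + (cl m (U i) + (-U i x) • 1) * L i) with hS
  have mS : MemLp (Φ * S : M →ₘ[m] ℝ) 1 m := by
    have e1 : Φ * S = ∑ i, (Φ * C.Γ (cl m (U i)) (cl m (U i))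
        + L i * (cl m (U i) * Φ + (-U i x) • Φ)) := by
      rw [hS, Finset.mul_sum]
      refine Finset.sum_congr rfl fun i _ => ?_
      simp only [Algebra.smul_def]; ring
    rw [e1]
    refine mem_sum _ fun i _ => mem_add (mem_mul_top hΦA.2 (hD.mem1 _ (hUA i).1)) ?_
    exact mem_mul_22 (hL i).2.1 (hD.memLp _ (hD.A_add (hD.mul_mem_A (hUA i) hΦA)
      (hD.A_smul _ hΦA)).1)
  have hVfin : m (ball x R) ≠ ∞ := (hfin x R).ne
  have e1 : (n + η) * I Φ + -I (Φ * S) = I (((n : ℝ) + η) • Φ - Φ * S) := by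
    rw [I_sub (mem_smul _ hΦm) mS, I_smul]; ring
  have i0 : IntegrableOn (fun z => |Sf C U L x z - n|) (ball x R) m :=
    ((Sf_int hD hfin hUc hUA hL x R).sub (integrableOn_const hVfin)).abs
  have i1 : Integrable (fun z => (ball x R).indicator
      (fun z => R ^ 2 / 2 * (1 / σ ^ (n + 1)) * (|Sf C U L x z - n| + η)) z) m := by
    have : IntegrableOn (fun z => R ^ 2 / 2 * (1 / σ ^ (n + 1)) * (|Sf C U L x z - n| + η))
        (ball x R) m := (i0.add (integrableOn_const hVfin)).const_mul _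
    exact this.integrable_indicator measurableSet_ball
  have e2 : ∫ z, (ball x R).indicator
      (fun z => R ^ 2 / 2 * (1 / σ ^ (n + 1)) * (|Sf C U L x z - n| + η)) z ∂m
      ≤ R ^ 2 / 2 * (1 / σ ^ (n + 1)) * (h + η * m.real (ball x R)) := by
    rw [integral_indicator measurableSet_ball, integral_const_mul,
      integral_add i0 (integrableOn_const hVfin), setIntegral_const, smul_eq_mul]
    refine mul_le_mul_of_nonneg_left ?_ (by positivity)
    rw [mul_comm (m.real (ball x R)) η]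
    linarith
  rw [e1]
  refine le_trans ?_ e2
  unfold I
  refine integral_mono_ae (int_of_mem (mem_sub (mem_smul _ hΦm) mS)) i1 ?_
  filter_upwards [sub_ae (((n : ℝ) + η) • Φ) (Φ * S), smul_ae Φ ((n : ℝ) + η), mul_ae Φ S,
    cPh_ae (m := m) (n := n) (x := x) (R := R) hσ, Sf_ae (C := C) hUc L x] with z a1 a2 a3 a4 a5
  rw [a1, a2, a3, a4, a5]
  rcases lt_or_ge (dist x z) R with hz | hz
  · rw [indicator_of_mem (by rw [mem_ball, dist_comm]; exact hz)]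
    have h1 := Phb_le (n := n) hσ (yf_mem (x := x) hR z)
    have h2 := Phb_nonneg (n := n) hσ (yf_mem (x := x) hR z).2
    have h3 : (n + η) * (R ^ 2 / 2 * Phb n σ (yf x R z))
        - R ^ 2 / 2 * Phb n σ (yf x R z) * Sf C U L x z
        = R ^ 2 / 2 * Phb n σ (yf x R z) * (-(Sf C U L x z - n) + η) := by ring
    rw [h3]
    have h4 := neg_abs_le (Sf C U L x z - n)
    have h5 : -(Sf C U L x z - n) + η ≤ |Sf C U L x z - n| + η := by linarith
    have h6 : 0 ≤ |Sf C U L x z - n| + η := add_nonneg (abs_nonneg _) hη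
    calc R ^ 2 / 2 * Phb n σ (yf x R z) * (-(Sf C U L x z - n) + η)
        ≤ R ^ 2 / 2 * Phb n σ (yf x R z) * (|Sf C U L x z - n| + η) :=
          mul_le_mul_of_nonneg_left h5 (mul_nonneg (by positivity) h2)
      _ ≤ R ^ 2 / 2 * (1 / σ ^ (n + 1)) * (|Sf C U L x z - n| + η) :=
          mul_le_mul_of_nonneg_right (mul_le_mul_of_nonneg_left h1 (by positivity)) h6
  · rw [yf_of_ge hR hz, Phb_one]
    simp only [mul_zero, zero_mul, sub_zero]
    exact indicator_nonneg (fun _ _ => mul_nonneg (by positivity)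
      (add_nonneg (abs_nonneg _) hη)) z

/-- **The `L¹` bound.** -/
theorem L1_bound (hD : IsDir C) (hfin : ∀ (x : M) (r : ℝ), m (ball x r) < ∞)
    (hn : 1 ≤ n) (hη : 0 ≤ η) (hR : 0 < R)
    (hcmp : Cmp C (n + η) x R) (hUc : ∀ i, Continuous (U i)) (hUA : ∀ i, cl m (U i) ∈ C.A)
    (hL : ∀ i, C.IsLap (cl m (U i)) (L i)) (hε : 0 ≤ ε)
    (hU : ∀ z ∈ ball x R, ∑ i, (U i z - U i x) ^ 2 ≤ (1 + ε) * dist x z ^ 2)
    (hh : ∫ z in ball x R, |Sf C U L x z - n| ∂m ≤ h) (hσ : 0 < σ)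
    (hσ1 : 2 * n * σ ≤ 1) :
    1 / 16 * ∫ z in ball x (7 / 10 * R), Ff U x R ε z ∂m
      ≤ (n + 1) / σ ^ (n + 1) * ((n * σ ^ 2 + ε / 2) * R ^ 2) * m.real (ball x (2 * n * σ * R))
        + η * (1 / σ ^ (n + 1) * ((1 + ε) / 2 * R ^ 2)) * m.real (ball x R)
        + R ^ 2 / 2 * (1 / σ ^ (n + 1)) * (h + η * m.real (ball x R)) := by
  obtain ⟨hPA, hPm, hPc⟩ := cP_spec (n := n) hD hfin hR hcmp.memA hσ
  obtain ⟨hΦA, hΦm, hΦ0, hΦc⟩ := cPh_spec (n := n) hD hfin hR hcmp.memA hσ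
  have hPF : 0 ≤ cP m n σ x R * cl m (Ff U x R ε) := by
    rw [nonneg_iff_ae]
    filter_upwards [mul_ae (cP m n σ x R) (cl m (Ff U x R ε)),
      cP_ae (m := m) (n := n) (x := x) (R := R) hσ,
      cl_ae (m := m) (continuous_Ff hUc x R ε)] with z a1 a2 a3
    rw [a1, a2, a3]
    rcases lt_or_ge (dist x z) R with hz | hz
    · exact mul_nonneg (pb_nonneg hσ _) (Ff_nonneg hε hU hz)
    · rw [yf_of_ge hR hz, pb_one, zero_mul]
  have hkey := key hD hcmp.memA hUA hL (fun i => -U i x)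
    (R ^ 2 / 2 - (∑ i, (U i x) ^ 2) / 2 + ε / 2 * R ^ 2) (n + η) hPA hPm hΦA hΦm hΦ0
    (cP1_top hR hσ) hPc hΦc (Ff_ae hUc x ε) hPF hcmp.lap
  have h1 := hlow hD hfin hn hR hcmp hUc hUA hε hU hσ hσ1
  have h2 := mul_le_mul_of_nonneg_left (hup1 hD hfin hR hcmp hUc hUA hε hU hσ) hη
  have h3 := hup2 hD hfin hR hη hcmp hUc hUA hL hh hσ
  have h4 : ((n : ℝ) + η) * I (cP m n σ x R * cl m (Ff U x R ε))
      = n * I (cP m n σ x R * cl m (Ff U x R ε)) + η * I (cP m n σ x R * cl m (Ff U x R ε)) := by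
    ring
  have h5 : η * (1 / σ ^ (n + 1) * ((1 + ε) / 2 * R ^ 2) * m.real (ball x R))
    = η * (1 / σ ^ (n + 1) * ((1 + ε) / 2 * R ^ 2)) * m.real (ball x R) := by ring
  rw [h4] at hkey
  rw [h5] at h2
  linarith

end bound

end Vale.Agent.P242.H358
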