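import Vale.Agent.P242.H358.GH2
import Vale.Agent.P242.H358.Comp

/-!
P242 (helper358), package A-GH: an almost splitting map is almost an isometry, `| |v|² - d² | ≤ ψ R²`.
-/

set_option linter.all false

open MeasureTheory Filter Topology Set Metric
open scoped ENNReal NNReal

universe u

namespace Vale.Agent.P242.H358

open Vale.Agent.P233 Vale.Agent.P233.H866

section sq

variable {n : ℕ}

theorem sum_sq_diff {a b : Fin n → ℝ} {A D : ℝ} (hA : 0 ≤ A) (hD : 0 ≤ D)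
    (ha : ∑ i, a i ^ 2 ≤ A ^ 2) (hb : ∑ i, b i ^ 2 ≤ A ^ 2)
    (hab : ∑ i, (a i - b i) ^ 2 ≤ D ^ 2) :
    |∑ i, a i ^ 2 - ∑ i, b i ^ 2| ≤ 2 * A * D := by
  have h1 : (∑ i, a i ^ 2 - ∑ i, b i ^ 2) = ∑ i, (a i + b i) * (a i - b i) := by
    rw [← Finset.sum_sub_distrib]
    exact Finset.sum_congr rfl fun i _ => by ring
  have h2 : (∑ i, (a i + b i) * (a i - b i)) ^ 2
      ≤ (∑ i, (a i + b i) ^ 2) * ∑ i, (a i - b i) ^ 2 :=
    Finset.sum_mul_sq_le_sq_mul_sq _ _ _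
  have h3 : ∑ i, (a i + b i) ^ 2 ≤ 4 * A ^ 2 := by
    have : ∑ i, (a i + b i) ^ 2 ≤ ∑ i, (2 * a i ^ 2 + 2 * b i ^ 2) :=
      Finset.sum_le_sum fun i _ => by nlinarith [sq_nonneg (a i - b i)]
    rw [Finset.sum_add_distrib, ← Finset.mul_sum, ← Finset.mul_sum] at this
    linarith
  have h4 : (∑ i, (a i + b i) * (a i - b i)) ^ 2 ≤ (2 * A * D) ^ 2 := by
    refine h2.trans ?_
    have h5 : 0 ≤ ∑ i, (a i - b i) ^ 2 := Finset.sum_nonneg fun i _ => sq_nonneg _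
    calc (∑ i, (a i + b i) ^ 2) * ∑ i, (a i - b i) ^ 2
        ≤ (4 * A ^ 2) * D ^ 2 := mul_le_mul h3 hab h5 (by positivity)
      _ = (2 * A * D) ^ 2 := by ring
  rw [h1]
  exact abs_le_of_sq_le_sq h4 (by positivity)

end sq

section local_bound

variable {M : Type u} [MetricSpace M] [MeasurableSpace M] [BorelSpace M]
  [SecondCountableTopology M] {m : Measure M} {C : Calc m} {n : ℕ} {η : ℝ} {x : M} {R : ℝ}
  {U : Fin n → M → ℝ} {L : Fin n → M →ₘ[m] ℝ} {ε h σ c Cv : ℝ}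

theorem Ff_lip (hR : 0 < R) (hε : 0 ≤ ε) (hε1 : ε ≤ 1)
    (hU : ∀ z ∈ ball x R, ∑ i, (U i z - U i x) ^ 2 ≤ (1 + ε) * dist x z ^ 2)
    (hU2 : ∀ y ∈ ball x R, ∀ z ∈ ball x R, ∑ i, (U i y - U i z) ^ 2 ≤ 4 * dist y z ^ 2)
    {y z : M} (hy : y ∈ ball x R) (hz : z ∈ ball x R) :
    |Ff U x R ε y - Ff U x R ε z| ≤ 5 * R * dist y z := by
  have hy' : dist x y < R := by rw [dist_comm]; exact hy
  have hz' : dist x z < R := by rw [dist_comm]; exact hz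
  have a1 : ∀ w ∈ ball x R, ∑ i, (U i w - U i x) ^ 2 ≤ (2 * R) ^ 2 := by
    intro w hw
    refine (hU w hw).trans ?_
    have h1 : dist x w < R := by rw [dist_comm]; exact hw
    have h2 : 0 ≤ dist x w := dist_nonneg
    nlinarith
  have a2 : ∑ i, ((U i y - U i x) - (U i z - U i x)) ^ 2 ≤ (2 * dist y z) ^ 2 := by
    have := hU2 y hy z hz
    have e : ∀ i, (U i y - U i x) - (U i z - U i x) = U i y - U i z := fun i => by ring
    simp only [e]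
    linarith
  have a3 := sum_sq_diff (by positivity) (by positivity) (a1 y hy) (a1 z hz) a2
  have a4 : |dist x y ^ 2 - dist x z ^ 2| ≤ 2 * R * dist y z := by
    have e : dist x y ^ 2 - dist x z ^ 2 = (dist x y + dist x z) * (dist x y - dist x z) := by
      ring
    rw [e, abs_mul]
    have h1 : |dist x y - dist x z| ≤ dist y z := by
      rw [dist_comm x y, dist_comm x z]
      exact abs_dist_sub_le y z x
    have h2 : |dist x y + dist x z| ≤ 2 * R := by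
      rw [abs_of_nonneg (add_nonneg dist_nonneg dist_nonneg)]; linarith
    exact mul_le_mul h2 h1 (abs_nonneg _) (by positivity)
  unfold Ff
  rw [min_eq_left hy'.le, min_eq_left hz'.le]
  rw [abs_le] at a3 a4 ⊢
  constructor <;> linarith [a3.1, a3.2, a4.1, a4.2]

/-- the `L¹` bound with Ahlfors regularity -/
theorem L1_bound' (hD : IsDir C) (hfin : ∀ (x : M) (r : ℝ), m (ball x r) < ∞)
    (hn : 1 ≤ n) (hη : 0 ≤ η) (hR : 0 < R)
    (hcmp : Cmp C (n + η) x R) (hUc : ∀ i, Continuous (U i)) (hUA : ∀ i, cl m (U i) ∈ C.A)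
    (hL : ∀ i, C.IsLap (cl m (U i)) (L i)) (hε : 0 ≤ ε) (hε1 : ε ≤ 1)
    (hU : ∀ z ∈ ball x R, ∑ i, (U i z - U i x) ^ 2 ≤ (1 + ε) * dist x z ^ 2)
    (hCv : ∀ r, 0 < r → r ≤ R → m.real (ball x r) ≤ Cv * r ^ n) (hCv0 : 0 ≤ Cv)
    (hh : ∫ z in ball x R, |Sf C U L x z - n| ∂m ≤ h * R ^ n) (hσ : 0 < σ)
    (hσ1 : 2 * n * σ ≤ 1) :
    ∫ z in ball x (7 / 10 * R), Ff U x R ε z ∂m
      ≤ 16 * ((n + 1) * Cv * (2 * n) ^ n * (n * σ + ε / σ) + (2 * η * Cv + h) / σ ^ (n + 1))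
        * R ^ (n + 2) := by
  have hn' : (1 : ℝ) ≤ n := by exact_mod_cast hn
  have h0 : 0 ≤ ∫ z in ball x R, |Sf C U L x z - n| ∂m := integral_nonneg fun _ => abs_nonneg _
  have hh0 : 0 ≤ h * R ^ n := h0.trans hh
  have hh0' : 0 ≤ h := by
    by_contra hneg
    push Not at hneg
    have : h * R ^ n < 0 := mul_neg_of_neg_of_pos hneg (by positivity)
    linarith
  have h1 := L1_bound hD hfin hn hη hR hcmp hUc hUA hL hε hU hh hσ hσ1
  have h2 := hCv (2 * n * σ * R) (by positivity) (by nlinarith)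
  have h3 := hCv R hR le_rfl
  have hσn : 0 < σ ^ (n + 1) := by positivity
  have e1 : ((n : ℝ) + 1) / σ ^ (n + 1) * ((n * σ ^ 2 + ε / 2) * R ^ 2)
      * m.real (ball x (2 * n * σ * R))
      ≤ (n + 1) * Cv * (2 * n) ^ n * (n * σ + ε / σ) * R ^ (n + 2) := by
    calc ((n : ℝ) + 1) / σ ^ (n + 1) * ((n * σ ^ 2 + ε / 2) * R ^ 2)
        * m.real (ball x (2 * n * σ * R))
        ≤ ((n : ℝ) + 1) / σ ^ (n + 1) * ((n * σ ^ 2 + ε / 2) * R ^ 2)
          * (Cv * (2 * n * σ * R) ^ n) := mul_le_mul_of_nonneg_left h2 (by positivity)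
      _ ≤ ((n : ℝ) + 1) / σ ^ (n + 1) * ((n * σ ^ 2 + ε) * R ^ 2)
          * (Cv * (2 * n * σ * R) ^ n) := by gcongr; linarith
      _ = (n + 1) * Cv * (2 * n) ^ n * (n * σ + ε / σ) * R ^ (n + 2) := by
        rw [mul_pow, mul_pow]
        field_simp
        ring
  have e2 : η * (1 / σ ^ (n + 1) * ((1 + ε) / 2 * R ^ 2)) * m.real (ball x R)
      + R ^ 2 / 2 * (1 / σ ^ (n + 1)) * (h * R ^ n + η * m.real (ball x R))
      ≤ (2 * η * Cv + h) / σ ^ (n + 1) * R ^ (n + 2) := by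
    have e3 : η * (1 / σ ^ (n + 1) * ((1 + ε) / 2 * R ^ 2)) * m.real (ball x R)
        ≤ η * (1 / σ ^ (n + 1) * (1 * R ^ 2)) * (Cv * R ^ n) := by
      gcongr
      linarith
    have e4 : R ^ 2 / 2 * (1 / σ ^ (n + 1)) * (h * R ^ n + η * m.real (ball x R))
        ≤ R ^ 2 / 2 * (1 / σ ^ (n + 1)) * (h * R ^ n + η * (Cv * R ^ n)) := by
      gcongr
    have e5 : η * (1 / σ ^ (n + 1) * (1 * R ^ 2)) * (Cv * R ^ n)
        + R ^ 2 / 2 * (1 / σ ^ (n + 1)) * (h * R ^ n + η * (Cv * R ^ n))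
        ≤ (2 * η * Cv + h) / σ ^ (n + 1) * R ^ (n + 2) := by
      have e6 : (2 * η * Cv + h) / σ ^ (n + 1) * R ^ (n + 2)
          - (η * (1 / σ ^ (n + 1) * (1 * R ^ 2)) * (Cv * R ^ n)
          + R ^ 2 / 2 * (1 / σ ^ (n + 1)) * (h * R ^ n + η * (Cv * R ^ n)))
          = (η * Cv + h) / (2 * σ ^ (n + 1)) * R ^ (n + 2) := by
        field_simp
        ring
      have e7 : 0 ≤ (η * Cv + h) / (2 * σ ^ (n + 1)) * R ^ (n + 2) := by positivity
      linarith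
    linarith
  have e8 : 16 * ((n + 1) * Cv * (2 * n) ^ n * (n * σ + ε / σ)
      + (2 * η * Cv + h) / σ ^ (n + 1)) * R ^ (n + 2)
      = 16 * ((n + 1) * Cv * (2 * n) ^ n * (n * σ + ε / σ) * R ^ (n + 2)
        + (2 * η * Cv + h) / σ ^ (n + 1) * R ^ (n + 2)) := by ring
  rw [e8]
  linarith

/-- the pointwise bound -/
theorem ptw_bound (hD : IsDir C) (hfin : ∀ (x : M) (r : ℝ), m (ball x r) < ∞)
    (hn : 1 ≤ n) (hη : 0 ≤ η) (hR : 0 < R)
    (hcmp : Cmp C (n + η) x R) (hUc : ∀ i, Continuous (U i)) (hUA : ∀ i, cl m (U i) ∈ C.A)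
    (hL : ∀ i, C.IsLap (cl m (U i)) (L i)) (hε : 0 ≤ ε) (hε1 : ε ≤ 1)
    (hU : ∀ z ∈ ball x R, ∑ i, (U i z - U i x) ^ 2 ≤ (1 + ε) * dist x z ^ 2)
    (hU2 : ∀ y ∈ ball x R, ∀ z ∈ ball x R, ∑ i, (U i y - U i z) ^ 2 ≤ 4 * dist y z ^ 2)
    (hCv : ∀ r, 0 < r → r ≤ R → m.real (ball x r) ≤ Cv * r ^ n) (hCv0 : 0 ≤ Cv)
    (hc : ∀ y ∈ ball x R, ∀ r, 0 < r → r ≤ R → c * r ^ n ≤ m.real (ball y r))
    (hh : ∫ z in ball x R, |Sf C U L x z - n| ∂m ≤ h * R ^ n) (hσ : 0 < σ)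
    (hσ1 : 2 * n * σ ≤ 1) {τ : ℝ} (hτ : 0 < τ) (hτ1 : τ ≤ 1)
    (hsmall : 32 * ((n + 1) * Cv * (2 * n) ^ n * (n * σ + ε / σ)
      + (2 * η * Cv + h) / σ ^ (n + 1)) < c * τ * (τ / 10) ^ n)
    {z : M} (hz : z ∈ ball x (R / 2)) :
    Ff U x R ε z ≤ τ * R ^ 2 := by
  by_contra hneg
  push Not at hneg
  have hL1 := L1_bound' hD hfin hn hη hR hcmp hUc hUA hL hε hε1 hU hCv hCv0 hh hσ hσ1
  have hsub : ball z (τ / 10 * R) ⊆ ball x (7 / 10 * R) := by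
    intro w hw
    rw [mem_ball] at hw hz ⊢
    have := dist_triangle w z x
    nlinarith
  have hsubR : ball x (7 / 10 * R) ⊆ ball x R := ball_subset_ball (by linarith)
  have hzR : z ∈ ball x R := ball_subset_ball (by linarith) hz
  have hlow : ∀ w ∈ ball z (τ / 10 * R), τ / 2 * R ^ 2 ≤ Ff U x R ε w := by
    intro w hw
    have h1 := Ff_lip hR hε hε1 hU hU2 (hsubR (hsub hw)) hzR
    rw [mem_ball] at hw
    have h2 : 5 * R * dist w z ≤ τ / 2 * R ^ 2 := by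
      calc 5 * R * dist w z ≤ 5 * R * (τ / 10 * R) := by gcongr
        _ = τ / 2 * R ^ 2 := by ring
    have h3 := (abs_le.1 h1).1
    linarith
  have hFc := continuous_Ff hUc x R ε
  have hFtop := cF_top (ε := ε) hD hcmp.memA hUc hUA
  have aF : ⇑(cl m (Ff U x R ε)) =ᵐ[m] Ff U x R ε := cl_ae hFc
  have hint : IntegrableOn (Ff U x R ε) (ball x (7 / 10 * R)) m := by
    obtain ⟨B, hB⟩ := mem_top_iff.1 hFtop
    refine Measure.integrableOn_of_bounded (hfin x _).ne hFc.aestronglyMeasurable (M := B) ?_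
    filter_upwards [ae_restrict_of_ae hB, ae_restrict_of_ae aF] with w h1 h2
    rwa [← h2]
  have h1 : τ / 2 * R ^ 2 * m.real (ball z (τ / 10 * R))
      ≤ ∫ w in ball z (τ / 10 * R), Ff U x R ε w ∂m := by
    have h2 := setIntegral_mono_on (integrableOn_const (C := τ / 2 * R ^ 2)
      (hfin z (τ / 10 * R)).ne) (hint.mono_set hsub) measurableSet_ball hlow
    rw [setIntegral_const, smul_eq_mul] at h2
    linarith
  have h2 : ∫ w in ball z (τ / 10 * R), Ff U x R ε w ∂m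
      ≤ ∫ w in ball x (7 / 10 * R), Ff U x R ε w ∂m := by
    refine setIntegral_mono_set hint ?_ (HasSubset.Subset.eventuallyLE hsub)
    refine (ae_restrict_iff' measurableSet_ball).2 (Eventually.of_forall fun w hw => ?_)
    have hw' : dist x w < R := by
      have := hsubR hw
      rw [mem_ball, dist_comm] at this
      exact this
    exact Ff_nonneg hε hU hw'
  have h3 := hc z hzR (τ / 10 * R) (by positivity) (by nlinarith)
  have h4 : τ / 2 * R ^ 2 * (c * (τ / 10 * R) ^ n) ≤ τ / 2 * R ^ 2 * m.real (ball z (τ / 10 * R)) :=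
    mul_le_mul_of_nonneg_left h3 (by positivity)
  have e1 : τ / 2 * R ^ 2 * (c * (τ / 10 * R) ^ n) = c * τ * (τ / 10) ^ n / 2 * R ^ (n + 2) := by
    rw [mul_pow]; ring
  rw [e1] at h4
  have h5 : c * τ * (τ / 10) ^ n / 2 * R ^ (n + 2)
      ≤ 16 * ((n + 1) * Cv * (2 * n) ^ n * (n * σ + ε / σ) + (2 * η * Cv + h) / σ ^ (n + 1))
        * R ^ (n + 2) := by linarith
  have h6 := le_of_mul_le_mul_right h5 (by positivity)
  linarith

end local_bound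

/-- choice of the parameters -/
theorem exists_par (n : ℕ) (hn : 1 ≤ n) {c Cv τ : ℝ} (hc : 0 < c) (hCv : 0 ≤ Cv) (hτ : 0 < τ) :
    ∃ σ : ℝ, 0 < σ ∧ 2 * n * σ ≤ 1 ∧ ∃ δ : ℝ, 0 < δ ∧ δ ≤ 1 ∧ ∀ ε η h : ℝ, 0 ≤ ε → ε ≤ δ → 0 ≤ η → η ≤ δ →
      h ≤ δ → 32 * ((n + 1) * Cv * (2 * n) ^ n * (n * σ + ε / σ)
      + (2 * η * Cv + h) / σ ^ (n + 1)) < c * τ * (τ / 10) ^ n := by
  have hn' : (1 : ℝ) ≤ n := by exact_mod_cast hn
  set a : ℝ := c * τ * (τ / 10) ^ n with ha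
  have ha0 : 0 < a := by positivity
  set b : ℝ := 32 * ((n + 1) * Cv * (2 * n) ^ n) * n with hb
  have hb0 : 0 ≤ b := by positivity
  set σ : ℝ := min (1 / (2 * n)) (a / (2 * (b + 1))) with hσ
  have hσ0 : 0 < σ := lt_min (by positivity) (by positivity)
  have h1 : b * σ ≤ a / 2 := by
    have h2 : σ ≤ a / (2 * (b + 1)) := min_le_right _ _
    calc b * σ ≤ (b + 1) * (a / (2 * (b + 1))) := by
          refine mul_le_mul (by linarith) h2 hσ0.le (by positivity)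
      _ = a / 2 := by field_simp
  refine ⟨σ, hσ0, ?_, ?_⟩
  · have h2 : σ ≤ 1 / (2 * n) := min_le_left _ _
    calc 2 * n * σ ≤ 2 * n * (1 / (2 * n)) := by gcongr
      _ = 1 := by field_simp
  · set e : ℝ := 32 * ((n + 1) * Cv * (2 * n) ^ n / σ + (2 * Cv + 1) / σ ^ (n + 1)) with he
    have he0 : 0 < e := by positivity
    refine ⟨min 1 (a / (4 * e)), lt_min one_pos (by positivity), min_le_left _ _, ?_⟩
    intro ε η h hε hεδ hη hηδ hhδ
    set δ : ℝ := min 1 (a / (4 * e)) with hδ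
    have hδ0 : 0 < δ := lt_min one_pos (by positivity)
    have h3 : e * δ ≤ a / 4 := by
      have h2 : δ ≤ a / (4 * e) := min_le_right _ _
      calc e * δ ≤ e * (a / (4 * e)) := by gcongr
        _ = a / 4 := by field_simp
    have h4 : 32 * ((n + 1) * Cv * (2 * n) ^ n * (n * σ + ε / σ)
      + (2 * η * Cv + h) / σ ^ (n + 1)) ≤ b * σ + e * δ := by
      have h5 : (2 * η * Cv + h) / σ ^ (n + 1) ≤ (2 * Cv + 1) / σ ^ (n + 1) * δ := by
        rw [div_mul_eq_mul_div]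
        gcongr
        nlinarith
      have h6 : (n + 1) * Cv * (2 * n) ^ n * (n * σ + ε / σ)
          ≤ (n + 1) * Cv * (2 * n) ^ n * (n * σ) + (n + 1) * Cv * (2 * n) ^ n / σ * δ := by
        rw [mul_add]
        have h7 : (n + 1) * Cv * (2 * n) ^ n * (ε / σ) = (n + 1) * Cv * (2 * n) ^ n / σ * ε := by
          ring
        rw [h7]
        have h8 : 0 ≤ (n + 1) * Cv * (2 * (n : ℝ)) ^ n / σ := by positivity
        have h9 := mul_le_mul_of_nonneg_left hεδ h8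
        linarith
      rw [hb, he]
      nlinarith
    linarith

/-- **Package A-GH, distances.** -/
theorem gh_main (n : ℕ) (hn : 1 ≤ n) {c Cv ψ : ℝ} (hc : 0 < c) (hCv : 0 ≤ Cv) (hψ : 0 < ψ) :
    ∃ δ > 0, ∀ {M : Type u} [MetricSpace M] [CompleteSpace M] [SecondCountableTopology M]
      [MeasurableSpace M] [BorelSpace M] {m : Measure M} {K : ℝ} (hS : Std m K n) (x : M) (R : ℝ),
      0 < R → |K| * R ^ 2 ≤ δ →
      (∀ y ∈ ball x R, ∀ r, 0 < r → r ≤ R → c * r ^ n ≤ m.real (ball y r)) →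
      (∀ r, 0 < r → r ≤ R → m.real (ball x r) ≤ Cv * r ^ n) →
      ∀ (U : Fin n → M → ℝ) (L : Fin n → M →ₘ[m] ℝ), (∀ i, Continuous (U i)) →
      (∀ i, cl m (U i) ∈ (sob m).A) → (∀ i, (sob m).IsLap (cl m (U i)) (L i)) →
      (∀ z ∈ ball x R, ∑ i, (U i z - U i x) ^ 2 ≤ (1 + δ) * dist x z ^ 2) →
      (∀ y ∈ ball x R, ∀ z ∈ ball x R, ∑ i, (U i y - U i z) ^ 2 ≤ 4 * dist y z ^ 2) →
      (∫ z in ball x R, |Sf (sob m) U L x z - n| ∂m ≤ δ * R ^ n) →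
      ∀ z ∈ ball x (R / 2), |∑ i, (U i z - U i x) ^ 2 - dist x z ^ 2| ≤ ψ * R ^ 2 := by
  set τ : ℝ := min 1 (ψ / 4) with hτ
  have hτ0 : 0 < τ := lt_min one_pos (by positivity)
  have hτ1 : τ ≤ 1 := min_le_left _ _
  have hτψ : τ ≤ ψ / 4 := min_le_right _ _
  obtain ⟨σ, hσ, hσ1, δ, hδ, hδ1, hpar⟩ := exists_par n hn hc hCv hτ0
  refine ⟨min δ ψ, lt_min hδ hψ, ?_⟩
  intro M _ _ _ _ _ m K hS x R hR hK hcc hCC U L hUc hUA hL hU hU2 hh z hz
  have hε0 : 0 < min δ ψ := lt_min hδ hψ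
  have hεδ : min δ ψ ≤ δ := min_le_left _ _
  have hεψ : min δ ψ ≤ ψ := min_le_right _ _
  set ε := min δ ψ with hε
  have hη : 0 ≤ |K| * R ^ 2 / 2 := by positivity
  have hηδ : |K| * R ^ 2 / 2 ≤ δ := by linarith
  have hG := std_gamma hS
  have hD := hG.toIsDir
  have h1 := ptw_bound hD hS.hfin hn hη hR (cmp_std hS x hR) hUc hUA hL hε0.le (hεδ.trans hδ1) hU
    hU2 hCC hCv hcc hh hσ hσ1 hτ0 hτ1 (hpar ε _ ε hε0.le hεδ hη hηδ hεδ) hz
  have hz' : dist x z < R := by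
    rw [mem_ball, dist_comm] at hz; linarith
  have h2 := hU z (by rw [mem_ball, dist_comm]; exact hz')
  unfold Ff at h1
  rw [min_eq_left hz'.le] at h1
  have hd : dist x z ^ 2 ≤ R ^ 2 := by
    have : 0 ≤ dist x z := dist_nonneg
    gcongr
  have hR2 : 0 < R ^ 2 := by positivity
  have h3 : ε * dist x z ^ 2 ≤ ψ * R ^ 2 := mul_le_mul hεψ hd (sq_nonneg _) hψ.le
  have h4 : τ * R ^ 2 ≤ ψ / 4 * R ^ 2 := mul_le_mul_of_nonneg_right hτψ hR2.le
  have h5 : 0 ≤ ε / 2 * R ^ 2 := by positivity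
  rw [abs_le]
  constructor
  · nlinarith
  · linarith

end Vale.Agent.P242.H358
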