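import Vale.Agent.P242.H751.BlkF
import Vale.Agent.P242.H71.HFDef
import Vale.Agent.P242.H358.NearIso
import Vale.Agent.P233.H719.BlkD5

/-!
P242 (helper358), package A-GH: the near isometry in the frozen vocabulary at one centre and one
time, from the output of A4-PRE.
-/

set_option linter.all false

open MeasureTheory Filter Topology Set Metric
open scoped ENNReal NNReal InnerProductSpace

universe u

namespace Vale.Agent.P242.H358

open Vale.Agent.P233 Vale.Agent.P233.H866 Vale.Agent.P242.H71 Vale.Agent.P242.H990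
  Vale.Agent.P242.H520

/-! ### the maps `u_c` -/

section uc

variable {M : Type u} [MetricSpace M] [MeasurableSpace M] {m : Measure M} {n : ℕ}
  {p : ℝ → M → M → ℝ} {u : Fin n → M →ₘ[m] ℝ} {uu : M → H71.E n}

theorem uc_add (u : Fin n → M →ₘ[m] ℝ) (c d : H71.E n) : uc u (c + d) = uc u c + uc u d := by
  unfold uc
  rw [← Finset.sum_add_distrib]
  refine Finset.sum_congr rfl fun i _ => ?_
  rw [PiLp.add_apply, add_smul]

theorem uc_smul (u : Fin n → M →ₘ[m] ℝ) (r : ℝ) (c : H71.E n) : uc u (r • c) = r • uc u c := by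
  unfold uc
  rw [Finset.smul_sum]
  refine Finset.sum_congr rfl fun i _ => ?_
  rw [PiLp.smul_apply, smul_eq_mul, mul_smul]

theorem sum_ae' {ι : Type*} (s : Finset ι) (F : ι → M →ₘ[m] ℝ) :
    ∀ᵐ z ∂m, (∑ i ∈ s, F i) z = ∑ i ∈ s, F i z := by
  classical
  induction s using Finset.induction_on with
  | empty =>
    filter_upwards [AEEqFun.coeFn_zero (α := M) (β := ℝ) (μ := m)] with z hz
    simp only [Finset.sum_empty]
    exact hz
  | insert a s ha ih =>
    rw [Finset.sum_insert ha]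
    filter_upwards [ih, add_ae (F a) (∑ i ∈ s, F i)] with z h1 h2
    rw [h2, h1, Finset.sum_insert ha]

theorem uc_ae (u : Fin n → M →ₘ[m] ℝ) (c : H71.E n) : ∀ᵐ z ∂m, uc u c z = ∑ i, c i * u i z := by
  have h : ∀ᵐ z ∂m, ∀ i, (c i • u i) z = c i * u i z := ae_all_iff.2 fun i => smul_ae (u i) (c i)
  filter_upwards [sum_ae' Finset.univ fun i => c i • u i, h] with z h1 h2
  unfold uc
  rw [h1]
  exact Finset.sum_congr rfl fun i _ => h2 i

theorem uc_rep (hrep : ∀ i, ∀ᵐ x ∂m, u i x = uu x i) (c : H71.E n) :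
    ∀ᵐ z ∂m, uc u c z = ⟪c, uu z⟫_ℝ := by
  have h := ae_all_iff.2 hrep
  filter_upwards [uc_ae u c, h] with z h1 h2
  rw [h1, PiLp.inner_apply]
  refine Finset.sum_congr rfl fun i _ => ?_
  rw [h2 i]
  simp [mul_comm]

theorem uc_testI (hC : IsGamma (sob m)) {κ : ℝ} (hB : (sob m).BEi κ)
    (h : ∀ i, u i ∈ (sob m).TestI) (c : H71.E n) : uc u c ∈ (sob m).TestI :=
  H719.testI_sum hC hB Finset.univ (fun i => c i) h

theorem cl_uc [BorelSpace M] [SecondCountableTopology M] (hcont : Continuous uu)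
    (hrep : ∀ i, ∀ᵐ x ∂m, u i x = uu x i) (c : H71.E n) : cl m (fun z => ⟪c, uu z⟫_ℝ) = uc u c := by
  have hm : AEStronglyMeasurable (fun z => ⟪c, uu z⟫_ℝ) m :=
    (continuous_const.inner hcont).aestronglyMeasurable
  rw [eq_iff_ae]
  filter_upwards [H183.cl_ae hm, uc_rep hrep c] with z h1 h2
  rw [h1, h2]

theorem PP_int (hp : Ker0 m p) {t : ℝ} (ht : 0 < t) (x : M) {F : M →ₘ[m] ℝ} (hF : MemLp F 2 m) :
    MemLp (ph m p t x * F : M →ₘ[m] ℝ) 1 m :=
  (int_ph_mul hp ht x).2 (pt_int hp ht x hF)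

/-- `Gm` is a symmetric bilinear form -/
theorem Gm_symBil (hC : IsGamma (sob m)) {κ : ℝ} (hB : (sob m).BEi κ) (hp : Ker0 m p)
    (h : ∀ i, u i ∈ (sob m).TestI) {t : ℝ} (ht : 0 < t) (x : M) : SymBil (Gm m p u t x) := by
  have hT := uc_testI hC hB h
  have hW : ∀ c, uc u c ∈ (sob m).W := fun c => (hC.test_A (hT c).1).1
  have hD := hC.toIsDir
  have h2 : ∀ c d, MemLp ((sob m).Γ (uc u c) (uc u d)) 2 m := fun c d =>
    hD.memLp _ (hC.Γ_mem hB (hT c).1 (hT d).1).1
  refine ⟨fun c d => ?_, fun a b d => ?_, fun r a d => ?_⟩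
  · unfold Gm
    rw [hD.symm _ (hW c) _ (hW d)]
  · unfold Gm PP
    rw [uc_add, hD.add_left _ (hW a) _ (hW b) _ (hW d), mul_add,
      I_add (PP_int hp ht x (h2 a d)) (PP_int hp ht x (h2 b d))]
  · unfold Gm PP
    rw [uc_smul, hD.smul_left _ _ (hW a) _ (hW d), mul_smul_comm, I_smul]

end uc

/-! ### the form at `(x,t)` and its frames -/

section frame

variable {n : ℕ}

/-- orthonormal frame of a positive definite form, indexed by `Fin n` -/
theorem exists_frame_n {G : H71.E n →ₗ[ℝ] H71.E n →ₗ[ℝ] ℝ} (h : H155.PD G) :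
    ∃ c : Fin n → H71.E n, ∀ a b, G (c a) (c b) = if a = b then 1 else 0 := by
  obtain ⟨c, hc⟩ := h.exists_frame
  have hn : Module.finrank ℝ (H71.E n) = n := finrank_euclideanSpace_fin
  refine ⟨fun a => c (finCongr hn.symm a), fun a b => ?_⟩
  rw [hc]
  simp

variable {F : H71.E n → H71.E n → ℝ}

theorem pd_of (h : SymBil F) (hpos : ∀ c, c ≠ 0 → 0 < F c c) : H155.PD (toForm F) :=
  ⟨fun c d => by rw [h.toForm_apply, h.toForm_apply, h.symm], fun c hc => by
    rw [h.toForm_apply]; exact hpos c hc⟩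

theorem exists_frame_F (h : SymBil F) (hpos : ∀ c, c ≠ 0 → 0 < F c c) :
    ∃ c : Fin n → H71.E n, ∀ a b, F (c a) (c b) = if a = b then 1 else 0 := by
  obtain ⟨c, hc⟩ := exists_frame_n (pd_of h hpos)
  exact ⟨c, fun a b => by rw [← hc a b, h.toForm_apply]⟩

/-- the dual norm in a frame -/
theorem dual_frame_F (h : SymBil F) (hpos : ∀ c, c ≠ 0 → 0 < F c c) {c : Fin n → H71.E n}
    (hc : ∀ a b, F (c a) (c b) = if a = b then 1 else 0) (w b : H71.E n)
    (hb : ∀ d, F b d = ⟪d, w⟫_ℝ) : ⟪b, w⟫_ℝ = ∑ a, ⟪c a, w⟫_ℝ ^ 2 := by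
  have hP := pd_of h hpos
  have e : H155.inv (toForm F) w = b := by
    have h1 : H155.op (toForm F) b = w := by
      refine ext_inner_right ℝ fun d => ?_
      rw [H155.inner_op, h.toForm_apply, hb, real_inner_comm]
    rw [← h1, hP.inv_op]
  have h2 := hP.dual_frame (c := c) (by intro a b; rw [h.toForm_apply, hc]) (by simp) w w
  rw [H155.dual_apply, e] at h2
  rw [h2]
  exact Finset.sum_congr rfl fun a _ => by ring

/-- `∑ ⟪c_a, w⟫²` is controlled by the pairing bound -/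
theorem sum_sq_le (h : SymBil F) {c : Fin n → H71.E n}
    (hc : ∀ a b, F (c a) (c b) = if a = b then 1 else 0) {w : H71.E n} {D : ℝ} (hD : 0 ≤ D)
    (hw : ∀ b : H71.E n, |⟪b, w⟫_ℝ| ≤ √(F b b) * D) : ∑ a, ⟪c a, w⟫_ℝ ^ 2 ≤ D ^ 2 := by
  set S : ℝ := ∑ a, ⟪c a, w⟫_ℝ ^ 2 with hS
  have hS0 : 0 ≤ S := Finset.sum_nonneg fun a _ => sq_nonneg _
  set b : H71.E n := ∑ a, ⟪c a, w⟫_ℝ • c a with hb
  have e1 : ⟪b, w⟫_ℝ = S := by
    rw [hb, sum_inner, hS]
    refine Finset.sum_congr rfl fun a _ => ?_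
    rw [inner_smul_left]
    simp [sq]
  have e2 : F b b = S := by
    have := h.toForm_apply b b
    rw [← this, hb, map_sum]
    simp only [LinearMap.sum_apply, map_smul, LinearMap.smul_apply, smul_eq_mul, map_sum]
    rw [hS]
    refine Finset.sum_congr rfl fun a _ => ?_
    rw [Finset.mul_sum, Finset.sum_eq_single a]
    · rw [h.toForm_apply, hc]; simp [sq]
    · intro b _ hba
      rw [h.toForm_apply, hc]
      simp [hba, Ne.symm hba]
    · intro ha; exact absurd (Finset.mem_univ a) ha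
  have h3 := hw b
  rw [e1, e2, abs_of_nonneg hS0] at h3
  have h4 : √S ≤ D := by
    rcases hS0.eq_or_lt with h5 | h5
    · rw [← h5]; simpa using hD
    · have h6 : 0 < √S := Real.sqrt_pos.2 h5
      have h7 := Real.mul_self_sqrt hS0
      nlinarith
  calc S = √S ^ 2 := (Real.sq_sqrt hS0).symm
    _ ≤ D ^ 2 := pow_le_pow_left₀ (Real.sqrt_nonneg _) h4 2

end frame

end Vale.Agent.P242.H358
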