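import Vale.Agent.P242.H358.NearA

/-!
P242 (helper358), package A-GH: the near isometry at one centre and one time in the frozen
vocabulary (`near_at`).
-/

set_option linter.all false

open MeasureTheory Filter Topology Set Metric
open scoped ENNReal NNReal InnerProductSpace

universe u

namespace Vale.Agent.P242.H358

open Vale.Agent.P233 Vale.Agent.P233.H866 Vale.Agent.P242.H71 Vale.Agent.P242.H990
  Vale.Agent.P242.H520

section

variable {M : Type u} [MetricSpace M] [MeasurableSpace M] [BorelSpace M] {m : Measure M} {n : ℕ}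
  {K : ℝ} {o : M} {A : ℝ} {p : ℝ → M → M → ℝ}

/-- ball integrals from the heat kernel -/
theorem ball_int_le (hk : KB n o A p) (hp : Ker0 m p) {x q : M} {t L R : ℝ} (ht : 0 < t)
    (ht1 : t ≤ 1 / 2) (hxo : dist x o ≤ 1) (hsub : ∀ z ∈ ball q R, dist x z ≤ L * √t)
    {F : M → ℝ} (hF0 : ∀ z, 0 ≤ F z) (hFi : Integrable (fun z => p t x z * F z) m) :
    ∫ z in ball q R, F z ∂m
      ≤ A * Real.exp A * Real.exp (A * L ^ 2) * √t ^ n * pt m p t F x := by
  have hA := hk.pos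
  have hst : 0 < √t := Real.sqrt_pos.2 ht
  have hsq : √t ^ 2 = t := Real.sq_sqrt ht.le
  set k : ℝ := A * Real.exp A * Real.exp (A * L ^ 2) * √t ^ n with hkk
  have hk0 : 0 < k := by positivity
  have key : ∀ z ∈ ball q R, F z ≤ k * (p t x z * F z) := by
    intro z hz
    have h1 := hsub z hz
    have h2 : dist x z ^ 2 / t ≤ L ^ 2 := by
      rw [div_le_iff₀ ht]
      calc dist x z ^ 2 ≤ (L * √t) ^ 2 := pow_le_pow_left₀ dist_nonneg h1 2
        _ = L ^ 2 * t := by rw [mul_pow, hsq]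
    have h3 := hk.lower t ht ht1 x z
    have h4 : 1 ≤ k * p t x z := by
      have h5 : k * (A⁻¹ * Real.exp (-(A * dist x o)) * (√t ^ n)⁻¹
          * Real.exp (-(A * dist x z ^ 2 / t))) ≤ k * p t x z :=
        mul_le_mul_of_nonneg_left h3 hk0.le
      refine le_trans ?_ h5
      have e : k * (A⁻¹ * Real.exp (-(A * dist x o)) * (√t ^ n)⁻¹
          * Real.exp (-(A * dist x z ^ 2 / t)))
          = (Real.exp A * Real.exp (-(A * dist x o)))
            * (Real.exp (A * L ^ 2) * Real.exp (-(A * dist x z ^ 2 / t))) := by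
        rw [hkk]
        field_simp
      rw [e, ← Real.exp_add, ← Real.exp_add]
      have h6 : A * dist x z ^ 2 / t ≤ A * L ^ 2 := by
        rw [mul_div_assoc]
        exact mul_le_mul_of_nonneg_left h2 hA.le
      have h7 : (1 : ℝ) ≤ Real.exp (A + -(A * dist x o)) := by
        apply Real.one_le_exp
        nlinarith
      have h8 : (1 : ℝ) ≤ Real.exp (A * L ^ 2 + -(A * dist x z ^ 2 / t)) := by
        apply Real.one_le_exp
        linarith
      nlinarith
    calc F z = 1 * F z := (one_mul _).symm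
      _ ≤ (k * p t x z) * F z := mul_le_mul_of_nonneg_right h4 (hF0 z)
      _ = _ := by ring
  have h1 : ∫ z in ball q R, F z ∂m ≤ ∫ z in ball q R, k * (p t x z * F z) ∂m := by
    refine integral_mono_of_nonneg (ae_of_all _ hF0) (hFi.const_mul k).integrableOn ?_
    exact (ae_restrict_iff' measurableSet_ball).2 (ae_of_all _ key)
  refine h1.trans ?_
  unfold pt
  rw [← integral_const_mul]
  refine setIntegral_le_integral (hFi.const_mul k) (ae_of_all _ fun z => ?_)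
  exact mul_nonneg hk0.le (mul_nonneg (hp.nonneg t ht x z) (hF0 z))

end

section

variable {M : Type u} [MetricSpace M] [MeasurableSpace M]

/-- output of A4-PRE at one centre and one time, on `ball x (L √t)` -/
structure PreAt (m : Measure M) {n : ℕ} (p : ℝ → M → M → ℝ) (L e : ℝ) (u : Fin n → M →ₘ[m] ℝ)
    (uu : M → H71.E n) (x : M) (t : ℝ) : Prop where
  pos : ∀ c : H71.E n, c ≠ 0 → 0 < Gm m p u t x c c
  av : ∀ c c' : H71.E n,
    PP m p t x |(sob m).Γ (uc u c) (uc u c') - Gm m p u t x c c' • (1 : M →ₘ[m] ℝ)| ≤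
      e * (√(Gm m p u t x c c) * √(Gm m p u t x c' c'))
  lip : ∀ c : H71.E n, ∀ z ∈ ball x (L * √t), ∀ z' ∈ ball x (L * √t),
    |⟪c, uu z - uu z'⟫_ℝ| ≤ (1 + e) * √(Gm m p u t x c c) * dist z z'
  lap : ∀ c : H71.E n,
    PP m p t x |(sob m).lap (uc u c)| ≤ e / √t * √(Gm m p u t x c c)

/-- the near isometry at `(x,t)`, in a frame -/
structure NearAt (m : Measure M) {n : ℕ} (p : ℝ → M → M → ℝ) (L ψ : ℝ) (u : Fin n → M →ₘ[m] ℝ)
    (uu : M → H71.E n) (x : M) (t : ℝ) (c : Fin n → H71.E n) : Prop where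
  fr : ∀ i j, Gm m p u t x (c i) (c j) = if i = j then 1 else 0
  du : ∀ w b : H71.E n, (∀ d, Gm m p u t x b d = ⟪d, w⟫_ℝ) → ⟪b, w⟫_ℝ = ∑ i, ⟪c i, w⟫_ℝ ^ 2
  li : ∀ y z, dist x y ≤ 6 * L * √t → dist x z ≤ 6 * L * √t →
    ∑ i, ⟪c i, uu y - uu z⟫_ℝ ^ 2 ≤ (1 + ψ) * dist y z ^ 2
  ni : ∀ q, dist x q ≤ L * √t → ∀ z, dist q z ≤ L * √t →
    |∑ i, ⟪c i, uu z - uu q⟫_ℝ ^ 2 - dist q z ^ 2| ≤ ψ * t
  de : ∀ q, dist x q ≤ L * √t → ∀ v : Fin n → ℝ, ∑ i, v i ^ 2 ≤ L ^ 2 * t →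
    ∃ z, dist q z ≤ 2 * L * √t ∧ ∑ i, (⟪c i, uu z - uu q⟫_ℝ - v i) ^ 2 ≤ ψ * t ∧
      dist q z ^ 2 ≤ ∑ i, ⟪c i, uu z - uu q⟫_ℝ ^ 2 + ψ * t

end

section

variable {M : Type u} [MetricSpace M] [CompleteSpace M] [SecondCountableTopology M]
  [MeasurableSpace M] [BorelSpace M] {m : Measure M} {n : ℕ}
  {K : ℝ} {o : M} {A : ℝ} {p : ℝ → M → M → ℝ}

theorem PP_pt (hp : Ker0 m p) {t : ℝ} (ht : 0 < t) (x : M) {F : M →ₘ[m] ℝ} {f : M → ℝ}
    (h : ∀ᵐ z ∂m, F z = f z) : PP m p t x F = pt m p t f x := by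
  unfold PP
  rw [I_ph_mul hp ht]
  exact pt_congr hp h t x

/-- `∑ ⟪c_i, uu y - uu z⟫²` for a frame -/
theorem sum_lip (hE : H71.Env m n K o A p) {u : Fin n → M →ₘ[m] ℝ} {uu : M → H71.E n} {x : M}
    {t L e : ℝ} (ht : 0 < t) (he : 0 ≤ e) (he1 : e ≤ 1) (hu : ∀ i, u i ∈ (sob m).TestI)
    (hpre : PreAt m p L e u uu x t) {c : Fin n → H71.E n}
    (hc : ∀ i j, Gm m p u t x (c i) (c j) = if i = j then 1 else 0) {y z : M}
    (hy : y ∈ ball x (L * √t)) (hz : z ∈ ball x (L * √t)) :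
    ∑ i, ⟪c i, uu y - uu z⟫_ℝ ^ 2 ≤ (1 + 3 * e) * dist y z ^ 2 := by
  have hS := Gm_symBil (H751.env_gamma hE) (H751.env_bei hE) hE.ker hu ht x
  have h1 := sum_sq_le hS hc (w := uu y - uu z) (D := (1 + e) * dist y z) (by positivity)
    (fun b => by
      have := hpre.lip b y hy z hz
      calc |⟪b, uu y - uu z⟫_ℝ| ≤ (1 + e) * √(Gm m p u t x b b) * dist y z := this
        _ = _ := by ring)
  refine h1.trans ?_
  rw [mul_pow]
  apply mul_le_mul_of_nonneg_right _ (sq_nonneg _)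
  nlinarith

/-- ball integrals of the Gram matrix of a frame -/
theorem gram_ball (hE : H71.Env m n K o A p) {u : Fin n → M →ₘ[m] ℝ} {uu : M → H71.E n} {x : M}
    {t L L' R e : ℝ} (ht : 0 < t) (ht1 : t ≤ 1 / 2) (hxo : dist x o ≤ 1)
    (hu : ∀ i, u i ∈ (sob m).TestI)
    (hpre : PreAt m p L e u uu x t) {c : Fin n → H71.E n}
    (hc : ∀ i j, Gm m p u t x (c i) (c j) = if i = j then 1 else 0) {q : M}
    (hsub : ∀ z ∈ ball q R, dist x z ≤ L' * √t) (i j : Fin n) :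
    ∫ z in ball q R, |(sob m).Γ (uc u (c j)) (uc u (c i)) z - if j = i then 1 else 0| ∂m
      ≤ A * Real.exp A * Real.exp (A * L' ^ 2) * √t ^ n * e := by
  have hA := hE.kb.pos
  have hT := uc_testI (H751.env_gamma hE) (H751.env_bei hE) hu
  have hcii : ∀ i, √(Gm m p u t x (c i) (c i)) = 1 := fun i => by rw [hc]; simp
  have hm2 : MemLp ((sob m).Γ (uc u (c j)) (uc u (c i))) ∞ m :=
    ((H751.env_gamma hE).Γ_mem (H751.env_bei hE) (hT _).1 (hT _).1).2
  have hae : ∀ᵐ z ∂m, (|(sob m).Γ (uc u (c j)) (uc u (c i))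
      - Gm m p u t x (c j) (c i) • (1 : M →ₘ[m] ℝ)| : M →ₘ[m] ℝ) z
      = |(sob m).Γ (uc u (c j)) (uc u (c i)) z - if j = i then 1 else 0| := by
    filter_upwards [AEEqFun.coeFn_abs ((sob m).Γ (uc u (c j)) (uc u (c i))
        - Gm m p u t x (c j) (c i) • (1 : M →ₘ[m] ℝ)),
      sub_ae ((sob m).Γ (uc u (c j)) (uc u (c i)))
        (Gm m p u t x (c j) (c i) • (1 : M →ₘ[m] ℝ)),
      smul_ae (1 : M →ₘ[m] ℝ) (Gm m p u t x (c j) (c i)), one_ae (M := M) (m := m)]
      with z h1 h2 h3 h4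
    rw [h1, h2, h3, h4, hc, mul_one]
  have h1 := hpre.av (c j) (c i)
  rw [PP_pt hE.ker ht x hae, hcii, hcii, mul_one, mul_one] at h1
  have hi : Integrable (fun z => p t x z *
      |(sob m).Γ (uc u (c j)) (uc u (c i)) z - if j = i then 1 else 0|) m :=
    pt_int_top hE.ker ht x (hm2.sub (memLp_top_const _)).norm
  have h2 := ball_int_le hE.kb hE.ker ht ht1 hxo hsub (fun z => abs_nonneg _) hi
  refine h2.trans ?_
  gcongr

/-- ball integrals of the Laplacians of a frame -/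
theorem lap_ball (hE : H71.Env m n K o A p) {u : Fin n → M →ₘ[m] ℝ} {uu : M → H71.E n} {x : M}
    {t L L' R e : ℝ} (ht : 0 < t) (ht1 : t ≤ 1 / 2) (hxo : dist x o ≤ 1)
    (hu : ∀ i, u i ∈ (sob m).TestI)
    (hpre : PreAt m p L e u uu x t) {c : Fin n → H71.E n}
    (hc : ∀ i j, Gm m p u t x (c i) (c j) = if i = j then 1 else 0) {q : M}
    (hsub : ∀ z ∈ ball q R, dist x z ≤ L' * √t) (i : Fin n) :
    ∫ z in ball q R, |(sob m).lap (uc u (c i)) z| ∂m
      ≤ A * Real.exp A * Real.exp (A * L' ^ 2) * √t ^ n * (e / √t) := by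
  have hA := hE.kb.pos
  have hT := uc_testI (H751.env_gamma hE) (H751.env_bei hE) hu
  have hcii : √(Gm m p u t x (c i) (c i)) = 1 := by rw [hc]; simp
  have hae : ∀ᵐ z ∂m, (|(sob m).lap (uc u (c i))| : M →ₘ[m] ℝ) z
      = |(sob m).lap (uc u (c i)) z| := AEEqFun.coeFn_abs _
  have h1 := hpre.lap (c i)
  rw [PP_pt hE.ker ht x hae, hcii, mul_one] at h1
  have hi : Integrable (fun z => p t x z * |(sob m).lap (uc u (c i)) z|) m :=
    pt_int_top hE.ker ht x (hT (c i)).2.norm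
  have h2 := ball_int_le hE.kb hE.ker ht ht1 hxo hsub (fun z => abs_nonneg _) hi
  refine h2.trans ?_
  gcongr

/-- the near isometry at a centre `q` near `x`, with the normalization at `(x,t)` -/
theorem near_q (hE : H71.Env m n K o A p) {L ψ : ℝ} (hL : 1 ≤ L) (hψ : 0 < ψ) :
    ∃ e > 0, e ≤ ψ / 3 ∧ e ≤ 1 / 3 ∧ ∀ (u : Fin n → M →ₘ[m] ℝ) (uu : M → H71.E n) (x : M) (t : ℝ),
      dist x o ≤ 1 →
      0 < t → t ≤ e → (∀ i, u i ∈ (sob m).TestI) → Continuous uu →
      (∀ i, ∀ᵐ x ∂m, u i x = uu x i) → PreAt m p (8 * L) e u uu x t →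
      ∀ c : Fin n → H71.E n, (∀ i j, Gm m p u t x (c i) (c j) = if i = j then 1 else 0) →
      ∀ q, dist x q ≤ L * √t →
      (∀ z ∈ ball q (4 * L * √t / 2), |∑ i, (⟪c i, uu z⟫_ℝ - ⟪c i, uu q⟫_ℝ) ^ 2 - dist q z ^ 2|
        ≤ ψ * (4 * L * √t) ^ 2) ∧
      ∀ v : Fin n → ℝ, ∑ i, v i ^ 2 ≤ 16 / 100 * (4 * L * √t) ^ 2 →
        ∃ z ∈ ball q (4 * L * √t / 2), ∑ i, (⟪c i, uu z⟫_ℝ - ⟪c i, uu q⟫_ℝ - v i) ^ 2
          ≤ (ψ * (4 * L * √t)) ^ 2 := by
  have hn2 := hE.hyp.two_le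
  have hn : 1 ≤ n := by omega
  have hA := hE.kb.pos
  have hC := H751.env_gamma hE
  have hB := H751.env_bei hE
  have hG := H751.env_geoN hE
  obtain ⟨c₀, hc₀, Cv, hvol⟩ := hG.geo.vol o 4
  have hL0 : 0 < L := by linarith
  obtain ⟨δ, hδ, hmain⟩ := near_iso.{u} n hn hc₀ (abs_nonneg Cv) hψ
  set k : ℝ := A * Real.exp A * Real.exp (A * (5 * L) ^ 2) with hk
  have hk0 : 0 < k := by positivity
  set e : ℝ := min (min (δ / 3) (min (ψ / 3) (1 / 3))) (min (δ / (4 * L * k))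
    (min (δ / (16 * L ^ 2 * (|K| + 1))) (1 / (64 * L ^ 2)))) with he
  have he1 : e ≤ δ / 3 := (min_le_left _ _).trans (min_le_left _ _)
  have he2 : e ≤ ψ / 3 := (min_le_left _ _).trans ((min_le_right _ _).trans (min_le_left _ _))
  have he3 : e ≤ 1 / 3 := (min_le_left _ _).trans ((min_le_right _ _).trans (min_le_right _ _))
  have he4 : e ≤ δ / (4 * L * k) := (min_le_right _ _).trans (min_le_left _ _)
  have he5 : e ≤ δ / (16 * L ^ 2 * (|K| + 1)) :=
    (min_le_right _ _).trans ((min_le_right _ _).trans (min_le_left _ _))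
  have he6 : e ≤ 1 / (64 * L ^ 2) :=
    (min_le_right _ _).trans ((min_le_right _ _).trans (min_le_right _ _))
  have hK0 : 0 ≤ |K| := abs_nonneg K
  have he0 : 0 < e := by
    refine lt_min (lt_min (by positivity) (lt_min (by positivity) (by norm_num)))
      (lt_min (by positivity) (lt_min (by positivity) (by positivity)))
  have hk4 : 4 * L * k * e ≤ δ := by
    calc 4 * L * k * e ≤ 4 * L * k * (δ / (4 * L * k)) := by gcongr
      _ = δ := by field_simp
  have hk1 : k * e ≤ δ := by nlinarith [mul_pos hk0 he0]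
  refine ⟨e, he0, he2, he3, ?_⟩
  intro u uu x t hxo ht hte hu hcont hrep hpre c hc q hq
  have hT := uc_testI hC hB hu
  have hst : 0 < √t := Real.sqrt_pos.2 ht
  have hsq : √t ^ 2 = t := Real.sq_sqrt ht.le
  have hL2 : 1 ≤ L ^ 2 := one_le_pow₀ hL
  have hst1 : 8 * L * √t ≤ 1 := by
    have h1 : (8 * L * √t) ^ 2 ≤ 1 := by
      calc (8 * L * √t) ^ 2 = 64 * L ^ 2 * t := by rw [mul_pow, hsq]; ring
        _ ≤ 64 * L ^ 2 * (1 / (64 * L ^ 2)) := by
          gcongr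
          exact hte.trans he6
        _ = 1 := by field_simp
    have h0 : 0 ≤ 8 * L * √t := by positivity
    nlinarith
  have ht2 : t ≤ 1 / 2 := by linarith
  have hli : ∀ y ∈ ball x (8 * L * √t), ∀ z ∈ ball x (8 * L * √t),
      ∑ i, (⟪c i, uu y⟫_ℝ - ⟪c i, uu z⟫_ℝ) ^ 2 ≤ (1 + 3 * e) * dist y z ^ 2 := by
    intro y hy z hz
    have := sum_lip hE ht he0.le (by linarith) hu hpre hc hy hz
    simpa only [inner_sub_right] using this
  have hUcl : ∀ i, cl m (fun z => ⟪c i, uu z⟫_ℝ) = uc u (c i) := fun i => cl_uc hcont hrep (c i)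
  have hR : 0 < 4 * L * √t := by positivity
  have hsub : ∀ z ∈ ball q (4 * L * √t), dist x z ≤ (5 * L) * √t := by
    intro z hz
    rw [mem_ball, dist_comm] at hz
    have := dist_triangle x q z
    linarith
  have hsub8 : ∀ z ∈ ball q (4 * L * √t), z ∈ ball x (8 * L * √t) := by
    intro z hz
    have := hsub z hz
    rw [mem_ball, dist_comm]
    nlinarith [mul_pos hL0 hst]
  have hq4 : ∀ y ∈ ball q (4 * L * √t), y ∈ ball o 4 := by
    intro y hy
    have h1 := hsub8 y hy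
    rw [mem_ball] at h1 ⊢
    have := dist_triangle y x o
    linarith
  have hpw : √t ^ n ≤ (4 * L * √t) ^ n := by
    apply pow_le_pow_left₀ hst.le
    nlinarith
  refine hmain (H751.env_std hE) q (4 * L * √t) hR ?_ ?_ ?_ (fun i z => ⟪c i, uu z⟫_ℝ)
    (fun i => (sob m).lap (uc u (c i))) (fun i => continuous_const.inner hcont)
    (fun i => ?_) (fun i => ?_) ?_ ?_ (fun i j => ?_) (fun i => ?_)
  · calc |K| * (4 * L * √t) ^ 2 = 16 * L ^ 2 * |K| * t := by rw [mul_pow, hsq]; ring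
      _ ≤ 16 * L ^ 2 * (|K| + 1) * (δ / (16 * L ^ 2 * (|K| + 1))) := by
        gcongr
        · linarith
        · exact hte.trans he5
      _ = δ := by field_simp
  · intro y hy r hr hrR
    have h1 := (hvol y (hq4 y hy) r hr (by linarith)).1
    rw [measureReal_def]
    exact (ENNReal.ofReal_le_iff_le_toReal (hG.fin y r).ne).1 h1
  · intro r hr hrR
    have h1 := (hvol q (hq4 q (mem_ball_self hR)) r hr (by linarith)).2
    rw [measureReal_def]
    have h2 : m (ball q r) ≤ ENNReal.ofReal (|Cv| * r ^ n) :=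
      h1.trans (ENNReal.ofReal_le_ofReal (by gcongr; exact le_abs_self _))
    exact ENNReal.toReal_le_of_le_ofReal (by positivity) h2
  · rw [hUcl]; exact hC.test_A (hT _).1
  · rw [hUcl]; exact hC.test_isLap (hT _).1
  · intro z hz
    have h1 := hli z (hsub8 z hz) q (hsub8 q (mem_ball_self hR))
    refine h1.trans ?_
    rw [dist_comm z q]
    apply mul_le_mul_of_nonneg_right _ (sq_nonneg _)
    linarith
  · intro y hy z hz
    have h1 := hli y (hsub8 y hy) z (hsub8 z hz)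
    refine h1.trans ?_
    apply mul_le_mul_of_nonneg_right _ (sq_nonneg _)
    linarith
  · rw [hUcl, hUcl]
    refine (gram_ball hE ht ht2 hxo hu hpre hc hsub i j).trans ?_
    calc k * √t ^ n * e = (k * e) * √t ^ n := by ring
      _ ≤ δ * (4 * L * √t) ^ n := by gcongr
  · have h3 : 4 * L * √t * ∫ z in ball q (4 * L * √t), |(sob m).lap (uc u (c i)) z| ∂m
        ≤ 4 * L * √t * (k * √t ^ n * (e / √t)) := by
      gcongr
      exact lap_ball hE ht ht2 hxo hu hpre hc hsub i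
    refine h3.trans ?_
    calc 4 * L * √t * (k * √t ^ n * (e / √t)) = (4 * L * k * e) * √t ^ n := by field_simp
      _ ≤ δ * (4 * L * √t) ^ n := by gcongr

/-- **Package A-GH**, frozen vocabulary, one centre and one time. -/
theorem near_at (hE : H71.Env m n K o A p) {L ψ : ℝ} (hL : 1 ≤ L) (hψ : 0 < ψ) :
    ∃ e > 0, ∀ (u : Fin n → M →ₘ[m] ℝ) (uu : M → H71.E n) (x : M) (t : ℝ), dist x o ≤ 1 →
      0 < t → t ≤ e → (∀ i, u i ∈ (sob m).TestI) → Continuous uu →
      (∀ i, ∀ᵐ x ∂m, u i x = uu x i) → PreAt m p (8 * L) e u uu x t →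
      ∃ c : Fin n → H71.E n, NearAt m p L ψ u uu x t c := by
  have hL0 : 0 < L := by linarith
  set ψ' : ℝ := min ψ 1 / (16 * L ^ 2) with hψ'
  have hm0 : 0 < min ψ 1 := lt_min hψ one_pos
  have hψ'0 : 0 < ψ' := by positivity
  have hL2 : 1 ≤ L ^ 2 := one_le_pow₀ hL
  have hψ'1 : ψ' ≤ 1 := by
    rw [hψ', div_le_one (by positivity)]
    have := min_le_right ψ 1
    nlinarith
  have hψ'ψ : ψ' ≤ ψ := by
    rw [hψ', div_le_iff₀ (by positivity)]
    have := min_le_left ψ 1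
    nlinarith
  obtain ⟨e, he0, he1, he2, H⟩ := near_q hE hL hψ'0
  refine ⟨e, he0, ?_⟩
  intro u uu x t hxo ht hte hu hcont hrep hpre
  have hst : 0 < √t := Real.sqrt_pos.2 ht
  have hsq : √t ^ 2 = t := Real.sq_sqrt ht.le
  have hS := Gm_symBil (H751.env_gamma hE) (H751.env_bei hE) hE.ker hu ht x
  obtain ⟨c, hc⟩ := exists_frame_F hS hpre.pos
  have hq := H u uu x t hxo ht hte hu hcont hrep hpre c hc
  simp only [← inner_sub_right] at hq
  have hψ1 : ψ' * (4 * L * √t) ^ 2 ≤ ψ * t := by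
    calc ψ' * (4 * L * √t) ^ 2 = min ψ 1 * t := by
          rw [hψ', mul_pow, hsq]; field_simp; norm_num
      _ ≤ ψ * t := by gcongr; exact min_le_left _ _
  have hψ2 : (ψ' * (4 * L * √t)) ^ 2 ≤ ψ * t := by
    calc (ψ' * (4 * L * √t)) ^ 2 = ψ' * (ψ' * (4 * L * √t) ^ 2) := by ring
      _ ≤ 1 * (ψ' * (4 * L * √t) ^ 2) := by gcongr
      _ ≤ ψ * t := by rw [one_mul]; exact hψ1
  refine ⟨c, hc, fun w b hb => dual_frame_F hS hpre.pos hc w b hb, ?_, ?_, ?_⟩
  · intro y z hy hz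
    have h8 : 6 * L * √t < 8 * L * √t := by nlinarith [mul_pos hL0 hst]
    refine (sum_lip hE ht he0.le (by linarith) hu hpre hc ?_ ?_).trans ?_
    · rw [mem_ball, dist_comm]; linarith
    · rw [mem_ball, dist_comm]; linarith
    · apply mul_le_mul_of_nonneg_right _ (sq_nonneg _)
      linarith
  · intro q hq' z hz
    have h1 := (hq q hq').1 z (by
      rw [mem_ball, dist_comm]
      nlinarith [mul_pos hL0 hst])
    exact h1.trans hψ1
  · intro q hq' v hv
    obtain ⟨z, hz, h2⟩ := (hq q hq').2 v (by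
      refine hv.trans ?_
      rw [mul_pow, hsq]
      nlinarith [mul_pos (pow_pos hL0 2) ht])
    have h3 := (hq q hq').1 z hz
    refine ⟨z, ?_, h2.trans hψ2, ?_⟩
    · rw [mem_ball, dist_comm] at hz
      linarith
    · have := (abs_le.1 h3).1
      linarith

end

end Vale.Agent.P242.H358
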